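import Mathlib
import Crest.Prelude.Def_SmoothModel
import Crest.Agent.Lib.FinEnt

/-!
# Row 133 (S0182): a zero-entropy ergodic system with no smooth model.  Definitions.

Overview of the proof.
* `Design`: hierarchical block structure.  Level-`l` seeds `Fin (Q l)`, block length `n l`; a
  level-`(l+1)` seed `s` is the concatenation of the `M l` level-`l` seeds `θ l s j`.
  *Affine* steps make all words pairwise far apart in Hamming distance; *hash* steps put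
  into the second half of the block a check symbol `u₀ + ∑ uᵢ vᵢ`.
* `Tower D ν S`: the system `(ν, S)` carries the block structure (has the symbolic system as a
  factor).
* `Model d ν S`: chart data of a `C²` map preserving a measure with density bounded above/below.
* Main theorem: `Model` and `Tower` are incompatible.
-/

set_option autoImplicit false

namespace Crest.Agent.R133

open MeasureTheory Filter Topology Finset
open scoped ENNReal

/-! ### The combinatorial design -/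

/-- raw block structure -/
structure PreDesign where
  Q : ℕ → ℕ
  M : ℕ → ℕ
  n : ℕ → ℕ
  θ : ∀ l, Fin (Q (l + 1)) → ℕ → Fin (Q l)

/-- affine step: every word contains every symbol equally often and every pair of distinct
words shows every pair of distinct symbols somewhere -/
def PreDesign.IsAff (D : PreDesign) (l : ℕ) : Prop :=
  D.Q (l + 1) = D.Q l ∧ D.M l ≤ D.Q l ^ 2 ∧
  (∀ s t, ((range (D.M l)).filter (fun j => D.θ l s j = t)).card * D.Q l = D.M l) ∧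
  (∀ s s', s ≠ s' → ∀ t t', t ≠ t' → ∃ j < D.M l, D.θ l s j = t ∧ D.θ l s' j = t')

/-- first half of the block -/
def PreDesign.U (D : PreDesign) (l k : ℕ) (s : Fin (D.Q (l + 1))) : Fin (k + 1) → Fin (D.Q l) :=
  fun j => D.θ l s j

/-- second half of the block -/
def PreDesign.Z (D : PreDesign) (l k : ℕ) (s : Fin (D.Q (l + 1))) : Fin (k + 1) → Fin (D.Q l) :=
  fun j => D.θ l s (k + 1 + j)

/-- hash step with parameter `k` -/
def PreDesign.IsHash (D : PreDesign) (l k : ℕ) : Prop :=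
  D.M l = 2 * (k + 1) ∧ D.Q (l + 1) = D.Q l ^ (2 * k + 1) ∧
  (∀ s s', D.U l k s = D.U l k s' → D.Z l k s = D.Z l k s' → s = s') ∧
  (∀ u, (univ.filter (fun s => D.U l k s = u)).card * D.Q l ^ (k + 1) = D.Q (l + 1)) ∧
  (∀ z, (univ.filter (fun s => D.Z l k s = z)).card * D.Q l ^ (k + 1) = D.Q (l + 1)) ∧
  ∃ Hs : (Fin (k + 1) → Fin (D.Q l)) → Finset (Fin (k + 1) → Fin (D.Q l)),
    (∀ s, D.U l k s ∈ Hs (D.Z l k s)) ∧
    (∀ z, (Hs z).card * D.Q l = D.Q l ^ (k + 1)) ∧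
    (∀ z z', z ≠ z' → (Hs z ∩ Hs z').card * D.Q l ^ 2 ≤ D.Q l ^ (k + 1))

/-- the design -/
structure Design extends PreDesign where
  Q0 : Q 0 = 2
  Q_ge : ∀ l, 2 ≤ Q l
  n0 : n 0 = 1
  n_succ : ∀ l, n (l + 1) = M l * n l
  M_ge : ∀ l, 2 ≤ M l
  unif : ∀ l j, j < M l → ∀ t, (univ.filter (fun s => θ l s j = t)).card * Q l = Q (l + 1)
  rate : Tendsto (fun l => Real.log (Q l) / n l) atTop (𝓝 0)
  stage : ∀ N, ∃ l, N ≤ l ∧ N ≤ n (l + 1) ∧ N ≤ Q (l + 1) ∧ toPreDesign.IsAff l ∧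
    ∀ i ≤ n (l + 1) ^ 2, toPreDesign.IsHash (l + 1 + i) (n (l + 1) ^ 2)

/-- the binary word of a seed -/
def PreDesign.word (D : PreDesign) : ∀ l, Fin (D.Q l) → ℕ → Bool
  | 0, s, _ => decide (s.val = 1)
  | l + 1, s, t => D.word l (D.θ l s (t / D.n l)) (t % D.n l)

/-- `(ν, S)` carries the block structure: `s l x` is the level-`l` seed of the block around `x`,
`p l x` the position of `x` inside this block -/
structure Tower (D : Design) {Ω : Type*} [MeasurableSpace Ω] (ν : Measure Ω) (S : Ω → Ω) where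
  s : ∀ l, Ω → Fin (D.Q l)
  p : ℕ → Ω → ℕ
  ms : ∀ l, Measurable (s l)
  mp : ∀ l, Measurable (p l)
  plt : ∀ l x, p l x < D.n l
  law : ∀ l a t, t < D.n l → ν {x | s l x = a ∧ p l x = t} = ((D.Q l * D.n l : ℕ) : ℝ≥0∞)⁻¹
  step : ∀ l, ∀ᵐ x ∂ν, p l (S x) = (p l x + 1) % D.n l ∧ (p l x + 1 < D.n l → s l (S x) = s l x)
  proj : ∀ l, ∀ᵐ x ∂ν, p l x = p (l + 1) x % D.n l ∧
    s l x = D.θ l (s (l + 1) x) (p (l + 1) x / D.n l)

/-- every measurable set is approximable by sets determined by the level-`l` state -/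
def Tower.Gen {D : Design} {Ω : Type*} [MeasurableSpace Ω] {ν : Measure Ω} {S : Ω → Ω}
    (T : Tower D ν S) : Prop :=
  ∀ A : Set Ω, MeasurableSet A → ∀ ε : ℝ≥0∞, 0 < ε → ∃ l₀, ∀ l ≥ l₀,
    ∃ B : Set (Fin (D.Q l) × ℕ), ν (symmDiff A {x | (T.s l x, T.p l x) ∈ B}) ≤ ε

/-! ### Names -/

/-- the `O`-name of length `len` -/
def name {Ω : Type*} (O : Ω → Bool) (S : Ω → Ω) (len : ℕ) (x : Ω) : Fin len → Bool :=
  fun t => O (S^[(t : ℕ)] x)

/-- sub-word of length `len'` starting at `a` -/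
def sub {len : ℕ} (len' a : ℕ) (v : Fin len → Bool) : Fin len' → Bool :=
  fun t => if h : a + t < len then v ⟨a + t, h⟩ else false

/-- joint law of (seed, observed name) on the base of the level-`l` tower -/
noncomputable def Tower.w {D : Design} {Ω : Type*} [MeasurableSpace Ω] {ν : Measure Ω} {S : Ω → Ω}
    (T : Tower D ν S) (O : Ω → Bool) (l : ℕ) (ω : Fin (D.Q l) × (Fin (D.n l) → Bool)) : ℝ :=
  D.n l * ν.real {x | T.p l x = 0 ∧ T.s l x = ω.1 ∧ name O S (D.n l) x = ω.2}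

/-- conditional entropy of the seed given the observed name -/
noncomputable def Tower.H {D : Design} {Ω : Type*} [MeasurableSpace Ω] {ν : Measure Ω} {S : Ω → Ω}
    (T : Tower D ν S) (O : Ω → Bool) (l : ℕ) : ℝ :=
  Lib.FinEnt.Hc (T.w O l) Prod.fst Prod.snd

/-! ### Chart data -/

/-- Euclidean space -/
abbrev E (d : ℕ) := EuclideanSpace ℝ (Fin d)

/-- action of a matrix on Euclidean space -/
noncomputable def act {d : ℕ} (A : Matrix (Fin d) (Fin d) ℝ) (v : E d) : E d :=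
  WithLp.toLp 2 (A.mulVec v.ofLp)

/-- chart data of a `C²` map on a compact manifold with a measure of bounded density -/
structure Model (d : ℕ) {M : Type*} [MeasurableSpace M] (ν : Measure M) (S : M → M) where
  N : ℕ
  φ : Fin N → M → E d
  ψ : Fin N → E d → M
  W : Fin N → Set (E d)
  U : Fin N → Set M
  c : M → Fin N
  A : M → Matrix (Fin d) (Fin d) ℝ
  C : ℝ
  good : ℝ → Set M
  one_le : 1 ≤ C
  mφ : ∀ i, Measurable (φ i)
  mψ : ∀ i, Measurable (ψ i)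
  mW : ∀ i, MeasurableSet (W i)
  mU : ∀ i, MeasurableSet (U i)
  mc : Measurable c
  mA : ∀ a b, Measurable fun x => A x a b
  mgood : ∀ ρ, MeasurableSet (good ρ)
  W_bdd : ∀ i, ∀ y ∈ W i, ‖y‖ ≤ C
  φψ : ∀ i, ∀ y ∈ W i, φ i (ψ i y) = y
  hU : ∀ i, U i = ψ i '' W i
  up : ∀ i Z, MeasurableSet Z → ν (Z ∩ U i) ≤ ENNReal.ofReal C * volume (W i ∩ ψ i ⁻¹' Z)
  low : ∀ i Z, MeasurableSet Z → volume (W i ∩ ψ i ⁻¹' Z) ≤ ENNReal.ofReal C * ν (Z ∩ U i)
  hgood : ∀ ρ x, x ∈ good ρ → x ∈ U (c x) ∧ Metric.ball (φ (c x) x) ρ ⊆ W (c x)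
  good_le : ∀ ρ, 0 < ρ → ν (good ρ)ᶜ ≤ ENNReal.ofReal (C * ρ)
  A_bd : ∀ x v, ‖act (A x) v‖ ≤ C * ‖v‖
  dyn : ∀ ρ, 0 < ρ → C * ρ ≤ 1 → ∀ x ∈ good ρ, ∀ y ∈ Metric.ball (φ (c x) x) ρ,
    ψ (c (S x)) (φ (c (S x)) (S (ψ (c x) y))) = S (ψ (c x) y) ∧
    ∀ y' ∈ Metric.ball (φ (c x) x) ρ,
      ‖φ (c (S x)) (S (ψ (c x) y)) - φ (c (S x)) (S (ψ (c x) y')) - act (A x) (y - y')‖ ≤
        C * ρ * ‖y - y'‖
  approx : ∀ Z, MeasurableSet Z → ∀ δ : ℝ, 0 < δ → ∃ (g : M → ℝ) (Lg : ℝ), Measurable g ∧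
    1 ≤ Lg ∧ ν {x | g x ≠ Z.indicator 1 x} ≤ ENNReal.ofReal δ ∧
    ∀ ρ, 0 < ρ → Lg * ρ ≤ 1 → ∀ x ∈ good ρ, ∀ y ∈ Metric.ball (φ (c x) x) ρ,
      |g (ψ (c x) y) - g x| ≤ Lg * ρ

/-! ### The potential -/

/-- matrix products along a sequence -/
noncomputable def Pm {d : ℕ} (a : ℕ → Matrix (Fin d) (Fin d) ℝ) : ℕ → Matrix (Fin d) (Fin d) ℝ
  | 0 => 1
  | t + 1 => a t * Pm a t

/-- the quadratic form `∑_{t<k} |P_t v|²` -/
noncomputable def Qm {d : ℕ} (a : ℕ → Matrix (Fin d) (Fin d) ℝ) (k : ℕ) :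
    Matrix (Fin d) (Fin d) ℝ :=
  ∑ t ∈ range k, (Pm a t).transpose * Pm a t

/-- subadditive potential (`L` bounds the operator norms of the `a t`) -/
noncomputable def pot {d : ℕ} (L : ℝ) (a : ℕ → Matrix (Fin d) (Fin d) ℝ) (k : ℕ) : ℝ :=
  if k = 0 then 0 else Real.log (Qm a k).det + d * Real.log (1 + L ^ 2)

/-- the potential along an orbit -/
noncomputable def Model.pot {d : ℕ} {M : Type*} [MeasurableSpace M] {ν : Measure M} {S : M → M}
    (m : Model d ν S) (x : M) (k : ℕ) : ℝ :=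
  R133.pot m.C (fun t => m.A (S^[t] x)) k

/-- true orbit of a non-autonomous system started at time `a`, after `j` steps -/
def orb {α : Type*} (F : ℕ → α → α) (a : ℕ) (y : α) : ℕ → α
  | 0 => y
  | j + 1 => F (a + j) (orb F a y j)

/-- the good set at block length `m`, `2(k+1)` blocks, scale `exp (-x)` -/
def Model.G {d : ℕ} {M : Type*} [MeasurableSpace M] {ν : Measure M} {S : M → M}
    (mo : Model d ν S) (g : M → ℝ) (Lg t₀ : ℝ) (m k : ℕ) (x : ℝ) : Set M :=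
  {z | ∑ j ∈ range (2 * (k + 1)), mo.pot (S^[j * m] z) m - mo.pot z (2 * (k + 1) * m) ≤ x ∧
    ∀ t < 2 * (k + 1) * m, S^[t] z ∈ mo.good (Real.exp (-x)) ∧
      Lg * Real.exp (-x) < |g (S^[t] z) - t₀|}

end Crest.Agent.R133
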