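import Crest.Agent.R133.Defs

/-!
# Row 133: existence of the design, Hamming distance of words after an affine step

PLAN for `exists_design`.  Numeric recursion on a state `(e, n, k, c)`, start `(1,1,0,0)`:
* if `c = 0` (affine step): `M = 2^e (2^e - 1)`, `e' = e`, `n' = M n`, `k' = n'^2`, `c' = k'+1`;
* else (hash step): `M = 2(k+1)`, `e' = (2k+1) e`, `n' = M n`, `k' = k`, `c' = c-1`.
`Q l = 2^(e l)`.  For each `l` prove `∃ θ, (properties)` using `K = GaloisField 2 (e l)`
(`GaloisField.card`, `Fintype.equivFinOfCardEq`) and use `Classical.choose`/`choose`.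
It is convenient to prove two lemmas for an arbitrary finite field `K` with `Fin Q ≃ K`:
* affine: index `j < Q(Q-1)` ↔ `(a,b) ∈ Kˣ × K`, `θ s j = a s + b`;
* hash: seed `s` ↔ `(u, v) ∈ (Fin (k+1) → K) × (Fin k → K)`, `θ s j = u j` for `j ≤ k`,
  `θ s (k+1+j) = v j` for `j < k`, `θ s (2k+1) = u 0 + ∑ j, u (j+1) * v j`;
  `Hs z = {u | u 0 + ∑ j, u j.succ * z j.castSucc = z (last k)}`.
`rate`: `log Q / n` does not increase in hash steps and is at least halved in affine steps
(or: `e l / n l ≤ 1 / (number of affine steps so far)`...), affine steps occur infinitely often.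

PLAN for `word_dist`: (1) by induction with `unif`: for `t < n l`,
`2 * #{s | word l s t = true} = Q l`; (2) hence `2 * ∑_{t,t'} dist_l(t,t') = n l * Q l ^ 2`;
(3) `dist_{l+1}(s,s') = ∑_{j<M} dist_l(θ s j, θ s' j) ≥ ∑_{t ≠ t'} dist_l(t,t')`; `M ≤ Q²`.
-/

set_option autoImplicit false

namespace Crest.Agent.R133

open Finset

namespace DesignEx

theorem sum_range_mul' (f : ℕ → ℕ → ℕ) (M n : ℕ) (hn : 0 < n) :
    ∑ x ∈ range (M * n), f (x / n) (x % n) = ∑ j ∈ range M, ∑ y ∈ range n, f j y := by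
  induction M with
  | zero => simp
  | succ M ih =>
    rw [Nat.succ_mul, sum_range_add, ih, sum_range_succ]
    congr 1
    refine sum_congr rfl fun y hy => ?_
    have hy' := mem_range.1 hy
    rw [add_comm, Nat.add_mul_div_right _ _ hn, Nat.add_mul_mod_self_right,
      Nat.div_eq_of_lt hy', Nat.mod_eq_of_lt hy', zero_add]

theorem card_fib {B F : Type} [Fintype B] [Fintype F] [DecidableEq F] (φ : B → F) (c N : ℕ)
    (h : ∀ t, (univ.filter (fun s => φ s = t)).card * c = N) (P : F → Prop) [DecidablePred P] :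
    (univ.filter (fun s => P (φ s))).card * c = (univ.filter P).card * N := by
  rw [card_eq_sum_card_fiberwise (f := φ) (t := univ.filter P) (by
    intro s hs; simpa using hs), sum_mul, ← smul_eq_mul, ← sum_const]
  refine sum_congr rfl fun t ht => ?_
  rw [← h t]
  congr 2
  ext s
  simp only [mem_filter, mem_univ, true_and] at ht ⊢
  exact ⟨fun h => h.2, fun h => ⟨h ▸ ht, h⟩⟩

theorem card_coord {B F : Type} [Fintype B] [Fintype F] [DecidableEq F] {k N : ℕ}
    (Φ : B → Fin (k + 1) → F)
    (h : ∀ u, (univ.filter (fun s => Φ s = u)).card * Fintype.card F ^ (k + 1) = N)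
    (j : Fin (k + 1)) (t : F) : (univ.filter (fun s => Φ s j = t)).card * Fintype.card F = N := by
  have h1 := card_fib Φ _ _ h (fun u => u j = t)
  have h2 := Fintype.card_filter_piFinset_const_eq_of_mem (univ : Finset F) j (mem_univ t)
  rw [Fintype.piFinset_univ, card_univ, Fintype.card_fin, Nat.add_sub_cancel] at h2
  rw [h2] at h1
  have hpos : 0 < Fintype.card F ^ k := pow_pos (Fintype.card_pos_iff.2 ⟨t⟩) _
  apply Nat.eq_of_mul_eq_mul_left hpos
  rw [← h1]; ring

theorem aff_abs (F : Type) [Field F] [Fintype F] [DecidableEq F] :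
    ∃ θ : F → ℕ → F,
      (∀ j < Fintype.card F * (Fintype.card F - 1), ∀ t,
        (univ.filter (fun s => θ s j = t)).card = 1) ∧
      (∀ s t, ((range (Fintype.card F * (Fintype.card F - 1))).filter
        (fun j => θ s j = t)).card = Fintype.card F - 1) ∧
      (∀ s s', s ≠ s' → ∀ t t', t ≠ t' →
        ∃ j < Fintype.card F * (Fintype.card F - 1), θ s j = t ∧ θ s' j = t') := by
  set m := Fintype.card F * (Fintype.card F - 1) with hm
  have hc : Fintype.card (F × Fˣ) = m := by rw [Fintype.card_prod, Fintype.card_units]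
  let ι : F × Fˣ ≃ Fin m := Fintype.equivFinOfCardEq hc
  refine ⟨fun s j => if h : j < m then (ι.symm ⟨j, h⟩).2 * s + (ι.symm ⟨j, h⟩).1 else s,
    ?_, ?_, ?_⟩
  · intro j hj t
    simp only [dif_pos hj]
    rw [card_eq_one]
    refine ⟨((ι.symm ⟨j, hj⟩).2⁻¹ : Fˣ) * (t - (ι.symm ⟨j, hj⟩).1), ?_⟩
    ext s
    simp only [mem_filter, mem_univ, true_and, mem_singleton]
    rw [Units.eq_inv_mul_iff_mul_eq, eq_sub_iff_add_eq]
  · intro s t
    rw [← Fintype.card_units, ← card_univ]
    symm
    refine card_bij (fun a _ => (ι (t - a * s, a) : ℕ)) ?_ ?_ ?_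
    · intro a _
      simp only [mem_filter, mem_range, Fin.is_lt, true_and, dif_pos, Fin.eta,
        Equiv.symm_apply_apply]
      ring
    · intro a _ b _ h
      exact congrArg Prod.snd (ι.injective (Fin.ext h))
    · intro j hj
      simp only [mem_filter, mem_range] at hj
      obtain ⟨hj, h⟩ := hj
      rw [dif_pos hj] at h
      refine ⟨(ι.symm ⟨j, hj⟩).2, mem_univ _, ?_⟩
      have : (t - (ι.symm ⟨j, hj⟩).2 * s, (ι.symm ⟨j, hj⟩).2) = ι.symm ⟨j, hj⟩ := by
        refine Prod.ext ?_ rfl
        rw [← h]; simp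
      simp only [this, Equiv.apply_symm_apply]
  · intro s s' hs t t' ht
    have h1 : s - s' ≠ 0 := sub_ne_zero.2 hs
    have h2 : t - t' ≠ 0 := sub_ne_zero.2 ht
    let a : Fˣ := Units.mk0 ((t - t') / (s - s')) (div_ne_zero h2 h1)
    refine ⟨ι (t - a * s, a), (ι _).2, ?_, ?_⟩
    · simp only [Fin.is_lt, dif_pos, Fin.eta, Equiv.symm_apply_apply]; ring
    · simp only [Fin.is_lt, dif_pos, Fin.eta, Equiv.symm_apply_apply, a, Units.val_mk0]
      field_simp
      ring

section hash
variable {F : Type} [Field F] [Fintype F] [DecidableEq F] {k : ℕ}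

/-- check symbol -/
def chk (u : Fin (k + 1) → F) (v : Fin k → F) : F := u 0 + ∑ i, u i.succ * v i

/-- the hash word -/
def th (s : (Fin (k + 1) → F) × (Fin k → F)) (j : ℕ) : F :=
  if h : j < k + 1 then s.1 ⟨j, h⟩ else
    if h' : j - (k + 1) < k then s.2 ⟨j - (k + 1), h'⟩ else chk s.1 s.2

/-- hash set -/
def Hs (z : Fin (k + 1) → F) : Finset (Fin (k + 1) → F) :=
  univ.filter (fun u => chk u (fun i => z i.castSucc) = z (Fin.last k))

omit [Fintype F] [DecidableEq F] in
theorem th_U (s : (Fin (k + 1) → F) × (Fin k → F)) :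
    (fun j : Fin (k + 1) => th s j) = s.1 := by
  funext j; simp [th, j.2]

omit [Fintype F] [DecidableEq F] in
theorem th_Z1 (s : (Fin (k + 1) → F) × (Fin k → F)) (i : Fin k) :
    th s (k + 1 + (i.castSucc : ℕ)) = s.2 i := by
  unfold th
  rw [dif_neg (by omega)]
  simp

omit [Fintype F] [DecidableEq F] in
theorem th_Z2 (s : (Fin (k + 1) → F) × (Fin k → F)) :
    th s (k + 1 + (Fin.last k : ℕ)) = chk s.1 s.2 := by
  simp [th]

omit [Fintype F] [DecidableEq F] in
theorem th_Z_iff (s : (Fin (k + 1) → F) × (Fin k → F)) (z : Fin (k + 1) → F) :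
    (fun j : Fin (k + 1) => th s (k + 1 + j)) = z ↔
      s.2 = (fun i => z i.castSucc) ∧ chk s.1 s.2 = z (Fin.last k) := by
  constructor
  · rintro rfl
    exact ⟨funext fun i => (th_Z1 s i).symm, (th_Z2 s).symm⟩
  · rintro ⟨h1, h2⟩
    funext j
    induction j using Fin.lastCases with
    | last => rw [th_Z2, h2]
    | cast i => rw [th_Z1, h1]

theorem card_Hs (z : Fin (k + 1) → F) : (Hs z).card = Fintype.card F ^ k := by
  have : Fintype.card (Fin k → F) = Fintype.card F ^ k := by simp
  rw [← this, ← card_univ]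
  refine card_nbij' (fun u i => u i.succ)
    (fun w => Fin.cons (z (Fin.last k) - ∑ i, w i * z i.castSucc) w) ?_ ?_ ?_ ?_
  · intro u _; simp
  · intro w _
    simp [Hs, chk]
  · intro u hu
    simp only [Hs, chk, coe_filter, mem_univ, true_and, Set.mem_setOf_eq] at hu
    funext j
    induction j using Fin.cases with
    | zero => simp [← hu]
    | succ i => simp
  · intro w _
    funext i; simp

theorem card_Hs_inter {z z' : Fin (k + 1) → F} (h : z ≠ z') :
    (Hs z ∩ Hs z').card * Fintype.card F ^ 2 ≤ Fintype.card F ^ (k + 1) := by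
  by_cases h0 : ∀ i : Fin k, z i.castSucc = z' i.castSucc
  · have : Hs z ∩ Hs z' = ∅ := by
      rw [eq_empty_iff_forall_notMem]
      intro u hu
      simp only [Hs, mem_inter, mem_filter, mem_univ, true_and] at hu
      apply h
      funext j
      induction j using Fin.lastCases with
      | last => rw [← hu.1, ← hu.2, funext h0]
      | cast i => exact h0 i
    rw [this]; simp
  push Not at h0
  obtain ⟨i0, hi0⟩ := h0
  have h1 : (Hs z ∩ Hs z').card ≤ Fintype.card ({i : Fin k // i ≠ i0} → F) := by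
    rw [← card_univ]
    refine card_le_card_of_injOn (fun u i => u i.1.succ) (fun _ _ => mem_coe.2 (mem_univ _)) ?_
    intro u hu u' hu' e
    simp only [Hs, chk, coe_inter, coe_filter, mem_univ, true_and, Set.mem_inter_iff,
      Set.mem_setOf_eq] at hu hu'
    have e' : ∀ i, i ≠ i0 → u i.succ = u' i.succ := fun i hi => congrFun e ⟨i, hi⟩
    have hs : ∀ y : Fin k → F, ∑ i, u i.succ * y i - ∑ i, u' i.succ * y i =
        (u i0.succ - u' i0.succ) * y i0 := by
      intro y
      rw [← sum_sub_distrib, sum_eq_single i0]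
      · ring
      · intro i _ hi; rw [e' i hi, sub_self]
      · simp
    have a1 := hs (fun i => z i.castSucc)
    have a2 := hs (fun i => z' i.castSucc)
    have a3 : (u i0.succ - u' i0.succ) * (z i0.castSucc - z' i0.castSucc) = 0 := by
      linear_combination hu.1 - hu'.1 - hu.2 + hu'.2 - a1 + a2
    have a4 : u i0.succ = u' i0.succ :=
      sub_eq_zero.1 ((mul_eq_zero.1 a3).resolve_right (sub_ne_zero.2 hi0))
    funext j
    induction j using Fin.cases with
    | zero => linear_combination hu.1 - hu'.1 - a1 - z i0.castSucc * a4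
    | succ i =>
      by_cases hi : i = i0
      · rw [hi, a4]
      · exact e' i hi
  have h2 : Fintype.card ({i : Fin k // i ≠ i0} → F) = Fintype.card F ^ (k - 1) := by
    simp
  have hk : k - 1 + 2 = k + 1 := by have := i0.2; omega
  have h3 : Fintype.card F ^ (k + 1) = Fintype.card F ^ (k - 1) * Fintype.card F ^ 2 := by
    rw [← pow_add, hk]
  rw [h3, ← h2]
  exact Nat.mul_le_mul_right _ h1

end hash

theorem hash_abs (F : Type) [Field F] [Fintype F] [DecidableEq F] (k : ℕ) (B : Type) [Fintype B]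
    (hB : Fintype.card B = Fintype.card F ^ (2 * k + 1)) :
    ∃ θ : B → ℕ → F,
      (∀ j < 2 * (k + 1), ∀ t,
        (univ.filter (fun s => θ s j = t)).card * Fintype.card F = Fintype.card B) ∧
      (∀ s s', (fun j : Fin (k + 1) => θ s j) = (fun j : Fin (k + 1) => θ s' j) →
        (fun j : Fin (k + 1) => θ s (k + 1 + j)) = (fun j : Fin (k + 1) => θ s' (k + 1 + j)) →
        s = s') ∧
      (∀ u, (univ.filter (fun s => (fun j : Fin (k + 1) => θ s j) = u)).card *
        Fintype.card F ^ (k + 1) = Fintype.card B) ∧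
      (∀ z, (univ.filter (fun s => (fun j : Fin (k + 1) => θ s (k + 1 + j)) = z)).card *
        Fintype.card F ^ (k + 1) = Fintype.card B) ∧
      ∃ Hs : (Fin (k + 1) → F) → Finset (Fin (k + 1) → F),
        (∀ s, (fun j : Fin (k + 1) => θ s j) ∈ Hs (fun j : Fin (k + 1) => θ s (k + 1 + j))) ∧
        (∀ z, (Hs z).card * Fintype.card F = Fintype.card F ^ (k + 1)) ∧
        (∀ z z', z ≠ z' → (Hs z ∩ Hs z').card * Fintype.card F ^ 2 ≤ Fintype.card F ^ (k + 1)) := by
  have hc : Fintype.card B = Fintype.card ((Fin (k + 1) → F) × (Fin k → F)) := by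
    rw [hB]; simp [← pow_add]; congr 1; ring
  let σ := Fintype.equivOfCardEq hc
  have hU : ∀ u, (univ.filter (fun s => (fun j : Fin (k + 1) => th (σ s) j) = u)).card *
        Fintype.card F ^ (k + 1) = Fintype.card B := by
    intro u
    have : (univ.filter (fun s => (fun j : Fin (k + 1) => th (σ s) j) = u)).card =
        (univ : Finset (Fin k → F)).card := by
      refine card_nbij' (fun s => (σ s).2) (fun v => σ.symm (u, v)) ?_ ?_ ?_ ?_
      · intro s _; simp
      · intro v _; simp [th_U]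
      · intro s hs
        simp only [th_U, coe_filter, mem_univ, true_and, Set.mem_setOf_eq] at hs
        simp [← hs]
      · intro v _; simp
    rw [this, hB]; simp [← pow_add]; congr 1; ring
  have hZ : ∀ z, (univ.filter (fun s => (fun j : Fin (k + 1) => th (σ s) (k + 1 + j)) = z)).card *
        Fintype.card F ^ (k + 1) = Fintype.card B := by
    intro z
    have : (univ.filter (fun s => (fun j : Fin (k + 1) => th (σ s) (k + 1 + j)) = z)).card =
        (Hs z).card := by
      refine card_nbij' (fun s => (σ s).1) (fun u => σ.symm (u, fun i => z i.castSucc)) ?_ ?_ ?_ ?_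
      · intro s hs
        simp only [th_Z_iff, coe_filter, mem_univ, true_and, Set.mem_setOf_eq] at hs
        simp only [Hs, coe_filter, mem_univ, true_and, Set.mem_setOf_eq]
        rw [← hs.1, hs.2]
      · intro u hu
        simp only [Hs, coe_filter, mem_univ, true_and, Set.mem_setOf_eq] at hu
        simp only [th_Z_iff, coe_filter, mem_univ, true_and, Set.mem_setOf_eq,
          Equiv.apply_symm_apply, hu]
      · intro s hs
        simp only [th_Z_iff, coe_filter, mem_univ, true_and, Set.mem_setOf_eq] at hs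
        simp [← hs.1]
      · intro v _; simp
    rw [this, hB, card_Hs, ← pow_add]; congr 1; ring
  refine ⟨fun s => th (σ s), ?_, ?_, hU, hZ, Hs, ?_, ?_, fun _ _ => card_Hs_inter⟩
  · intro j hj t
    by_cases h : j < k + 1
    · exact card_coord _ hU ⟨j, h⟩ t
    · have := card_coord _ hZ ⟨j - (k + 1), by omega⟩ t
      simp only [show k + 1 + (j - (k + 1)) = j by omega] at this
      exact this
  · intro s s' h1 h2
    apply σ.injective
    rw [th_U, th_U] at h1
    refine Prod.ext h1 ?_
    funext i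
    have := congrFun h2 i.castSucc
    simp only [th_Z1] at this
    exact this
  · intro s
    simp only [Hs, mem_filter, mem_univ, true_and, th_U, th_Z1, th_Z2]
  · intro z; rw [card_Hs, pow_succ]

theorem exists_field (e : ℕ) (he : e ≠ 0) : Nonempty (Field (Fin (2 ^ e))) := by
  have : Fintype (GaloisField 2 e) := Fintype.ofFinite _
  have hc : Fintype.card (GaloisField 2 e) = 2 ^ e := by
    rw [← Nat.card_eq_fintype_card, GaloisField.card 2 e he]
  exact ⟨(Fintype.equivFinOfCardEq hc).symm.field⟩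

/-- numeric state -/
structure St where
  e : ℕ
  n : ℕ
  k : ℕ
  c : ℕ

def St.M (s : St) : ℕ := if s.c = 0 then 2 ^ s.e * (2 ^ s.e - 1) else 2 * (s.k + 1)

def St.next (s : St) : St :=
  if s.c = 0 then ⟨s.e, s.M * s.n, (s.M * s.n) ^ 2, (s.M * s.n) ^ 2 + 1⟩
  else ⟨(2 * s.k + 1) * s.e, s.M * s.n, s.k, s.c - 1⟩

def st : ℕ → St
  | 0 => ⟨1, 1, 0, 0⟩
  | l + 1 => (st l).next

theorem n_succ (l : ℕ) : (st (l + 1)).n = (st l).M * (st l).n := by
  simp only [st, St.next]; split_ifs <;> rfl

theorem e_aff {l : ℕ} (h : (st l).c = 0) : (st (l + 1)).e = (st l).e := by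
  simp only [st, St.next, if_pos h]
theorem k_aff {l : ℕ} (h : (st l).c = 0) : (st (l + 1)).k = (st (l + 1)).n ^ 2 := by
  simp only [st, St.next, if_pos h]
theorem c_aff {l : ℕ} (h : (st l).c = 0) : (st (l + 1)).c = (st (l + 1)).n ^ 2 + 1 := by
  simp only [st, St.next, if_pos h]
theorem M_aff {l : ℕ} (h : (st l).c = 0) : (st l).M = 2 ^ (st l).e * (2 ^ (st l).e - 1) := by
  simp only [St.M, if_pos h]
theorem e_hash {l : ℕ} (h : (st l).c ≠ 0) :
    (st (l + 1)).e = (2 * (st l).k + 1) * (st l).e := by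
  simp only [st, St.next, if_neg h]
theorem k_hash {l : ℕ} (h : (st l).c ≠ 0) : (st (l + 1)).k = (st l).k := by
  simp only [st, St.next, if_neg h]
theorem c_hash {l : ℕ} (h : (st l).c ≠ 0) : (st (l + 1)).c = (st l).c - 1 := by
  simp only [st, St.next, if_neg h]
theorem M_hash {l : ℕ} (h : (st l).c ≠ 0) : (st l).M = 2 * ((st l).k + 1) := by
  simp only [St.M, if_neg h]

theorem e_le (l : ℕ) : (st l).e ≤ (st (l + 1)).e := by
  by_cases h : (st l).c = 0
  · rw [e_aff h]
  · rw [e_hash h]; nlinarith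

theorem e_mono : Monotone (fun l => (st l).e) := monotone_nat_of_le_succ e_le

theorem e_pos (l : ℕ) : 1 ≤ (st l).e := e_mono (Nat.zero_le l)

theorem Q_ge (l : ℕ) : 2 ≤ 2 ^ (st l).e :=
  calc 2 = 2 ^ 1 := rfl
    _ ≤ _ := Nat.pow_le_pow_right (by norm_num) (e_pos l)

theorem M_ge (l : ℕ) : 2 ≤ (st l).M := by
  by_cases h : (st l).c = 0
  · rw [M_aff h]
    have := Q_ge l
    have h2 : 1 ≤ 2 ^ (st l).e - 1 := by omega
    nlinarith
  · rw [M_hash h]; omega

theorem n_gt (l : ℕ) : l < (st l).n := by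
  induction l with
  | zero => simp [st]
  | succ l ih => rw [n_succ]; have := M_ge l; nlinarith

theorem hash_run {l : ℕ} (h : (st l).c = 0) (i : ℕ) (hi : i ≤ (st (l + 1)).n ^ 2 + 1) :
    (st (l + 1 + i)).k = (st (l + 1)).n ^ 2 ∧ (st (l + 1 + i)).c = (st (l + 1)).n ^ 2 + 1 - i := by
  induction i with
  | zero => exact ⟨k_aff h, c_aff h⟩
  | succ i ih =>
    obtain ⟨h1, h2⟩ := ih (by omega)
    have h3 : (st (l + 1 + i)).c ≠ 0 := by omega
    rw [← add_assoc, k_hash h3, c_hash h3, h1, h2]
    exact ⟨rfl, by omega⟩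

theorem ratio_succ {m l : ℕ} (h : m * (st l).e ≤ (st l).n) :
    m * (st (l + 1)).e ≤ (st (l + 1)).n := by
  rw [n_succ]
  by_cases hc : (st l).c = 0
  · rw [e_aff hc]; have := M_ge l; nlinarith
  · rw [e_hash hc, M_hash hc]; nlinarith

theorem ratio_le {m l l' : ℕ} (hl : l ≤ l') (h : m * (st l).e ≤ (st l).n) :
    m * (st l').e ≤ (st l').n := by
  induction hl with
  | refl => exact h
  | step _ ih => exact ratio_succ ih

theorem exists_stage (m : ℕ) :
    ∃ l, (st l).c = 0 ∧ m ≤ l ∧ m ≤ (st l).e ∧ (m + 1) * (st l).e ≤ (st l).n := by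
  induction m with
  | zero => exact ⟨0, rfl, le_rfl, Nat.zero_le _, by simp [st]⟩
  | succ m ih =>
    obtain ⟨l, h1, h2, h3, h4⟩ := ih
    have hn := n_gt (l + 1)
    have hk : 1 ≤ (st (l + 1)).n ^ 2 := Nat.one_le_pow _ _ (by omega)
    refine ⟨l + 1 + ((st (l + 1)).n ^ 2 + 1), ?_, by omega, ?_, ?_⟩
    · rw [(hash_run h1 _ le_rfl).2, Nat.sub_self]
    · have a1 : (st (l + 1)).c ≠ 0 := by rw [c_aff h1]; omega
      have a2 := e_hash a1
      rw [k_aff h1, e_aff h1] at a2
      have a3 : (st (l + 1 + 1)).e ≤ (st (l + 1 + ((st (l + 1)).n ^ 2 + 1))).e :=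
        e_mono (by omega)
      have := e_pos l
      nlinarith
    · refine ratio_le (l := l + 1) (by omega) ?_
      rw [n_succ, e_aff h1]
      have := M_ge l
      nlinarith

theorem rate : Filter.Tendsto (fun l => Real.log ((2 ^ (st l).e : ℕ) : ℝ) / ((st l).n : ℝ))
    Filter.atTop (nhds 0) := by
  rw [Metric.tendsto_atTop]
  intro ε hε
  obtain ⟨m, hm⟩ := exists_nat_one_div_lt hε
  obtain ⟨l, -, -, -, h⟩ := exists_stage m
  refine ⟨l, fun l' hl => ?_⟩
  have h1 : ((m + 1) * (st l').e : ℝ) ≤ (st l').n := by exact_mod_cast ratio_le hl h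
  have hn : (0 : ℝ) < (st l').n := by exact_mod_cast (Nat.zero_le _).trans_lt (n_gt l')
  have hlog : Real.log 2 ≤ 1 := by
    have := Real.log_le_sub_one_of_pos (show (0 : ℝ) < 2 by norm_num); linarith
  have hlog0 : 0 ≤ Real.log 2 := Real.log_nonneg (by norm_num)
  rw [Real.dist_eq, sub_zero, Nat.cast_pow, Nat.cast_ofNat, Real.log_pow,
    abs_of_nonneg (by positivity)]
  refine lt_of_le_of_lt ?_ hm
  rw [div_le_div_iff₀ hn (by positivity)]
  have : (0 : ℝ) ≤ (m + 1) * (st l').e := by positivity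
  nlinarith

/-- properties of one step -/
def Good (q q' M k c : ℕ) (θ : Fin q' → ℕ → Fin q) : Prop :=
  (∀ j < M, ∀ t, (univ.filter (fun s => θ s j = t)).card * q = q') ∧
  (c = 0 → (∀ s t, ((range M).filter (fun j => θ s j = t)).card * q = M) ∧
    (∀ s s', s ≠ s' → ∀ t t', t ≠ t' → ∃ j < M, θ s j = t ∧ θ s' j = t')) ∧
  (c ≠ 0 →
      (∀ s s', (fun j : Fin (k + 1) => θ s j) = (fun j : Fin (k + 1) => θ s' j) →
        (fun j : Fin (k + 1) => θ s (k + 1 + j)) = (fun j : Fin (k + 1) => θ s' (k + 1 + j)) →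
        s = s') ∧
      (∀ u, (univ.filter (fun s => (fun j : Fin (k + 1) => θ s j) = u)).card *
        q ^ (k + 1) = q') ∧
      (∀ z, (univ.filter (fun s => (fun j : Fin (k + 1) => θ s (k + 1 + j)) = z)).card *
        q ^ (k + 1) = q') ∧
      ∃ Hs : (Fin (k + 1) → Fin q) → Finset (Fin (k + 1) → Fin q),
        (∀ s, (fun j : Fin (k + 1) => θ s j) ∈ Hs (fun j : Fin (k + 1) => θ s (k + 1 + j))) ∧
        (∀ z, (Hs z).card * q = q ^ (k + 1)) ∧
        (∀ z z', z ≠ z' → (Hs z ∩ Hs z').card * q ^ 2 ≤ q ^ (k + 1)))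

theorem exists_good (l : ℕ) :
    ∃ θ, Good (2 ^ (st l).e) (2 ^ (st (l + 1)).e) (st l).M (st l).k (st l).c θ := by
  obtain ⟨fld⟩ := exists_field (st l).e (by have := e_pos l; omega)
  by_cases h : (st l).c = 0
  · rw [e_aff h, M_aff h]
    obtain ⟨θ, h1, h2, h3⟩ := @aff_abs (Fin (2 ^ (st l).e)) fld _ _
    simp only [Fintype.card_fin] at h1 h2 h3
    refine ⟨θ, fun j hj t => ?_, fun _ => ⟨fun s t => ?_, h3⟩, fun h' => absurd h h'⟩
    · rw [h1 j hj t, one_mul]
    · rw [h2, mul_comm]
  · rw [M_hash h]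
    obtain ⟨θ, h1, h2⟩ := @hash_abs (Fin (2 ^ (st l).e)) fld _ _ (st l).k
      (Fin (2 ^ (st (l + 1)).e)) _ (by
        rw [Fintype.card_fin, Fintype.card_fin, e_hash h, ← pow_mul, mul_comm])
    simp only [Fintype.card_fin] at h1 h2
    exact ⟨θ, h1, fun h' => absurd h' h, fun _ => h2⟩

end DesignEx

open DesignEx in
theorem exists_design : Nonempty Design := by
  choose θ hθ using exists_good
  refine ⟨{ Q := fun l => 2 ^ (st l).e
            M := fun l => (st l).M
            n := fun l => (st l).n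
            θ := θ
            Q0 := rfl
            Q_ge := Q_ge
            n0 := rfl
            n_succ := n_succ
            M_ge := M_ge
            unif := fun l => (hθ l).1
            rate := rate
            stage := ?_ }⟩
  intro N
  obtain ⟨l, h1, h2, h3, -⟩ := exists_stage N
  refine ⟨l, h2, ?_, ?_, ⟨?_, ?_, (hθ l).2.1 h1⟩, ?_⟩
  · have := n_gt (l + 1); omega
  · exact (h3.trans (e_le l)).trans (Nat.lt_two_pow_self).le
  · simp only [e_aff h1]
  · simp only [M_aff h1, sq]
    exact Nat.mul_le_mul_left _ (Nat.sub_le _ _)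
  · intro i hi
    obtain ⟨a1, a2⟩ := hash_run h1 i (by omega)
    have a3 : (st (l + 1 + i)).c ≠ 0 := by omega
    have := (hθ (l + 1 + i)).2.2 a3
    rw [a1] at this
    refine ⟨?_, ?_, this⟩
    · simp only [M_hash a3, a1]
    · simp only [e_hash a3, a1, ← pow_mul, mul_comm]

namespace DesignEx

theorem n_pos (D : Design) (l : ℕ) : 0 < D.n l := by
  induction l with
  | zero => rw [D.n0]; exact one_pos
  | succ l ih => rw [D.n_succ]; exact Nat.mul_pos (by have := D.M_ge l; omega) ih

theorem half (D : Design) (l : ℕ) : ∀ x < D.n l,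
    2 * (univ.filter (fun s => D.word l s x = true)).card = D.Q l := by
  induction l with
  | zero =>
    intro x _
    have h2 : 1 < D.Q 0 := D.Q_ge 0
    have : univ.filter (fun s => D.word 0 s x = true) = {⟨1, h2⟩} := by
      ext s
      simp [PreDesign.word, Fin.ext_iff]
    rw [this, card_singleton, D.Q0]
  | succ l ih =>
    intro x hx
    have hn := n_pos D l
    have hj : x / D.n l < D.M l := by
      rw [Nat.div_lt_iff_lt_mul hn, ← D.n_succ]; exact hx
    have h1 := card_fib (fun s => D.θ l s (x / D.n l)) _ _ (D.unif l _ hj)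
      (fun t => D.word l t (x % D.n l) = true)
    have h2 := ih (x % D.n l) (Nat.mod_lt _ hn)
    have hQ : 0 < D.Q l := by have := D.Q_ge l; omega
    apply Nat.eq_of_mul_eq_mul_right hQ
    rw [mul_assoc]
    change 2 * ((univ.filter
      (fun s => D.word l (D.θ l s (x / D.n l)) (x % D.n l) = true)).card * _) = _
    rw [h1, ← mul_assoc, h2, mul_comm]

theorem pair_count {B : Type} [Fintype B] (f : B → Bool)
    (h : 2 * (univ.filter (fun s => f s = true)).card = Fintype.card B) :
    2 * ∑ p : B × B, (if f p.1 ≠ f p.2 then 1 else 0) = Fintype.card B ^ 2 := by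
  have h1 : (univ.filter (fun s => f s = true)).card + (univ.filter (fun s => ¬ f s = true)).card
      = Fintype.card B := by
    rw [card_filter_add_card_filter_not, card_univ]
  have h2 : ∀ b : Bool, 2 * ∑ t : B, (if b ≠ f t then 1 else 0) = Fintype.card B := by
    intro b
    rw [← card_filter]
    cases b
    · rw [← h]; congr 2; ext t; simp
    · have : (univ.filter (fun t => true ≠ f t)) = univ.filter (fun s => ¬ f s = true) := by
        ext t; simp
      rw [this]; omega
  rw [Fintype.sum_prod_type, mul_sum]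
  simp only [h2, sum_const, card_univ, smul_eq_mul, sq]

end DesignEx

open DesignEx in
theorem Design.word_dist (D : Design) (l : ℕ) (h : D.IsAff l) (s s' : Fin (D.Q (l + 1)))
    (hs : s ≠ s') :
    D.n (l + 1) ≤ 2 * ((range (D.n (l + 1))).filter
      (fun t => D.word (l + 1) s t ≠ D.word (l + 1) s' t)).card := by
  obtain ⟨-, hM, -, hp⟩ := h
  have hn := DesignEx.n_pos D l
  let dist : Fin (D.Q l) × Fin (D.Q l) → ℕ := fun p =>
    ∑ y ∈ range (D.n l), if D.word l p.1 y ≠ D.word l p.2 y then 1 else 0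
  have h1 : ((range (D.n (l + 1))).filter
      (fun t => D.word (l + 1) s t ≠ D.word (l + 1) s' t)).card =
      ∑ j ∈ range (D.M l), dist (D.θ l s j, D.θ l s' j) := by
    rw [card_filter, D.n_succ]
    exact sum_range_mul' (fun j y =>
      if D.word l (D.θ l s j) y ≠ D.word l (D.θ l s' j) y then 1 else 0) _ _ hn
  have h2 : 2 * ∑ p, dist p = D.n l * D.Q l ^ 2 := by
    rw [sum_comm, mul_sum]
    rw [sum_congr rfl (g := fun _ => D.Q l ^ 2)]
    · simp
    · intro y hy
      have := pair_count (fun t => D.word l t y) (by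
        rw [Fintype.card_fin]; exact half D l y (mem_range.1 hy))
      rwa [Fintype.card_fin] at this
  have h3 : ∑ p, dist p ≤ ∑ j ∈ range (D.M l), dist (D.θ l s j, D.θ l s' j) := by
    refine le_trans ?_ (sum_image_le_of_nonneg (s := range (D.M l))
      (g := fun j => (D.θ l s j, D.θ l s' j)) (f := dist) (fun _ _ => Nat.zero_le _))
    refine sum_le_sum_of_ne_zero ?_
    rintro ⟨t, t'⟩ _ hne
    have : t ≠ t' := by
      rintro rfl
      exact hne (by simp [dist])
    obtain ⟨j, hj, e1, e2⟩ := hp s s' hs t t' this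
    exact mem_image.2 ⟨j, mem_range.2 hj, by rw [e1, e2]⟩
  rw [h1, D.n_succ]
  calc D.M l * D.n l ≤ D.Q l ^ 2 * D.n l := Nat.mul_le_mul_right _ hM
    _ = 2 * ∑ p, dist p := by rw [h2, mul_comm]
    _ ≤ _ := Nat.mul_le_mul_left _ h3

end Crest.Agent.R133
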