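import Crest.Agent.R133.Dom_Atom

/-!
# Row 133: the domination lemma (past and future are conditionally independent given a small cell)

PLAN.  `h = (k+1) m`, `n = 2 (k+1) m`, `ρ = e^{-x}`, `σ' = e^{-2x}`, `σ = e^{-3x}`,
`c₀ = d log (1 + C²)`.
* Cells at scale `r`: `(i, κ) ∈ Fin N × (Fin d → Icc (-K) K)` (`K = ⌈C/r⌉ + 1`),
  `cell r z = (c z, b ↦ ⌊φ (c z) z b / r⌋)`, `Nbr r (i,κ) = {z ∈ U i | ∀ b, |φ i z b - r κ b| ≤ 3 r}`.
  Every `z` lies in at most `N 7^d` sets `Nbr r q`;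
  `ν (Nbr r q) ≤ C vol(box) ≤ C (3(d+1))^d vol (closedBall 0 r)`.
* `𝒞` = cells at scale `σ`, `Nq = Nbr σ`.  Atoms: `a = (a⁻, a⁺)`, `a^± : Fin (k+1) → cells σ'`,
  `atom a = {z | cell σ' (S^[j m] z) = a⁻ j, cell σ' (S^[h + j m] z) = a⁺ j}`.
* Fix `w₁ w₂`, let `Z_a = G ∩ {names} ∩ atom a` (measurable: `measurable_pot`, `mgood`).  If
  nonempty choose a reference point `z_a`, `i t = c (S^[t] z_a)`, `x t = φ (i t) (S^[t] z_a)`,
  `F t = φ (i (t+1)) ∘ S ∘ ψ (i t)`, `a t = A (S^[t] z_a)`.  If `orb F t₀ u j ∈ ball (x (t₀+j)) ρ`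
  for `j ≤ J` then `S^[j] (ψ (i t₀) u) = ψ (i (t₀+j)) (orb F t₀ u j)` (by `dyn`; it even holds for
  `j = J+1`), so this point is in `U`, has chart coordinate `orb ..`, and (by the hypothesis on `g`
  and the definition of `G`) the same `O`-value as `S^[t₀+j] z_a`.
* `A₀ = W (i 0) ∩ ψ (i 0) ⁻¹' Z_a`; orbits of points of `A₀` stay within
  `(d+1) σ' (2C)^m ≤ ρ/4` of `x` (same `σ'`-cell at the times `j m`, `(C+1)`-Lipschitz steps).
  Right inverse columns: `exists_col` with bound `exp ((x + m c₀)/2)`, because for `0<s<n`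
  `pot s + pot (shift s) (n-s) - pot n ≤ ∑ blocks - pot n + m c₀ ≤ x + m c₀`
  (`pot_add_le`, `pot_le`, `pot_nonneg`).
* `tube` with `s = h`, `P₁ q = W (i 0) ∩ ψ⁻¹' {name = w₁, S^[h] z ∈ Nq q, ∀ j, S^[jm] z ∈ Nbr σ' (a⁻ j)}`,
  `P₂ q = W (i h) ∩ ψ⁻¹' {name = w₂, z ∈ Nq q, ∀ j, S^[jm] z ∈ Nbr σ' (a⁺ j)}`; then `up`, `low`.
* Sum over `a`; `∑_{a⁻} ν (Y ∩ ⋂_j S^{-jm} Nbr (a⁻ j)) ≤ (N 7^d)^{k+1} ν Y`.
  `Λ = 9 C³ (N 7^d)^{2(k+1)} / vol (closedBall 0 σ)`.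
-/

set_option autoImplicit false
set_option maxHeartbeats 800000

namespace Crest.Agent.R133

open MeasureTheory Metric

namespace DomAux

open Finset
open scoped ENNReal

variable {d : ℕ} {M : Type*} [MeasurableSpace M] {ν : Measure M} {S : M → M}

theorem exists_tig (mo : Model d ν S) {r ρ : ℝ} (hr : 0 < r) {z : M} (hz : z ∈ mo.good ρ) :
    ∃ q ∈ cells mo r, z ∈ Tig mo r q := by
  obtain ⟨κ, h1, h2⟩ := exists_cell mo hr (mo.c z) (psi_phi mo (mo.hgood ρ z hz).1).2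
  exact ⟨_, h1, rfl, h2⟩

theorem sum_fol_le (mo : Model d ν S) (hS : Measurable S) {r : ℝ} (hr : 0 < r) (m k : ℕ)
    (Y : Set M) :
    ∑ a ∈ Fintype.piFinset (fun _ : Fin (k + 1) => cells mo r), ν (Y ∩ Fol mo r m k a) ≤
      (((mo.N * 7 ^ d) ^ (k + 1) : ℕ) : ℝ≥0∞) * ν Y := by
  classical
  refine sum_measure_le ν _ _ (measurableSet_Fol mo hS r m k) _ (fun z => ?_) Y
  have hsub : (Fintype.piFinset (fun _ : Fin (k + 1) => cells mo r)).filter
      (fun a => z ∈ Fol mo r m k a) ⊆ Fintype.piFinset (fun j : Fin (k + 1) =>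
        (cells mo r).filter (fun q => S^[j * m] z ∈ Nbr mo r q)) := by
    intro a ha
    rw [mem_filter, Fintype.mem_piFinset] at ha
    rw [Fintype.mem_piFinset]
    intro j
    rw [mem_filter]
    exact ⟨ha.1 j, ha.2 j⟩
  refine le_trans ?_ ((card_le_card hsub).trans ?_)
  · apply le_of_eq; congr
  rw [Fintype.card_piFinset]
  refine (prod_le_pow_card _ _ (mo.N * 7 ^ d) fun j _ => ?_).trans (by simp)
  convert mult_le mo hr (S^[j * m] z) (cells mo r)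

theorem sum_le (mo : Model d ν S) (hS : Measurable S) {g : M → ℝ} {Lg : ℝ}
    (hg : Measurable g) {m k : ℕ} {x t₀ Λ σ σ' : ℝ} (hm : 0 < m)
    (hgL : ∀ z ∈ mo.good (Real.exp (-x)), ∀ y ∈ ball (mo.φ (mo.c z) z) (Real.exp (-x)),
      |g (mo.ψ (mo.c z) y) - g z| ≤ Lg * Real.exp (-x))
    (hC : mo.C * Real.exp (-x) ≤ 1)
    (hΛ2 : Real.exp (x + m * (d * Real.log (1 + mo.C ^ 2))) ≤ Λ ^ 2) (hΛ : 1 ≤ Λ)
    (hsmall : 2 * (((2 * (k + 1) * m : ℕ) : ℝ) * d + 1) *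
      (((2 * (k + 1) * m : ℕ) : ℝ) * Λ * (mo.C * Real.exp (-x))) ≤ 1)
    (hσ : 0 < σ) (hσσ' : 2 * Λ * σ ≤ σ') (hσ'ρ : 8 * σ' ≤ Real.exp (-x))
    (hη : (d + 1) * (2 * σ') * (mo.C + 1) ^ m ≤ Real.exp (-x) / 4)
    (w₁ w₂ : Fin ((k + 1) * m) → Bool) :
    ν (mo.G g Lg t₀ m k x ∩
        {z | name (fun z => decide (t₀ < g z)) S ((k + 1) * m) z = w₁ ∧
          name (fun z => decide (t₀ < g z)) S ((k + 1) * m) (S^[(k + 1) * m] z) = w₂}) *
        volume (closedBall (0 : E d) σ) ≤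
      ENNReal.ofReal (9 * mo.C ^ 3) * (((mo.N * 7 ^ d) ^ (k + 1) : ℕ) : ℝ≥0∞) ^ 2 *
        ∑ q ∈ cells mo σ,
        ν {z | name (fun z => decide (t₀ < g z)) S ((k + 1) * m) z = w₁ ∧
          S^[(k + 1) * m] z ∈ Nbr mo σ q} *
        ν {z | name (fun z => decide (t₀ < g z)) S ((k + 1) * m) z = w₂ ∧
          z ∈ Nbr mo σ q} := by
  have hσ' : 0 < σ' := lt_of_lt_of_le (by positivity) hσσ'
  have hat := fun a a' => atom_le mo hS hg (t₀ := t₀) hm hgL hC hΛ2 hΛ hsmall hσ hσσ' hσ'ρ hη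
    a a' w₁ w₂
  set Z := mo.G g Lg t₀ m k x ∩
        {z | name (fun z => decide (t₀ < g z)) S ((k + 1) * m) z = w₁ ∧
          name (fun z => decide (t₀ < g z)) S ((k + 1) * m) (S^[(k + 1) * m] z) = w₂} with hZ
  set Y₁ : Cell mo → Set M := fun q =>
    {z | name (fun z => decide (t₀ < g z)) S ((k + 1) * m) z = w₁ ∧
          S^[(k + 1) * m] z ∈ Nbr mo σ q} with hY₁
  set Y₂ : Cell mo → Set M := fun q =>
    {z | name (fun z => decide (t₀ < g z)) S ((k + 1) * m) z = w₂ ∧ z ∈ Nbr mo σ q} with hY₂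
  set PF := Fintype.piFinset (fun _ : Fin (k + 1) => cells mo σ') with hPF
  set D : ℝ≥0∞ := (((mo.N * 7 ^ d) ^ (k + 1) : ℕ) : ℝ≥0∞) with hD
  have hcov : Z ⊆ ⋃ p ∈ PF ×ˢ PF, Z ∩ Atom mo σ' m k p.1 p.2 := by
    intro z hz
    have hjm : ∀ j : Fin (k + 1), j * m < (k + 1) * m :=
      fun j => Nat.mul_lt_mul_of_pos_right j.2 hm
    have e : 2 * (k + 1) * m = (k + 1) * m + (k + 1) * m := by ring
    have h1 : ∀ j : Fin (k + 1), ∃ q ∈ cells mo σ', S^[j * m] z ∈ Tig mo σ' q := fun j =>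
      exists_tig mo hσ' (hz.1.2 _ (by have := hjm j; omega)).1
    have h2 : ∀ j : Fin (k + 1), ∃ q ∈ cells mo σ', S^[(k + 1) * m + j * m] z ∈ Tig mo σ' q :=
      fun j => exists_tig mo hσ' (hz.1.2 _ (by have := hjm j; omega)).1
    choose a ha ha' using h1
    choose b hb hb' using h2
    simp only [Set.mem_iUnion]
    refine ⟨(a, b), ?_, hz, fun j => ⟨ha' j, hb' j⟩⟩
    rw [mem_product]
    exact ⟨Fintype.mem_piFinset.2 ha, Fintype.mem_piFinset.2 hb⟩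
  have h1 : ν Z ≤ ∑ p ∈ PF ×ˢ PF, ν (Z ∩ Atom mo σ' m k p.1 p.2) :=
    (measure_mono hcov).trans (measure_biUnion_finset_le _ _)
  calc ν Z * volume (closedBall (0 : E d) σ)
      ≤ ∑ p ∈ PF ×ˢ PF, ν (Z ∩ Atom mo σ' m k p.1 p.2) * volume (closedBall (0 : E d) σ) := by
        rw [← sum_mul]; exact mul_le_mul_left h1 _
    _ ≤ ∑ p ∈ PF ×ˢ PF, ENNReal.ofReal (9 * mo.C ^ 3) * ∑ q ∈ cells mo σ,
          ν (Y₁ q ∩ Fol mo σ' m k p.1) * ν (Y₂ q ∩ Fol mo σ' m k p.2) :=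
        sum_le_sum fun p _ => hat p.1 p.2
    _ = ENNReal.ofReal (9 * mo.C ^ 3) * ∑ q ∈ cells mo σ,
          (∑ a ∈ PF, ν (Y₁ q ∩ Fol mo σ' m k a)) * ∑ a ∈ PF, ν (Y₂ q ∩ Fol mo σ' m k a) := by
        rw [← mul_sum, sum_comm]
        congr 1
        refine sum_congr rfl fun q _ => ?_
        rw [sum_product, sum_mul_sum]
    _ ≤ ENNReal.ofReal (9 * mo.C ^ 3) * ∑ q ∈ cells mo σ, (D * ν (Y₁ q)) * (D * ν (Y₂ q)) := by
        refine mul_le_mul_right (sum_le_sum fun q _ => ?_) _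
        exact mul_le_mul' (sum_fol_le mo hS hσ' m k _) (sum_fol_le mo hS hσ' m k _)
    _ = _ := by
        rw [mul_assoc, mul_sum (a := D ^ 2)]
        congr 1
        refine sum_congr rfl fun q _ => ?_
        ring

theorem le_exp_mul {B y : ℝ} (hB : 0 ≤ B) (hy : 1 ≤ y) : B ≤ Real.exp (B * y) := by
  have := Real.add_one_le_exp (B * y)
  nlinarith

theorem pow_le_exp_mul {B : ℝ} (hB : 0 ≤ B) (m : ℕ) : B ^ m ≤ Real.exp (B * m) := by
  rw [mul_comm, Real.exp_nat_mul]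
  exact pow_le_pow_left₀ hB (by linarith [Real.add_one_le_exp B]) m

theorem small_aux {d k m : ℕ} {C c₀ x : ℝ} (hC : 0 ≤ C) (hkm : k + 1 ≤ m)
    (hx : (c₀ + 2 * (4 * (2 * d + 1) * C + 4)) * m ≤ x) :
    2 * (((2 * (k + 1) * m : ℕ) : ℝ) * d + 1) *
      (((2 * (k + 1) * m : ℕ) : ℝ) * Real.exp ((x + m * c₀) / 2) * (C * Real.exp (-x))) ≤ 1 := by
  have hm : (1 : ℝ) ≤ m := by exact_mod_cast (by omega : 1 ≤ m)
  have hn : ((2 * (k + 1) * m : ℕ) : ℝ) ≤ 2 * m ^ 2 := by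
    have : ((k : ℝ) + 1) ≤ m := by exact_mod_cast hkm
    push_cast; nlinarith
  have hd : (0 : ℝ) ≤ d := Nat.cast_nonneg _
  have hm2 : (1 : ℝ) ≤ m ^ 2 := one_le_pow₀ hm
  have h1 : ((2 * (k + 1) * m : ℕ) : ℝ) * d + 1 ≤ (2 * d + 1) * m ^ 2 := by nlinarith
  have h2 : (m : ℝ) ^ 4 ≤ Real.exp (m * 4) := by
    have := pow_le_exp_mul (B := (m : ℝ)) (by linarith) 4
    simpa using this
  have h3 := le_exp_mul (B := 4 * (2 * d + 1) * C) (by positivity) hm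
  calc 2 * (((2 * (k + 1) * m : ℕ) : ℝ) * d + 1) *
      (((2 * (k + 1) * m : ℕ) : ℝ) * Real.exp ((x + m * c₀) / 2) * (C * Real.exp (-x)))
      ≤ 2 * ((2 * d + 1) * m ^ 2) *
        ((2 * m ^ 2) * Real.exp ((x + m * c₀) / 2) * (C * Real.exp (-x))) := by gcongr
    _ = (4 * (2 * d + 1) * C) * m ^ 4 * (Real.exp ((x + m * c₀) / 2) * Real.exp (-x)) := by ring
    _ ≤ Real.exp (4 * (2 * d + 1) * C * m) * Real.exp (m * 4) *
        (Real.exp ((x + m * c₀) / 2) * Real.exp (-x)) := by gcongr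
    _ ≤ 1 := by
        rw [← Real.exp_add, ← Real.exp_add, ← Real.exp_add]
        apply Real.exp_le_one_iff.2
        linarith

end DomAux

open DomAux Finset in

theorem Model.dom {d : ℕ} {M : Type*} [MeasurableSpace M] {ν : Measure M} [IsProbabilityMeasure ν]
    {S : M → M} (mo : Model d ν S) (hS : MeasurePreserving S ν ν) (g : M → ℝ) (Lg : ℝ)
    (hg : Measurable g) (hLg : 1 ≤ Lg)
    (hgL : ∀ ρ, 0 < ρ → Lg * ρ ≤ 1 → ∀ x ∈ mo.good ρ, ∀ y ∈ ball (mo.φ (mo.c x) x) ρ,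
      |g (mo.ψ (mo.c x) y) - g x| ≤ Lg * ρ) :
    ∃ C₁ : ℝ, 1 ≤ C₁ ∧ ∀ (m k : ℕ) (x t₀ : ℝ), k + 1 ≤ m → C₁ * m ≤ x →
      ∃ (𝒞 : Type) (_ : Fintype 𝒞) (Nq : 𝒞 → Set M) (Λ : ℝ), (∀ q, MeasurableSet (Nq q)) ∧
        0 ≤ Λ ∧ Λ * Fintype.card 𝒞 ≤ Real.exp (C₁ * x) ∧
        Λ * ∑ q, ν.real (Nq q) ^ 2 ≤ C₁ ^ (k + 1) ∧
        ∀ w₁ w₂ : Fin ((k + 1) * m) → Bool,
          ν.real (mo.G g Lg t₀ m k x ∩
            {z | name (fun z => decide (t₀ < g z)) S ((k + 1) * m) z = w₁ ∧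
              name (fun z => decide (t₀ < g z)) S ((k + 1) * m) (S^[(k + 1) * m] z) = w₂}) ≤
          Λ * ∑ q, ν.real {z | name (fun z => decide (t₀ < g z)) S ((k + 1) * m) z = w₁ ∧
              S^[(k + 1) * m] z ∈ Nq q} *
            ν.real {z | name (fun z => decide (t₀ < g z)) S ((k + 1) * m) z = w₂ ∧ z ∈ Nq q} := by
  classical
  have hC1 := mo.one_le
  have hd : (0 : ℝ) ≤ d := Nat.cast_nonneg _
  set c₀ : ℝ := d * Real.log (1 + mo.C ^ 2) with hc₀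
  have hc₀0 : 0 ≤ c₀ := mul_nonneg hd (Real.log_nonneg (by nlinarith))
  set ω : ℝ := (volume (closedBall (0 : E d) 1)).toReal with hω
  have hωfin : volume (closedBall (0 : E d) 1) ≠ ⊤ := measure_closedBall_lt_top.ne
  have hω0 : 0 < ω := ENNReal.toReal_pos (measure_closedBall_pos _ _ one_pos).ne' hωfin
  set D : ℝ := ((mo.N * 7 ^ d : ℕ) : ℝ) with hD
  have hD0 : 0 ≤ D := Nat.cast_nonneg _
  set B₂ : ℝ := 9 * mo.C ^ 4 * (3 * (d + 1)) ^ d * D + 1 with hB₂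
  have hB₂1 : 1 ≤ B₂ := by
    have : 0 ≤ 9 * mo.C ^ 4 * (3 * ((d : ℝ) + 1)) ^ d * D := by positivity
    linarith
  obtain ⟨C₁, k1, k2, k3, k4, k5, k6, k7, k8⟩ : ∃ C₁ : ℝ, 8 ≤ C₁ ∧ Lg ≤ C₁ ∧ mo.C ≤ C₁ ∧
      c₀ + 2 * (4 * (2 * d + 1) * mo.C + 4) ≤ C₁ ∧ c₀ + 4 ≤ C₁ ∧ 8 * (d + 1) + (mo.C + 1) ≤ C₁ ∧
      9 * mo.C ^ 3 * mo.N / ω + 2 * D + d * (2 * mo.C + 8) + 3 * d ≤ C₁ ∧ B₂ * D ^ 2 ≤ C₁ := by
    have a1 : 0 ≤ 2 * (4 * (2 * (d : ℝ) + 1) * mo.C + 4) := by positivity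
    have a2 : 0 ≤ 8 * ((d : ℝ) + 1) + (mo.C + 1) := by positivity
    have a3 : 0 ≤ 9 * mo.C ^ 3 * mo.N / ω + 2 * D + d * (2 * mo.C + 8) + 3 * d := by positivity
    have a4 : 0 ≤ B₂ * D ^ 2 := by positivity
    refine ⟨8 + Lg + mo.C + c₀ + 2 * (4 * (2 * d + 1) * mo.C + 4) + (8 * (d + 1) + (mo.C + 1)) +
      (9 * mo.C ^ 3 * mo.N / ω + 2 * D + d * (2 * mo.C + 8) + 3 * d) + B₂ * D ^ 2,
      ?_, ?_, ?_, ?_, ?_, ?_, ?_, ?_⟩ <;> linarith
  refine ⟨C₁, by linarith, fun m k x t₀ hkm hx => ?_⟩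
  have hm0 : 0 < m := by omega
  have hm : (1 : ℝ) ≤ m := by exact_mod_cast hm0
  have hmul : ∀ B, B ≤ C₁ → B * m ≤ x := fun B hB =>
    (mul_le_mul_of_nonneg_right hB (by linarith)).trans hx
  have hCx : C₁ ≤ x := le_trans (by nlinarith) hx
  have hmx : (m : ℝ) ≤ x := by have := hmul 1 (by linarith); linarith
  have hx1 : 1 ≤ x := by linarith
  have hexp : ∀ B, B ≤ C₁ → B * Real.exp (-x) ≤ 1 := by
    intro B hB
    have h1 : B ≤ Real.exp x := by linarith [Real.add_one_le_exp x]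
    calc B * Real.exp (-x) ≤ Real.exp x * Real.exp (-x) :=
          mul_le_mul_of_nonneg_right h1 (Real.exp_pos _).le
      _ = 1 := by rw [← Real.exp_add]; simp
  set σ : ℝ := Real.exp (-(3 * x)) with hσdef
  have hσ : 0 < σ := Real.exp_pos _
  have hvol : volume (closedBall (0 : E d) σ) =
      ENNReal.ofReal (σ ^ d) * volume (closedBall (0 : E d) 1) := by
    rw [Measure.addHaar_closedBall' _ _ hσ.le]; simp
  have hvolR : (volume (closedBall (0 : E d) σ)).toReal = σ ^ d * ω := by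
    rw [hvol, ENNReal.toReal_mul, ENNReal.toReal_ofReal (by positivity)]
  have hV : 0 < σ ^ d * ω := by positivity
  have hmain := sum_le mo hS.measurable hg (k := k) (x := x) (t₀ := t₀)
    (Λ := Real.exp ((x + m * c₀) / 2)) (σ := σ) (σ' := Real.exp (-(2 * x))) hm0
    (hgL _ (Real.exp_pos _) (hexp _ k2)) (hexp _ k3)
    (by rw [← Real.exp_nat_mul]; apply le_of_eq; congr 1; push_cast; ring)
    (Real.one_le_exp (by positivity)) (small_aux (by linarith) hkm (hmul _ k4)) hσ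
    (by
      have h1 := le_exp_mul (B := 2) (by norm_num) hm
      calc 2 * Real.exp ((x + m * c₀) / 2) * σ
          ≤ Real.exp (2 * m) * Real.exp ((x + m * c₀) / 2) * σ := by gcongr
        _ ≤ _ := by
          rw [hσdef, ← Real.exp_add, ← Real.exp_add]
          apply Real.exp_le_exp.2
          linarith [hmul _ k5])
    (by
      have e : Real.exp (-(2 * x)) = Real.exp (-x) * Real.exp (-x) := by
        rw [← Real.exp_add]; congr 1; ring
      rw [e, ← mul_assoc]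
      have := mul_le_mul_of_nonneg_right (hexp 8 k1) (Real.exp_pos (-x)).le
      linarith)
    (by
      have h1 := le_exp_mul (B := 8 * (d + 1)) (by positivity) hm
      have h2 := pow_le_exp_mul (B := mo.C + 1) (by linarith) m
      rw [le_div_iff₀ (by norm_num)]
      calc ((d : ℝ) + 1) * (2 * Real.exp (-(2 * x))) * (mo.C + 1) ^ m * 4
          = (8 * (d + 1)) * (mo.C + 1) ^ m * Real.exp (-(2 * x)) := by ring
        _ ≤ Real.exp (8 * (d + 1) * m) * Real.exp ((mo.C + 1) * m) * Real.exp (-(2 * x)) := by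
          gcongr
        _ ≤ _ := by
          rw [← Real.exp_add, ← Real.exp_add]
          apply Real.exp_le_exp.2
          linarith [hmul _ k6])
  refine ⟨↥(cells mo σ), inferInstance, fun q => Nbr mo σ q,
    9 * mo.C ^ 3 * (D ^ (k + 1)) ^ 2 / (σ ^ d * ω), fun q => measurableSet_Nbr mo σ q,
    by positivity, ?_, ?_, fun w₁ w₂ => ?_⟩
  · rw [Fintype.card_coe]
    have h1 := card_cells mo hσ
    have hσinv : mo.C / σ = mo.C * Real.exp (3 * x) := by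
      rw [hσdef, Real.exp_neg, div_inv_eq_mul]
    have h3x : 1 ≤ Real.exp (3 * x) := Real.one_le_exp (by linarith)
    have h2 : 2 * (mo.C / σ) + 5 ≤ Real.exp ((2 * mo.C + 8) * x) := by
      have h := le_exp_mul (B := 2 * mo.C + 5) (by linarith) hx1
      calc 2 * (mo.C / σ) + 5 ≤ (2 * mo.C + 5) * Real.exp (3 * x) := by rw [hσinv]; nlinarith
        _ ≤ Real.exp ((2 * mo.C + 5) * x) * Real.exp (3 * x) := by gcongr
        _ = _ := by rw [← Real.exp_add]; congr 1; ring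
    have h3 : (2 * (mo.C / σ) + 5) ^ d ≤ Real.exp (d * ((2 * mo.C + 8) * x)) := by
      rw [Real.exp_nat_mul]
      exact pow_le_pow_left₀ (by positivity) h2 d
    have h4 : (D ^ (k + 1)) ^ 2 ≤ Real.exp (2 * D * x) := by
      rw [← pow_mul]
      refine (pow_le_exp_mul hD0 _).trans (Real.exp_le_exp.2 ?_)
      have : ((k : ℝ) + 1) ≤ m := by exact_mod_cast hkm
      push_cast
      nlinarith
    have h5 := le_exp_mul (B := 9 * mo.C ^ 3 * mo.N / ω) (by positivity) hx1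
    have h6 : (σ ^ d)⁻¹ = Real.exp (3 * d * x) := by
      rw [hσdef, ← Real.exp_nat_mul, ← Real.exp_neg]; congr 1; ring
    calc 9 * mo.C ^ 3 * (D ^ (k + 1)) ^ 2 / (σ ^ d * ω) * ((cells mo σ).card : ℝ)
        ≤ 9 * mo.C ^ 3 * (D ^ (k + 1)) ^ 2 / (σ ^ d * ω) *
          (mo.N * (2 * (mo.C / σ) + 5) ^ d) := by gcongr
      _ = (9 * mo.C ^ 3 * mo.N / ω) * (D ^ (k + 1)) ^ 2 * (2 * (mo.C / σ) + 5) ^ d *
          (σ ^ d)⁻¹ := by field_simp
      _ ≤ Real.exp (9 * mo.C ^ 3 * mo.N / ω * x) * Real.exp (2 * D * x) *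
          Real.exp (d * ((2 * mo.C + 8) * x)) * Real.exp (3 * d * x) := by
          rw [h6]; gcongr
      _ ≤ _ := by
          rw [← Real.exp_add, ← Real.exp_add, ← Real.exp_add]
          apply Real.exp_le_exp.2
          have := mul_le_mul_of_nonneg_right k7 (by linarith : (0 : ℝ) ≤ x)
          linarith
  · rw [sum_coe_sort (cells mo σ) (fun q => ν.real (Nbr mo σ q) ^ 2)]
    have h1 : ∀ q, ν.real (Nbr mo σ q) ≤ mo.C * (3 * (d + 1)) ^ d * (σ ^ d * ω) := by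
      intro q
      have h := ENNReal.toReal_mono (ENNReal.mul_ne_top ENNReal.ofReal_ne_top
        measure_closedBall_lt_top.ne) (nbr_le mo hσ q)
      rwa [ENNReal.toReal_mul, ENNReal.toReal_ofReal (by positivity), hvolR] at h
    have h2 : ∑ q ∈ cells mo σ, ν.real (Nbr mo σ q) ≤ D := by
      have h := sum_measure_le ν (cells mo σ) (Nbr mo σ) (measurableSet_Nbr mo σ) _
        (fun z => mult_le mo hσ z _) Set.univ
      simp only [Set.univ_inter, measure_univ, mul_one] at h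
      have h' := ENNReal.toReal_mono (ENNReal.natCast_ne_top _) h
      rwa [ENNReal.toReal_sum (fun q _ => measure_ne_top _ _), ENNReal.toReal_natCast] at h'
    have h3 : ∑ q ∈ cells mo σ, ν.real (Nbr mo σ q) ^ 2 ≤
        mo.C * (3 * (d + 1)) ^ d * (σ ^ d * ω) * D := by
      refine le_trans ?_ (mul_le_mul_of_nonneg_left h2 (by positivity))
      rw [mul_sum]
      refine sum_le_sum fun q _ => ?_
      rw [sq]
      exact mul_le_mul_of_nonneg_right (h1 q) measureReal_nonneg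
    calc 9 * mo.C ^ 3 * (D ^ (k + 1)) ^ 2 / (σ ^ d * ω) *
          ∑ q ∈ cells mo σ, ν.real (Nbr mo σ q) ^ 2
        ≤ 9 * mo.C ^ 3 * (D ^ (k + 1)) ^ 2 / (σ ^ d * ω) *
          (mo.C * (3 * (d + 1)) ^ d * (σ ^ d * ω) * D) := by gcongr
      _ = (9 * mo.C ^ 4 * (3 * (d + 1)) ^ d * D) * (D ^ 2) ^ (k + 1) := by
          rw [← pow_mul, ← pow_mul, mul_comm (k + 1) 2]; field_simp
      _ ≤ B₂ ^ (k + 1) * (D ^ 2) ^ (k + 1) := by
          refine mul_le_mul_of_nonneg_right ?_ (by positivity)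
          exact le_trans (by linarith) (le_self_pow₀ hB₂1 (by omega))
      _ ≤ C₁ ^ (k + 1) := by
          rw [← mul_pow]
          exact pow_le_pow_left₀ (by positivity) k8 _
  · have h := ENNReal.toReal_mono (by
      refine ENNReal.mul_ne_top (ENNReal.mul_ne_top ENNReal.ofReal_ne_top
        (ENNReal.pow_ne_top (ENNReal.natCast_ne_top _))) ?_
      exact ENNReal.sum_ne_top.2 fun q _ =>
        ENNReal.mul_ne_top (measure_ne_top _ _) (measure_ne_top _ _)) (hmain w₁ w₂)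
    rw [ENNReal.toReal_mul, hvolR, ENNReal.toReal_mul, ENNReal.toReal_mul,
      ENNReal.toReal_ofReal (by positivity), ENNReal.toReal_pow, ENNReal.toReal_natCast,
      ENNReal.toReal_sum (fun q _ =>
        ENNReal.mul_ne_top (measure_ne_top _ _) (measure_ne_top _ _))] at h
    simp only [ENNReal.toReal_mul] at h
    rw [sum_coe_sort (cells mo σ) (fun q =>
      ν.real {z | name (fun z => decide (t₀ < g z)) S ((k + 1) * m) z = w₁ ∧
              S^[(k + 1) * m] z ∈ Nbr mo σ q} *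
            ν.real {z | name (fun z => decide (t₀ < g z)) S ((k + 1) * m) z = w₂ ∧
              z ∈ Nbr mo σ q}), div_mul_eq_mul_div, le_div_iff₀ hV]
    rw [Nat.cast_pow] at h
    exact h

end Crest.Agent.R133
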