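import Crest.Agent.R133.Defs

/-! # Row 133: basic facts about towers -/

set_option autoImplicit false

namespace Crest.Agent.R133

open MeasureTheory Filter Topology Finset
open scoped ENNReal

theorem Design.n_pos (D : Design) (l : ℕ) : 0 < D.n l := by
  induction l with
  | zero => rw [D.n0]; exact one_pos
  | succ l ih => rw [D.n_succ]; exact Nat.mul_pos (by have := D.M_ge l; omega) ih

variable {D : Design} {Ω : Type*} [MeasurableSpace Ω] {ν : Measure Ω} {S : Ω → Ω}

/-- the level-0 bit -/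
def Tower.bit (T : Tower D ν S) (x : Ω) : Bool := decide ((T.s 0 x).val = 1)

theorem Tower.measurable_bit (T : Tower D ν S) : Measurable T.bit := by
  unfold Tower.bit
  exact (measurable_of_countable (fun a : Fin (D.Q 0) => decide (a.val = 1))).comp (T.ms 0)

theorem measurable_name {O : Ω → Bool} (hO : Measurable O) (hS : Measurable S) (len : ℕ) :
    Measurable (name O S len) := by
  exact measurable_pi_lambda _ fun t => hO.comp (hS.iterate t)

omit [MeasurableSpace Ω] in
theorem name_iterate (O : Ω → Bool) (S : Ω → Ω) {len len' a : ℕ} (h : a + len' ≤ len) (x : Ω) :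
    name O S len' (S^[a] x) = sub len' a (name O S len x) := by
  funext t
  have ht : a + t < len := by have := t.2; omega
  simp only [name, sub, dif_pos ht]
  rw [add_comm, Function.iterate_add_apply]

/-- iterated step -/
theorem Tower.ae_iter (T : Tower D ν S) (hS : MeasurePreserving S ν ν) :
    ∀ᵐ x ∂ν, ∀ l t, T.p l (S^[t] x) = (T.p l x + t) % D.n l ∧
      (T.p l x + t < D.n l → T.s l (S^[t] x) = T.s l x) := by
  have h1 : ∀ᵐ x ∂ν, ∀ l t : ℕ, T.p l (S (S^[t] x)) = (T.p l (S^[t] x) + 1) % D.n l ∧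
      (T.p l (S^[t] x) + 1 < D.n l → T.s l (S (S^[t] x)) = T.s l (S^[t] x)) := by
    rw [ae_all_iff]; intro l
    rw [ae_all_iff]; intro t
    exact (hS.iterate t).quasiMeasurePreserving.ae (T.step l)
  filter_upwards [h1] with x hx l t
  induction t with
  | zero => simp [Nat.mod_eq_of_lt (T.plt l x)]
  | succ t ih =>
    rw [Function.iterate_succ_apply']
    obtain ⟨h2, h3⟩ := hx l t
    refine ⟨?_, fun h => ?_⟩
    · rw [h2, ih.1, Nat.mod_add_mod, add_assoc]
    · have h4 : T.p l x + t < D.n l := by omega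
      rw [h3 (by rw [ih.1, Nat.mod_eq_of_lt h4]; omega), ih.2 h4]

/-- sub-blocks of a block -/
theorem Tower.ae_sub (T : Tower D ν S) (hS : MeasurePreserving S ν ν) :
    ∀ᵐ x ∂ν, ∀ l, T.p (l + 1) x = 0 → ∀ j < D.M l,
      T.p l (S^[j * D.n l] x) = 0 ∧ T.s l (S^[j * D.n l] x) = D.θ l (T.s (l + 1) x) j := by
  have h1 : ∀ᵐ x ∂ν, ∀ l t : ℕ, T.p l (S^[t] x) = T.p (l + 1) (S^[t] x) % D.n l ∧
      T.s l (S^[t] x) = D.θ l (T.s (l + 1) (S^[t] x)) (T.p (l + 1) (S^[t] x) / D.n l) := by
    rw [ae_all_iff]; intro l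
    rw [ae_all_iff]; intro t
    exact (hS.iterate t).quasiMeasurePreserving.ae (T.proj l)
  filter_upwards [h1, T.ae_iter hS] with x hx hi l h0 j hj
  have hn := D.n_pos l
  have hlt : j * D.n l < D.n (l + 1) := by
    rw [D.n_succ]; exact Nat.mul_lt_mul_of_pos_right hj hn
  obtain ⟨a1, a2⟩ := hi (l + 1) (j * D.n l)
  rw [h0, zero_add] at a1 a2
  rw [Nat.mod_eq_of_lt hlt] at a1
  obtain ⟨b1, b2⟩ := hx l (j * D.n l)
  rw [b1, b2, a1, a2 hlt, Nat.mul_mod_left, Nat.mul_div_cancel _ hn]
  exact ⟨rfl, rfl⟩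

/-- the bits along a block spell the word of its seed -/
theorem Tower.ae_word (T : Tower D ν S) (hS : MeasurePreserving S ν ν) :
    ∀ᵐ x ∂ν, ∀ l t, T.p l x + t < D.n l →
      T.bit (S^[t] x) = D.word l (T.s l x) (T.p l x + t) := by
  have h0 : ∀ᵐ x ∂ν, ∀ l, T.bit x = D.word l (T.s l x) (T.p l x) := by
    filter_upwards [ae_all_iff.2 T.proj] with x hx l
    induction l with
    | zero => rfl
    | succ l ih =>
      rw [ih, (hx l).1, (hx l).2]; rfl
  have h1 : ∀ᵐ x ∂ν, ∀ t l : ℕ,
      T.bit (S^[t] x) = D.word l (T.s l (S^[t] x)) (T.p l (S^[t] x)) := by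
    rw [ae_all_iff]; intro t
    exact (hS.iterate t).quasiMeasurePreserving.ae h0
  filter_upwards [h1, T.ae_iter hS] with x hx hi l t ht
  rw [hx t l, (hi l t).1, (hi l t).2 ht, Nat.mod_eq_of_lt ht]

/-- moving a level of the tower down to the base -/
theorem Tower.lintegral_level (T : Tower D ν S) (hS : MeasurePreserving S ν ν) (l t : ℕ)
    (ht : t < D.n l) (f : Ω → ℝ≥0∞) (hf : Measurable f) :
    ∫⁻ x in {x | T.p l x = t}, f x ∂ν = ∫⁻ x in {x | T.p l x = 0}, f (S^[t] x) ∂ν := by
  have hm : ∀ u, MeasurableSet {x | T.p l x = u} := fun u => T.mp l (measurableSet_singleton u)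
  rw [← lintegral_indicator (hm t), ← lintegral_indicator (hm 0),
    ← (hS.iterate t).lintegral_comp (hf.indicator (hm t))]
  refine lintegral_congr_ae ?_
  filter_upwards [T.ae_iter hS] with x hx
  have h1 := (hx l t).1
  have h2 := T.plt l x
  by_cases h : T.p l x = 0
  · have : T.p l (S^[t] x) = t := by rw [h1, h, zero_add, Nat.mod_eq_of_lt ht]
    simp [Set.indicator, this, h]
  · have : T.p l (S^[t] x) ≠ t := by
      rw [h1]
      intro h3
      rcases lt_or_ge (T.p l x + t) (D.n l) with h4 | h4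
      · rw [Nat.mod_eq_of_lt h4] at h3; omega
      · rw [Nat.mod_eq_sub_mod h4, Nat.mod_eq_of_lt (by omega)] at h3; omega
    simp [Set.indicator, this, h]

/-- the whole space as a tower over the base -/
theorem Tower.lintegral_tower (T : Tower D ν S) (hS : MeasurePreserving S ν ν) (l : ℕ)
    (f : Ω → ℝ≥0∞) (hf : Measurable f) :
    ∫⁻ x, f x ∂ν = ∑ t ∈ range (D.n l), ∫⁻ x in {x | T.p l x = 0}, f (S^[t] x) ∂ν := by
  have hm : ∀ u, MeasurableSet {x | T.p l x = u} := fun u => T.mp l (measurableSet_singleton u)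
  rw [← sum_congr rfl fun t ht => T.lintegral_level hS l t (mem_range.1 ht) f hf]
  simp_rw [← lintegral_indicator (hm _)]
  rw [← lintegral_finsetSum _ fun t _ => hf.indicator (hm t)]
  refine lintegral_congr fun x => ?_
  rw [sum_eq_single (T.p l x)]
  · simp [Set.indicator]
  · intro b _ hb; simp [Set.indicator, Ne.symm hb]
  · intro h; exact absurd (mem_range.2 (T.plt l x)) h

/-- the level-`l` base as a union of levels of the level-`(l+1)` tower -/
theorem Tower.lintegral_base (T : Tower D ν S) (hS : MeasurePreserving S ν ν) (l : ℕ)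
    (f : Ω → ℝ≥0∞) (hf : Measurable f) :
    ∫⁻ x in {x | T.p l x = 0}, f x ∂ν =
      ∑ j ∈ range (D.M l), ∫⁻ x in {x | T.p (l + 1) x = 0}, f (S^[j * D.n l] x) ∂ν := by
  have hm : ∀ l u, MeasurableSet {x | T.p l x = u} :=
    fun l u => T.mp l (measurableSet_singleton u)
  have hn := D.n_pos l
  have hlt : ∀ j ∈ range (D.M l), j * D.n l < D.n (l + 1) := fun j hj => by
    rw [D.n_succ]; exact Nat.mul_lt_mul_of_pos_right (mem_range.1 hj) hn
  rw [← sum_congr rfl fun j hj => T.lintegral_level hS (l + 1) _ (hlt j hj) f hf]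
  simp_rw [← lintegral_indicator (hm _ _)]
  rw [← lintegral_finsetSum _ fun t _ => hf.indicator (hm _ _)]
  refine lintegral_congr_ae ?_
  filter_upwards [T.proj l] with x hx
  by_cases h : T.p l x = 0
  · have h1 : T.p (l + 1) x = T.p (l + 1) x / D.n l * D.n l := by
      have := Nat.div_add_mod (T.p (l + 1) x) (D.n l)
      rw [← hx.1, h, mul_comm] at this; omega
    rw [sum_eq_single (T.p (l + 1) x / D.n l)]
    · simp [Set.indicator, h, ← h1]
    · intro b _ hb
      have : T.p (l + 1) x ≠ b * D.n l := fun h2 => hb (by rw [h2, Nat.mul_div_cancel _ hn])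
      simp [Set.indicator, this]
    · intro h2
      refine absurd (mem_range.2 ?_) h2
      rw [Nat.div_lt_iff_lt_mul hn, ← D.n_succ]; exact T.plt _ _
  · rw [sum_eq_zero]
    · simp [Set.indicator, h]
    · intro j _
      have : T.p (l + 1) x ≠ j * D.n l := fun h2 => h (by rw [hx.1, h2, Nat.mul_mod_left])
      simp [Set.indicator, this]

theorem Tower.measure_tower (T : Tower D ν S) (hS : MeasurePreserving S ν ν) (l : ℕ)
    (Z : Set Ω) (hZ : MeasurableSet Z) :
    ν Z = ∑ t ∈ range (D.n l), ν {x | T.p l x = 0 ∧ S^[t] x ∈ Z} := by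
  have hm : ∀ l u, MeasurableSet {x | T.p l x = u} :=
    fun l u => T.mp l (measurableSet_singleton u)
  have := T.lintegral_tower hS l (Z.indicator 1) (measurable_one.indicator hZ)
  rw [lintegral_indicator_one hZ] at this
  rw [this]
  refine sum_congr rfl fun t _ => ?_
  have e : (fun x => Z.indicator (1 : Ω → ℝ≥0∞) (S^[t] x)) = (S^[t] ⁻¹' Z).indicator 1 := by
    funext x; rfl
  rw [e, lintegral_indicator_one ((hS.iterate t).measurable hZ),
    Measure.restrict_apply ((hS.iterate t).measurable hZ)]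
  congr 1; ext x; simp [and_comm]

theorem Tower.measure_base (T : Tower D ν S) (hS : MeasurePreserving S ν ν) (l : ℕ)
    (Z : Set Ω) (hZ : MeasurableSet Z) :
    ν {x | T.p l x = 0 ∧ x ∈ Z} =
      ∑ j ∈ range (D.M l), ν {x | T.p (l + 1) x = 0 ∧ S^[j * D.n l] x ∈ Z} := by
  have := T.lintegral_base hS l (Z.indicator 1) (measurable_one.indicator hZ)
  rw [lintegral_indicator_one hZ, Measure.restrict_apply hZ] at this
  have e0 : {x | T.p l x = 0 ∧ x ∈ Z} = Z ∩ {x | T.p l x = 0} := by ext x; simp [and_comm]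
  rw [e0, this]
  refine sum_congr rfl fun j _ => ?_
  have e : (fun x => Z.indicator (1 : Ω → ℝ≥0∞) (S^[j * D.n l] x)) =
      (S^[j * D.n l] ⁻¹' Z).indicator 1 := by
    funext x; rfl
  rw [e, lintegral_indicator_one ((hS.iterate _).measurable hZ),
    Measure.restrict_apply ((hS.iterate _).measurable hZ)]
  congr 1; ext x; simp [and_comm]

theorem Tower.measure_p (T : Tower D ν S) (l t : ℕ) (ht : t < D.n l) :
    ν {x | T.p l x = t} = ((D.n l : ℕ) : ℝ≥0∞)⁻¹ := by
  have e : {x | T.p l x = t} = ⋃ a ∈ (univ : Finset (Fin (D.Q l))), {x | T.s l x = a ∧ T.p l x = t} := by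
    ext x; simp
  rw [e, measure_biUnion_finset]
  · simp_rw [T.law l _ t ht]
    have hQ : ((D.Q l : ℕ) : ℝ≥0∞) ≠ 0 := by
      have := D.Q_ge l
      exact Nat.cast_ne_zero.2 (by omega)
    rw [sum_const, card_univ, Fintype.card_fin, nsmul_eq_mul, Nat.cast_mul,
      ENNReal.mul_inv (Or.inl hQ) (Or.inl (ENNReal.natCast_ne_top _)), ← mul_assoc,
      ENNReal.mul_inv_cancel hQ (ENNReal.natCast_ne_top _), one_mul]
  · intro a _ b _ hab
    refine Set.disjoint_left.2 fun x h1 h2 => hab (h1.1.symm.trans h2.1)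
  · intro a _
    exact (T.ms l (measurableSet_singleton a)).inter (T.mp l (measurableSet_singleton t))

end Crest.Agent.R133
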