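import Crest.Agent.R133.Tube_B

/-!
# Row 133: volume comparison between orbits and orbits with one jump

PLAN.  Path space `𝔼 = Fin n → E d` (sup norm, `volume = Measure.pi`, a Haar measure,
dimension `D = n d`).  `Ψ y j = y (j+1) - F j (y j)`, `𝓑 z j = z (j+1) - a j (z j)` (`j+1<n`).
`R w = ∑_{s'} e^{(s')} (w_{s'})` (from `hcol`) is a right inverse of `𝓑`, `‖R‖ ≤ n Λ`.
* `Ξ y = y + R (Ψ y - 𝓑 (y - x))` satisfies `𝓑 (Ξ y - x) = Ψ y`, and `Ξ - id` is
  `h' = n Λ h`-Lipschitz on `closedBall x (ρ/2)`: `ApproximatesLinearOn Ξ id _ h'`.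
  Hence (`surjOn_closedBall_of_nonlinearRightInverse`) `Ξ (closedBall y ε) ⊇ closedBall (Ξ y) (ε/2)`,
  and for `B ⊆ closedBall x (ρ/2)`: `vol (Ξ '' B) ≤ (1+h')^D vol B`, `vol B ≤ (1-h')^{-D} vol (Ξ '' B)`
  (`LipschitzOnWith.hausdorffMeasure_image_le`; `μH[finrank]` is a Haar measure
  `isAddHaarMeasure_hausdorffMeasure`, so it is a multiple of `volume`);
  `((1+h')/(1-h'))^D ≤ 9`.
* choose `τ > 0` tiny (`τ ≤ σ`, `τ n (L+1)^n (L+1) ≤ σ/2`), `T_τ = {y | y 0 ∈ A₀, ‖Ψ y j‖ ≤ τ ∀ j}`.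
  The shear `y ↦ (y 0, Ψ y)` is volume preserving (measurable `F`; composition of maps
  `y ↦ update y i (y i - G (y i'))`, or induction on `n`), so `vol T_τ = vol A₀ * vol (B τ)^(n-1)`.
  `τ`-pseudo-orbits stay within `η = τ n (L+1)^n` of the true orbit of their starting point
  (`F t` is `(L+1)`-Lipschitz on `ball (x t) ρ` since `h ≤ 1`).
* `Δ z = z + (σ/τ - 1) R_s (𝓑 (z - x))_{s-1}` is affine with determinant `(σ/τ)^d`
  (`Matrix.det_one_add_mul_comm`, `𝓑_{s-1} R_s = id`).  For `y ∈ T_τ` there is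
  `y' ∈ closedBall y (2Λσ)` with `Ξ y' = Δ (Ξ y)`; then `Ψ y' j = Ψ y j` for `j ≠ s-1` and
  `Ψ y' (s-1) = (σ/τ) Ψ y (s-1)`.  Let `T'` be the set of these `y'`.
  `(σ/τ)^d (1-h')^D vol T_τ ≤ vol (Δ Ξ T_τ) ≤ vol (Ξ T') ≤ (1+h')^D vol T'`.
* the second shear (with `F (s-1)` replaced by `0`) maps `T'` into
  `⋃_q Set.pi univ (P₁ q at 0, P₂ q at s, B τ elsewhere)` (by `hP` with `u = y' 0`, `v = y' s`),
  so `vol T' ≤ vol (B τ)^(n-2) ∑_q vol (P₁ q) vol (P₂ q)` (`le_map_apply`, `Measure.pi_pi`).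
* `vol (B σ) = (σ/τ)^d vol (B τ)` (`addHaar_closedBall`).
-/

set_option autoImplicit false

namespace Crest.Agent.R133

open MeasureTheory Metric
open scoped ENNReal

theorem tube {d n s : ℕ} (hs0 : 0 < s) (hs : s < n) (F : ℕ → E d → E d)
    (hF : ∀ t, Measurable (F t)) (x : ℕ → E d) (a : ℕ → Matrix (Fin d) (Fin d) ℝ)
    (L ρ h Λ σ σ' : ℝ) (hx : ∀ t, t + 1 < n → F t (x t) = x (t + 1))
    (hL : 1 ≤ L) (ha : ∀ t v, ‖act (a t) v‖ ≤ L * ‖v‖)
    (happ : ∀ t, t + 1 < n → ∀ y ∈ ball (x t) ρ, ∀ y' ∈ ball (x t) ρ,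
      ‖F t y - F t y' - act (a t) (y - y')‖ ≤ h * ‖y - y'‖)
    (hcol : ∀ s', 0 < s' → s' < n → ∃ e : ℕ → Matrix (Fin d) (Fin d) ℝ,
      (∀ t, e (t + 1) - a t * e t = if t + 1 = s' then 1 else 0) ∧
      ∀ t < n, ∀ w, ‖act (e t) w‖ ≤ Λ * ‖w‖)
    (hΛ : 1 ≤ Λ) (hh : 0 ≤ h) (hsmall : 2 * (n * d + 1) * (n * Λ * h) ≤ 1)
    (hσ : 0 < σ) (hσσ' : 2 * Λ * σ ≤ σ') (hσ'ρ : 8 * σ' ≤ ρ)
    (A₀ : Set (E d)) (hA₀ : MeasurableSet A₀)
    (hA : ∀ y ∈ A₀, ∀ t < n, ‖orb F 0 y t - x t‖ ≤ ρ / 4)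
    {𝒞 : Type*} [Fintype 𝒞] (P₁ P₂ : 𝒞 → Set (E d))
    (hP : ∀ y ∈ A₀, ∀ u v : E d, (∀ t < s, ‖orb F 0 u t - orb F 0 y t‖ ≤ 2 * σ') →
      (∀ t, s + t < n → ‖orb F s v t - orb F 0 y (s + t)‖ ≤ 2 * σ') →
      ‖orb F 0 u s - v‖ ≤ 2 * σ → ∃ q, u ∈ P₁ q ∧ v ∈ P₂ q) :
    volume A₀ * volume (closedBall (0 : E d) σ) ≤ 9 * ∑ q, volume (P₁ q) * volume (P₂ q) := by
  classical
  have hn0 : 0 < n := by omega
  have hnR : (1 : ℝ) ≤ n := by exact_mod_cast hn0
  have hdR : (0 : ℝ) ≤ d := Nat.cast_nonneg d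
  have hΛ0 : 0 ≤ Λ := by linarith
  -- choose the columns
  have hcol' : ∀ s', ∃ e : ℕ → Matrix (Fin d) (Fin d) ℝ, 0 < s' → s' < n →
      (∀ t, e (t + 1) - a t * e t = if t + 1 = s' then 1 else 0) ∧
      ∀ t < n, ∀ w, ‖act (e t) w‖ ≤ Λ * ‖w‖ := by
    intro s'
    by_cases h1 : 0 < s' ∧ s' < n
    · obtain ⟨e, he⟩ := hcol s' h1.1 h1.2
      exact ⟨e, fun _ _ => he⟩
    · exact ⟨0, fun h2 h3 => absurd ⟨h2, h3⟩ h1⟩
  choose e he using hcol'
  have he1 := fun s h1 h2 => (he s h1 h2).1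
  have he2 := fun s h1 h2 => (he s h1 h2).2
  -- constants
  set h' : ℝ := n * Λ * h with hh'
  have hh'0 : 0 ≤ h' := by positivity
  have hnd : 0 ≤ (n : ℝ) * d := by positivity
  have hh'2 : h' ≤ 1 / 2 := by nlinarith
  have hh1 : h ≤ 1 := by
    have : 1 ≤ (n : ℝ) * Λ := by nlinarith
    have : h ≤ h' := by rw [hh']; nlinarith
    linarith
  have hσ1 : 2 * σ ≤ σ' := by nlinarith
  have hρ : 0 < ρ := by linarith
  set K : ℝ := L + 1 with hK
  have hK1 : 1 ≤ K := by linarith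
  have hKn : 1 ≤ K ^ n := one_le_pow₀ hK1
  set τ : ℝ := σ / (2 * n * K ^ n * K) with hτ
  have hden : 1 ≤ 2 * n * K ^ n * K := by
    have h1 : 1 ≤ (n : ℝ) * K ^ n := by nlinarith
    have h2 : 1 ≤ (n : ℝ) * K ^ n * K := by nlinarith
    nlinarith
  have hτ0 : 0 < τ := by positivity
  have hτσ : τ ≤ σ := div_le_self hσ.le hden
  set η : ℝ := τ * n * K ^ n with hη
  have hη0 : 0 ≤ η := by positivity
  have hKη : K * η = σ / 2 := by
    rw [hη, hτ]; field_simp
  have hησ : η ≤ σ / 2 := by nlinarith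
  have hLip : ∀ t, t + 1 < n → ∀ y ∈ ball (x t) ρ, ∀ y' ∈ ball (x t) ρ,
      ‖F t y - F t y'‖ ≤ K * ‖y - y'‖ := by
    intro t ht y hy y' hy'
    have h1 := happ t ht y hy y' hy'
    have h2 := ha t (y - y')
    have e1 : F t y - F t y' = (F t y - F t y' - act (a t) (y - y')) + act (a t) (y - y') := by
      abel
    have h3 := norm_add_le (F t y - F t y' - act (a t) (y - y')) (act (a t) (y - y'))
    rw [← e1] at h3
    have h4 : h * ‖y - y'‖ ≤ 1 * ‖y - y'‖ := by gcongr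
    rw [hK]; linarith
  set xh : Fin n → E d := fun t => x t with hxh
  set S : Set (Fin n → E d) := closedBall xh (ρ / 2) with hS
  have hnear := Tube.Xi_near F a e x hΛ0 hh hρ he2 happ
  have hfin : Module.finrank ℝ (Fin n → E d) = n * d := by
    rw [Module.finrank_pi_fintype]; simp
  have hsm : 2 * ((Module.finrank ℝ (Fin n → E d) : ℝ) + 1) * h' ≤ 1 := by
    rw [hfin]; push_cast; exact hsmall
  set b : ℝ≥0∞ := volume (closedBall (0 : E d) τ) with hb
  -- the thin tube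
  set T : Set (Fin n → E d) := Tube.shear F 0 ⁻¹'
    Set.pi Set.univ (fun j : Fin n => if (j : ℕ) = 0 then A₀ else closedBall 0 τ) with hT
  have hTvol : volume T = volume A₀ * b ^ (n - 1) := by
    rw [hT, volume_pi, (Tube.mp_shear volume F hF 0).measure_preimage, Measure.pi_pi,
      ← Tube.prod_one_slot hn0]
    · refine Finset.prod_congr rfl fun j _ => ?_
      split_ifs <;> rfl
    · refine (MeasurableSet.univ_pi fun j => ?_).nullMeasurableSet
      split_ifs
      · exact hA₀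
      · exact measurableSet_closedBall
  have hTmem : ∀ y ∈ T, Tube.ext y 0 ∈ A₀ ∧ ∀ j, j + 1 < n → ‖Tube.Psi F y j‖ ≤ τ := by
    intro y hy
    constructor
    · have := hy ⟨0, hn0⟩ (Set.mem_univ _)
      simpa [Tube.shear, Tube.ext_lt hn0] using this
    · intro j hj
      have := hy ⟨j + 1, hj⟩ (Set.mem_univ _)
      simpa [Tube.shear, Tube.Psi, Tube.ext_lt hj] using this
  have hTorb : ∀ y ∈ T, ∀ t < n, ‖orb F 0 (Tube.ext y 0) t - Tube.ext y t‖ ≤ η := by
    intro y hy t ht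
    obtain ⟨h1, h2⟩ := hTmem y hy
    refine Tube.shadow F x (orb F 0 (Tube.ext y 0)) (Tube.ext y) (n - 1) n (by omega) K τ ρ hK1
      hτ0.le (fun t ht => hLip t (by omega)) rfl ?_ ?_ (by linarith) t (by omega)
    · intro t ht
      linarith [hA _ h1 t (by omega)]
    · intro t ht
      have := h2 t (by omega)
      simpa [orb, Tube.Psi] using this
  have hTx : ∀ y ∈ T, ‖y - xh‖ ≤ ρ / 4 + η := by
    intro y hy
    rw [pi_norm_le_iff_of_nonneg (by positivity)]
    intro t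
    have h1 := hTorb y hy t t.2
    have h2 := hA _ (hTmem y hy).1 t t.2
    rw [Tube.ext_lt t.2] at h1
    have e1 : (y - xh) t = (orb F 0 (Tube.ext y 0) t - x t) - (orb F 0 (Tube.ext y 0) t - y t) := by
      simp [hxh]
    rw [e1]
    exact (norm_sub_le _ _).trans (add_le_add h2 h1)
  have hball : ∀ y ∈ T, closedBall y (2 * (Λ * σ)) ⊆ S := by
    intro y hy z hz
    rw [hS, mem_closedBall, dist_eq_norm] at *
    have := hTx y hy
    have e1 : z - xh = (z - y) + (y - xh) := by abel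
    have h3 := norm_add_le (z - y) (y - xh)
    rw [← e1] at h3
    linarith
  have hTS : T ⊆ S := fun y hy => hball y hy (mem_closedBall_self (by positivity))
  -- the stretching map
  set c : ℝ := σ / τ - 1 with hc
  have hc0 : 0 ≤ c := by
    rw [hc, sub_nonneg, le_div_iff₀ hτ0]; linarith
  have hcτ : (1 + c) * τ = σ := by rw [hc]; field_simp; ring
  set Δ : (Fin n → E d) →ₗ[ℝ] (Fin n → E d) :=
    LinearMap.id + c • (Tube.RL n (e s) ∘ₗ Tube.BL n a (s - 1)) with hΔ
  have hs1 : s - 1 + 1 = s := by omega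
  have hdet : LinearMap.det Δ = (1 + c) ^ d := by
    rw [hΔ, Tube.det_id_add]
    · simp
    · ext1 w
      simp only [LinearMap.comp_apply, LinearMap.id_apply]
      rw [Tube.BL_RL a (e s) s (s - 1) (by omega) (he1 s hs0 hs), if_pos hs1]
  set T' : Set (Fin n → E d) := {y' | ∃ y ∈ T, ‖y' - y‖ ≤ 2 * (Λ * σ) ∧
    Tube.Xi F a e y' = Δ (Tube.Xi F a e y)} with hT'
  have hT'S : T' ⊆ S := by
    rintro y' ⟨y, hy, h1, -⟩
    exact hball y hy (by rwa [mem_closedBall, dist_eq_norm])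
  have himg : Δ '' (Tube.Xi F a e '' T) ⊆ Tube.Xi F a e '' T' := by
    rintro _ ⟨_, ⟨y, hy, rfl⟩, rfl⟩
    have hz : ‖Δ (Tube.Xi F a e y) - Tube.Xi F a e y‖ ≤ Λ * σ := by
      simp only [hΔ, LinearMap.add_apply, LinearMap.id_apply, LinearMap.smul_apply,
        LinearMap.comp_apply, add_sub_cancel_left]
      rw [Tube.BL_Xi F a e he1 y (s - 1) (by omega), norm_smul, Real.norm_of_nonneg hc0]
      have h1 := Tube.norm_RL (e s) hΛ0 (he2 s hs0 hs) (Tube.Psi F y (s - 1))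
      have h2 := (hTmem y hy).2 (s - 1) (by omega)
      have h3 : Λ * ‖Tube.Psi F y (s - 1)‖ ≤ Λ * τ := by gcongr
      have h4 : c * ‖Tube.RL n (e s) (Tube.Psi F y (s - 1))‖ ≤ c * (Λ * τ) := by
        gcongr; exact h1.trans h3
      have h5 : c * τ ≤ σ := by nlinarith
      nlinarith
    obtain ⟨y', h1, h2⟩ := Tube.surj_near_id hh'0 hh'2 hnear (by positivity) (hball y hy) hz
    exact ⟨y', ⟨y, hy, h1, h2⟩, h2⟩
  have hvol1 : ENNReal.ofReal ((1 + c) ^ d) * volume T ≤ 4 * volume T' := by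
    have h1 := (Tube.vol_near_id volume hh'0 hsm hnear hTS).2
    have h2 := (Tube.vol_near_id volume hh'0 hsm hnear hT'S).1
    have h3 := Measure.addHaar_image_linearMap volume Δ (Tube.Xi F a e '' T)
    rw [hdet, abs_of_nonneg (by positivity)] at h3
    have h4 := measure_mono (μ := volume) himg
    calc _ ≤ ENNReal.ofReal ((1 + c) ^ d) * (2 * volume (Tube.Xi F a e '' T)) := by gcongr
      _ = 2 * volume (Δ '' (Tube.Xi F a e '' T)) := by rw [h3]; ring
      _ ≤ 2 * (2 * volume T') := by gcongr; exact h4.trans h2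
      _ = _ := by rw [← mul_assoc]; norm_num
  -- the second shear
  set G : ℕ → E d → E d := fun j => if j + 1 = s then 0 else F j with hG
  have hGm : ∀ t, Measurable (G t) := by
    intro t
    simp only [hG]
    split_ifs
    · exact measurable_const
    · exact hF t
  have hsub : T' ⊆ Tube.shear G 0 ⁻¹' ⋃ q, Set.pi Set.univ (fun j : Fin n =>
      if (j : ℕ) = 0 then P₁ q else if (j : ℕ) = s then P₂ q else closedBall 0 τ) := by
    intro y' hy'
    have hy'S := hT'S hy'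
    obtain ⟨y, hy, hyy, hΞ⟩ := hy'
    obtain ⟨hy0, hyj⟩ := hTmem y hy
    have hPsi : ∀ j, j + 1 < n → Tube.Psi F y' j =
        Tube.Psi F y j + if j + 1 = s then c • Tube.Psi F y (s - 1) else 0 := by
      intro j hj
      rw [← Tube.BL_Xi F a e he1 y' j hj, hΞ]
      simp only [hΔ, LinearMap.add_apply, LinearMap.id_apply, LinearMap.smul_apply,
        LinearMap.comp_apply, map_add, map_smul]
      rw [Tube.BL_Xi F a e he1 y j hj, Tube.BL_Xi F a e he1 y (s - 1) (by omega),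
        Tube.BL_RL a (e s) s j hj (he1 s hs0 hs)]
      split_ifs <;> simp
    have hP1 : ∀ j, j + 1 < n → j + 1 ≠ s → ‖Tube.Psi F y' j‖ ≤ τ := by
      intro j hj hjs
      rw [hPsi j hj, if_neg hjs, add_zero]
      exact hyj j hj
    have hP2 : ‖Tube.Psi F y' (s - 1)‖ ≤ σ := by
      rw [hPsi (s - 1) (by omega), if_pos hs1]
      have := hyj (s - 1) (by omega)
      refine (norm_add_le _ _).trans ?_
      rw [norm_smul, Real.norm_of_nonneg hc0]
      nlinarith
    have hx' : ∀ t < n, ‖Tube.ext y' t - x t‖ ≤ ρ / 4 + η + σ' := by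
      intro t ht
      have h1 := hTx y hy
      have h2 := norm_le_pi_norm (y - xh) ⟨t, ht⟩
      have h3 := norm_le_pi_norm (y' - y) ⟨t, ht⟩
      rw [Tube.ext_lt ht]
      have e1 : y' ⟨t, ht⟩ - x t = (y' - y) ⟨t, ht⟩ + (y - xh) ⟨t, ht⟩ := by simp [hxh]
      rw [e1]
      refine (norm_add_le _ _).trans ?_
      linarith
    have hyy' : ∀ t < n, ‖Tube.ext y' t - orb F 0 (Tube.ext y 0) t‖ ≤ σ' + η := by
      intro t ht
      have h1 := Tube.norm_ext_sub y' y t
      have h2 := hTorb y hy t ht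
      have e1 : Tube.ext y' t - orb F 0 (Tube.ext y 0) t =
          (Tube.ext y' t - Tube.ext y t) - (orb F 0 (Tube.ext y 0) t - Tube.ext y t) := by abel
      rw [e1]
      refine (norm_sub_le _ _).trans ?_
      linarith
    have hu : ∀ t ≤ s - 1, ‖Tube.ext y' t - orb F 0 (Tube.ext y' 0) t‖ ≤ η := by
      refine Tube.shadow F x (Tube.ext y') (orb F 0 (Tube.ext y' 0)) (s - 1) n (by omega) K τ ρ hK1
        hτ0.le (fun t ht => hLip t (by omega)) rfl ?_ ?_ (by linarith)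
      · intro t ht
        linarith [hx' t (by omega)]
      · intro t ht
        have := hP1 t (by omega) (by omega)
        simpa [orb, Tube.Psi] using this
    have hv : ∀ t ≤ n - 1 - s, ‖Tube.ext y' (s + t) - orb F s (Tube.ext y' s) t‖ ≤ η := by
      refine Tube.shadow (fun j => F (s + j)) (fun j => x (s + j)) (fun j => Tube.ext y' (s + j))
        (orb F s (Tube.ext y' s)) (n - 1 - s) n (by omega) K τ ρ hK1
        hτ0.le (fun t ht => hLip (s + t) (by omega)) rfl ?_ ?_ (by linarith)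
      · intro t ht
        linarith [hx' (s + t) (by omega)]
      · intro t ht
        have := hP1 (s + t) (by omega) (by omega)
        simpa [orb, Tube.Psi, add_assoc] using this
    suffices hq : ∃ q, Tube.ext y' 0 ∈ P₁ q ∧ Tube.ext y' s ∈ P₂ q by
      obtain ⟨q, hq1, hq2⟩ := hq
      refine Set.mem_preimage.2 (Set.mem_iUnion.2 ⟨q, fun j _ => ?_⟩)
      obtain ⟨j, hj⟩ := j
      rcases j with _ | j
      · simpa [Tube.shear, Tube.ext_lt hn0] using hq1
      · by_cases hjs : j + 1 = s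
        · subst hjs
          simpa [Tube.shear, hG, Tube.ext_lt hj] using hq2
        · have := hP1 j hj hjs
          simpa [Tube.shear, hG, hjs, Tube.Psi, Tube.ext_lt hj] using this
    refine hP _ hy0 (Tube.ext y' 0) (Tube.ext y' s) ?_ ?_ ?_
    · intro t ht
      have h1 := hu t (by omega)
      have h2 := hyy' t (by omega)
      have e1 : orb F 0 (Tube.ext y' 0) t - orb F 0 (Tube.ext y 0) t =
        (Tube.ext y' t - orb F 0 (Tube.ext y 0) t) -
          (Tube.ext y' t - orb F 0 (Tube.ext y' 0) t) := by abel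
      rw [e1]
      refine (norm_sub_le _ _).trans ?_
      linarith
    · intro t ht
      have h1 := hv t (by omega)
      have h2 := hyy' (s + t) ht
      have e1 : orb F s (Tube.ext y' s) t - orb F 0 (Tube.ext y 0) (s + t) =
        (Tube.ext y' (s + t) - orb F 0 (Tube.ext y 0) (s + t)) -
          (Tube.ext y' (s + t) - orb F s (Tube.ext y' s) t) := by abel
      rw [e1]
      refine (norm_sub_le _ _).trans ?_
      linarith
    · have h1 := hu (s - 1) le_rfl
      have h2 := hx' (s - 1) (by omega)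
      have hb1 : Tube.ext y' (s - 1) ∈ ball (x (s - 1)) ρ := by
        rw [mem_ball, dist_eq_norm]; linarith
      have hb2 : orb F 0 (Tube.ext y' 0) (s - 1) ∈ ball (x (s - 1)) ρ := by
        rw [mem_ball, dist_eq_norm]
        have e1 : orb F 0 (Tube.ext y' 0) (s - 1) - x (s - 1) = (Tube.ext y' (s - 1) - x (s - 1)) -
          (Tube.ext y' (s - 1) - orb F 0 (Tube.ext y' 0) (s - 1)) := by abel
        rw [e1]
        refine (norm_sub_le _ _).trans_lt ?_
        linarith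
      have h3 := hLip (s - 1) (by omega) _ hb1 _ hb2
      have h4 : K * ‖Tube.ext y' (s - 1) - orb F 0 (Tube.ext y' 0) (s - 1)‖ ≤ K * η := by gcongr
      have e2 : orb F 0 (Tube.ext y' 0) s = F (s - 1) (orb F 0 (Tube.ext y' 0) (s - 1)) := by
        conv_lhs => rw [← hs1]
        simp [orb]
      have e3 : orb F 0 (Tube.ext y' 0) s - Tube.ext y' s = -(Tube.Psi F y' (s - 1)) -
          (F (s - 1) (Tube.ext y' (s - 1)) - F (s - 1) (orb F 0 (Tube.ext y' 0) (s - 1))) := by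
        rw [e2, Tube.Psi, hs1]; abel
      rw [e3]
      refine (norm_sub_le _ _).trans ?_
      rw [norm_neg]
      linarith
  have hvol2 : volume T' ≤ (∑ q, volume (P₁ q) * volume (P₂ q)) * b ^ (n - 2) := by
    refine (measure_mono hsub).trans ?_
    have hmp := Tube.mp_shear (n := n) (volume : Measure (E d)) G hGm 0
    refine (Measure.le_map_apply hmp.aemeasurable _).trans ?_
    rw [hmp.map_eq]
    refine (measure_iUnion_fintype_le _ _).trans (le_of_eq ?_)
    rw [Finset.sum_mul]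
    refine Finset.sum_congr rfl fun q _ => ?_
    rw [Measure.pi_pi, ← Tube.prod_two_slot hs0 hs]
    refine Finset.prod_congr rfl fun j _ => ?_
    split_ifs <;> rfl
  have hbσ : volume (closedBall (0 : E d) σ) = ENNReal.ofReal ((1 + c) ^ d) * b := by
    rw [← hcτ, Measure.addHaar_closedBall_mul volume 0 (by positivity) hτ0.le]
    simp [hb]
  have hb0 : b ≠ 0 := (measure_closedBall_pos volume _ hτ0).ne'
  have hbt : b ≠ ∞ := measure_closedBall_lt_top.ne
  have hpow : b ^ (n - 1) = b * b ^ (n - 2) := by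
    rw [← pow_succ']; congr 1; omega
  have hfinal : (volume A₀ * volume (closedBall (0 : E d) σ)) * b ^ (n - 2) ≤
      (9 * ∑ q, volume (P₁ q) * volume (P₂ q)) * b ^ (n - 2) := by
    calc _ = ENNReal.ofReal ((1 + c) ^ d) * volume T := by rw [hTvol, hbσ, hpow]; ring
      _ ≤ 4 * volume T' := hvol1
      _ ≤ 9 * ((∑ q, volume (P₁ q) * volume (P₂ q)) * b ^ (n - 2)) := by gcongr; norm_num
      _ = _ := by ring
  exact (ENNReal.mul_le_mul_iff_left (pow_ne_zero _ hb0) (ENNReal.pow_ne_top hbt)).1 hfinal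

end Crest.Agent.R133
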