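import Crest.Agent.R133.Dom_Orb
import Crest.Agent.R133.Tube
import Crest.Agent.R133.TowerBasic

/-! # Row 133: the domination inequality on one atom -/

set_option autoImplicit false
set_option maxHeartbeats 800000

namespace Crest.Agent.R133.DomAux

open MeasureTheory Metric Finset
open scoped ENNReal

variable {d : ℕ} {M : Type*} [MeasurableSpace M] {ν : Measure M} {S : M → M}

/-- points following the cells `a` at the times `j m` (loosely) -/
def Fol (mo : Model d ν S) (r : ℝ) (m k : ℕ) (a : Fin (k + 1) → Cell mo) : Set M :=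
  {z | ∀ j : Fin (k + 1), S^[j * m] z ∈ Nbr mo r (a j)}

/-- atoms -/
def Atom (mo : Model d ν S) (r : ℝ) (m k : ℕ) (a a' : Fin (k + 1) → Cell mo) : Set M :=
  {z | ∀ j : Fin (k + 1), S^[j * m] z ∈ Tig mo r (a j) ∧
    S^[(k + 1) * m + j * m] z ∈ Tig mo r (a' j)}

theorem measurableSet_Fol (mo : Model d ν S) (hS : Measurable S) (r : ℝ) (m k : ℕ)
    (a : Fin (k + 1) → Cell mo) : MeasurableSet (Fol mo r m k a) := by
  unfold Fol
  simp only [Set.ofPred_forall]
  exact MeasurableSet.iInter fun j => (hS.iterate _) (measurableSet_Nbr mo r _)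

theorem measurableSet_Atom (mo : Model d ν S) (hS : Measurable S) (r : ℝ) (m k : ℕ)
    (a a' : Fin (k + 1) → Cell mo) : MeasurableSet (Atom mo r m k a a') := by
  unfold Atom
  simp only [Set.ofPred_forall]
  exact MeasurableSet.iInter fun j => MeasurableSet.inter (s₁ := {z | _}) (s₂ := {z | _})
    ((hS.iterate _) (measurableSet_Tig mo r _)) ((hS.iterate _) (measurableSet_Tig mo r _))

theorem measurable_obs {g : M → ℝ} (hg : Measurable g) (t₀ : ℝ) :
    Measurable fun z => decide (t₀ < g z) := by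
  refine measurable_to_bool ?_
  have : (fun z => decide (t₀ < g z)) ⁻¹' {true} = {z | t₀ < g z} := by ext z; simp
  rw [this]
  exact measurableSet_lt measurable_const hg

theorem measurableSet_name {O : M → Bool} (hO : Measurable O) (hS : Measurable S) (len : ℕ)
    (w : Fin len → Bool) : MeasurableSet {z | name O S len z = w} :=
  measurable_name hO hS len (measurableSet_singleton w)

/-- at the block times, the atom determines a tight cell -/
theorem atom_time (mo : Model d ν S) {r : ℝ} {m k : ℕ} (a a' : Fin (k + 1) → Cell mo)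
    {t : ℕ} (ht : t < 2 * (k + 1) * m) (h0 : t % m = 0) :
    ∃ q, ∀ z ∈ Atom mo r m k a a', S^[t] z ∈ Tig mo r q := by
  have hm : 0 < m := Nat.pos_of_ne_zero (by rintro rfl; simp at ht)
  obtain ⟨j, rfl⟩ : ∃ j, t = j * m := ⟨t / m, by
    have := Nat.div_add_mod' t m; omega⟩
  have hj : j < 2 * (k + 1) := Nat.lt_of_mul_lt_mul_right ht
  by_cases h : j < k + 1
  · exact ⟨a ⟨j, h⟩, fun z hz => (hz ⟨j, h⟩).1⟩
  · refine ⟨a' ⟨j - (k + 1), by omega⟩, fun z hz => ?_⟩
    have := (hz ⟨j - (k + 1), by omega⟩).2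
    have e : (k + 1) * m + (j - (k + 1)) * m = j * m := by
      rw [← add_mul]; congr 1; omega
    simp only [e] at this
    exact this

theorem tig_close (mo : Model d ν S) {r : ℝ} (hr : 0 ≤ r) {q : Cell mo} {z z' : M}
    (hz : z ∈ Tig mo r q) (hz' : z' ∈ Tig mo r q) :
    ‖mo.φ (mo.c z') z - mo.φ (mo.c z') z'‖ ≤ (d + 1) * (2 * r) := by
  refine norm_le_of_coord _ (by positivity) fun b => ?_
  have h1 := hz.2 b
  have h2 := hz'.2 b
  rw [hz'.1, PiLp.sub_apply]
  rw [abs_le] at h1 h2 ⊢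
  constructor <;> linarith [h1.1, h1.2, h2.1, h2.2]

theorem coord_le (y : E d) (b : Fin d) : |y b| ≤ ‖y‖ :=
  Real.norm_eq_abs (y b) ▸ PiLp.norm_apply_le y b

theorem nbr_of (mo : Model d ν S) {r r₁ r₂ : ℝ} {q : Cell mo} {y y' : E d} (hy : y ∈ mo.W q.1)
    (h1 : ‖y - y'‖ ≤ r₁) (h2 : ∀ b, |y' b - r * q.2 b| ≤ r₂) (h : r₁ + r₂ ≤ 3 * r) :
    mo.ψ q.1 y ∈ Nbr mo r q := by
  refine ⟨psi_mem mo hy, fun b => ?_⟩
  rw [mo.φψ _ _ hy]
  have h3 := (coord_le (y - y') b).trans h1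
  rw [PiLp.sub_apply] at h3
  have h4 := h2 b
  rw [abs_le] at h3 h4 ⊢
  constructor <;> linarith [h3.1, h3.2, h4.1, h4.2]

theorem atom_le (mo : Model d ν S) (hS : Measurable S) {g : M → ℝ} {Lg : ℝ}
    (hg : Measurable g) {m k : ℕ} {x t₀ Λ σ σ' : ℝ} (hm : 0 < m)
    (hgL : ∀ z ∈ mo.good (Real.exp (-x)), ∀ y ∈ ball (mo.φ (mo.c z) z) (Real.exp (-x)),
      |g (mo.ψ (mo.c z) y) - g z| ≤ Lg * Real.exp (-x))
    (hC : mo.C * Real.exp (-x) ≤ 1)
    (hΛ2 : Real.exp (x + m * (d * Real.log (1 + mo.C ^ 2))) ≤ Λ ^ 2) (hΛ : 1 ≤ Λ)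
    (hsmall : 2 * (((2 * (k + 1) * m : ℕ) : ℝ) * d + 1) *
      (((2 * (k + 1) * m : ℕ) : ℝ) * Λ * (mo.C * Real.exp (-x))) ≤ 1)
    (hσ : 0 < σ) (hσσ' : 2 * Λ * σ ≤ σ') (hσ'ρ : 8 * σ' ≤ Real.exp (-x))
    (hη : (d + 1) * (2 * σ') * (mo.C + 1) ^ m ≤ Real.exp (-x) / 4)
    (a a' : Fin (k + 1) → Cell mo) : ∀ (w₁ w₂ : Fin ((k + 1) * m) → Bool),
    ν (mo.G g Lg t₀ m k x ∩
        {z | name (fun z => decide (t₀ < g z)) S ((k + 1) * m) z = w₁ ∧
          name (fun z => decide (t₀ < g z)) S ((k + 1) * m) (S^[(k + 1) * m] z) = w₂} ∩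
        Atom mo σ' m k a a') * volume (closedBall (0 : E d) σ) ≤
      ENNReal.ofReal (9 * mo.C ^ 3) * ∑ q ∈ cells mo σ,
        ν ({z | name (fun z => decide (t₀ < g z)) S ((k + 1) * m) z = w₁ ∧
          S^[(k + 1) * m] z ∈ Nbr mo σ q} ∩ Fol mo σ' m k a) *
        ν ({z | name (fun z => decide (t₀ < g z)) S ((k + 1) * m) z = w₂ ∧
          z ∈ Nbr mo σ q} ∩ Fol mo σ' m k a') := by
  set O : M → Bool := fun z => decide (t₀ < g z) with hO
  set ρ := Real.exp (-x) with hρdef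
  set h := (k + 1) * m with hh
  set n := 2 * (k + 1) * m with hn
  intro w₁ w₂
  have hnh : n = h + h := by rw [hn, hh]; ring
  have hh0 : 0 < h := Nat.mul_pos (by omega) hm
  have hρ : 0 < ρ := Real.exp_pos _
  have hOm : Measurable O := measurable_obs hg t₀
  have hσ' : 0 < σ' := lt_of_lt_of_le (by positivity) hσσ'
  have hσle : σ ≤ σ' := by nlinarith
  have hC0 : 0 ≤ mo.C := by linarith [mo.one_le]
  set Z := mo.G g Lg t₀ m k x ∩ {z | name O S h z = w₁ ∧ name O S h (S^[h] z) = w₂} ∩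
    Atom mo σ' m k a a' with hZ
  have hZm : MeasurableSet Z := by
    refine ((mo.measurableSet_G hS hg Lg t₀ m k x).inter ?_).inter
      (measurableSet_Atom mo hS σ' m k a a')
    exact MeasurableSet.inter (s₁ := {z | _}) (s₂ := {z | _}) (measurableSet_name hOm hS h w₁)
      ((hS.iterate h) (measurableSet_name hOm hS h w₂))
  rcases Z.eq_empty_or_nonempty with hE | ⟨z₀, hz₀⟩
  · rw [hE, measure_empty, zero_mul]; exact zero_le
  have hgood : ∀ t < n, S^[t] z₀ ∈ mo.good ρ := fun t ht => (hz₀.1.1.2 t ht).1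
  have hfar : ∀ t < n, Lg * ρ < |g (S^[t] z₀) - t₀| := fun t ht => (hz₀.1.1.2 t ht).2
  set Y₁ : Cell mo → Set M := fun q =>
    {z | name O S h z = w₁ ∧ S^[h] z ∈ Nbr mo σ q} ∩ Fol mo σ' m k a with hY₁
  set Y₂ : Cell mo → Set M := fun q =>
    {z | name O S h z = w₂ ∧ z ∈ Nbr mo σ q} ∩ Fol mo σ' m k a' with hY₂
  have hY₁m : ∀ q, MeasurableSet (Y₁ q) := fun q =>
    (MeasurableSet.inter (s₁ := {z | _}) (s₂ := {z | _}) (measurableSet_name hOm hS h w₁)
      ((hS.iterate h) (measurableSet_Nbr mo σ q))).inter (measurableSet_Fol mo hS σ' m k a)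
  have hY₂m : ∀ q, MeasurableSet (Y₂ q) := fun q =>
    (MeasurableSet.inter (s₁ := {z | _}) (s₂ := {z | _}) (measurableSet_name hOm hS h w₂)
      (measurableSet_Nbr mo σ q)).inter (measurableSet_Fol mo hS σ' m k a')
  set i₀ := iz mo z₀ 0 with hi₀
  set i₁ := iz mo z₀ h with hi₁
  set A₀ : Set (E d) := mo.W i₀ ∩ mo.ψ i₀ ⁻¹' Z with hA₀
  have hstay : ∀ y ∈ A₀, ∀ t < n, ‖orb (Fz mo z₀) 0 y t - xz mo z₀ t‖ ≤ ρ / 4 ∧
      orb (Fz mo z₀) 0 y t = mo.φ (iz mo z₀ t) (S^[t] (mo.ψ i₀ y)) := by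
    intro y hy
    refine stay mo hρ hC hm hgood hy.1 (η := (d + 1) * (2 * σ')) (by positivity) ?_ hη
    intro t ht h0
    obtain ⟨q, hq⟩ := atom_time mo (r := σ') a a' ht h0
    exact tig_close mo hσ'.le (hq _ hy.2.2) (hq _ hz₀.2)
  have htube := tube (d := d) (n := n) (s := h) hh0 (by omega) (Fz mo z₀)
    (measurable_Fz mo hS z₀) (xz mo z₀) (fun t => mo.A (S^[t] z₀)) mo.C ρ (mo.C * ρ) Λ σ σ'
    (fun t ht => F_xz mo (hgood t (by omega))) mo.one_le (fun t v => mo.A_bd _ v)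
    (fun t ht y hy y' hy' => (dynF mo hρ hC (hgood t (by omega)) hy).2 y' hy')
    (by
      intro s' hs0 hsn
      obtain ⟨e, he1, he2⟩ := exists_col (L := mo.C) (a := fun t => mo.A (S^[t] z₀))
        (fun t v => mo.A_bd _ v) s' (n - s') hs0 (by omega)
      refine ⟨e, he1, fun t ht w => ?_⟩
      have h1 := he2 t (by omega) w
      rw [mo.pot_shift, Nat.add_sub_cancel' hsn.le] at h1
      have h2 := pot_split mo z₀ (J := 2 * (k + 1)) hm hsn
      have h3 : ∑ j ∈ range (2 * (k + 1)), mo.pot (S^[j * m] z₀) m - mo.pot z₀ n ≤ x :=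
        hz₀.1.1.1
      have h4 : Real.exp (pot mo.C (fun t => mo.A (S^[t] z₀)) s' + mo.pot (S^[s'] z₀) (n - s') -
          pot mo.C (fun t => mo.A (S^[t] z₀)) n) ≤ Λ ^ 2 := by
        refine le_trans (Real.exp_le_exp.2 ?_) hΛ2
        change mo.pot z₀ s' + mo.pot (S^[s'] z₀) (n - s') - mo.pot z₀ n ≤ _
        linarith
      have h5 : ‖act (e t) w‖ ^ 2 ≤ (Λ * ‖w‖) ^ 2 := by
        rw [mul_pow]
        exact h1.trans (mul_le_mul_of_nonneg_right h4 (sq_nonneg _))
      exact le_of_sq_le_sq h5 (by positivity))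
    hΛ (by positivity) hsmall hσ hσσ' hσ'ρ A₀ ((mo.mW _).inter ((mo.mψ _) hZm))
    (fun y hy t ht => (hstay y hy t ht).1) (𝒞 := ↥(cells mo σ))
    (fun q => mo.W i₀ ∩ mo.ψ i₀ ⁻¹' Y₁ q) (fun q => mo.W i₁ ∩ mo.ψ i₁ ⁻¹' Y₂ q)
    (by
      intro y hy u v hu hv huv
      have hub : ∀ t < h, orb (Fz mo z₀) 0 u t ∈ ball (xz mo z₀ t) ρ := by
        intro t ht
        rw [mem_ball, dist_eq_norm]
        have := norm_sub_le_norm_sub_add_norm_sub (orb (Fz mo z₀) 0 u t) (orb (Fz mo z₀) 0 y t)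
          (xz mo z₀ t)
        linarith [hu t ht, (hstay y hy t (by omega)).1]
      have hvb : ∀ t < h, orb (Fz mo z₀) h v t ∈ ball (xz mo z₀ (h + t)) ρ := by
        intro t ht
        rw [mem_ball, dist_eq_norm]
        have := norm_sub_le_norm_sub_add_norm_sub (orb (Fz mo z₀) h v t)
          (orb (Fz mo z₀) 0 y (h + t)) (xz mo z₀ (h + t))
        linarith [hv t (by omega), (hstay y hy (h + t) (by omega)).1]
      have hvn : ‖v - xz mo z₀ h‖ ≤ 2 * σ' + ρ / 4 := by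
        have := norm_sub_le_norm_sub_add_norm_sub v (orb (Fz mo z₀) 0 y h) (xz mo z₀ h)
        have h1 : ‖v - orb (Fz mo z₀) 0 y h‖ ≤ 2 * σ' := hv 0 (by omega)
        linarith [(hstay y hy h (by omega)).1]
      have huh : orb (Fz mo z₀) 0 u h ∈ ball (xz mo z₀ h) ρ := by
        rw [mem_ball, dist_eq_norm]
        have := norm_sub_le_norm_sub_add_norm_sub (orb (Fz mo z₀) 0 u h) v (xz mo z₀ h)
        linarith
      have hvW : v ∈ mo.W i₁ := ball_sub mo (hgood h (by omega)) (hvb 0 hh0)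
      have huW : u ∈ mo.W i₀ := ball_sub mo (hgood 0 (by omega)) (hub 0 hh0)
      have htu : ∀ t ≤ h, mo.ψ (iz mo z₀ t) (orb (Fz mo z₀) 0 u t) = S^[t] (mo.ψ i₀ u) := by
        intro t ht
        have := track mo hρ hC (z₀ := z₀) 0 h u (fun j hj => hgood _ (by omega))
          (fun j hj => by rw [zero_add]; exact hub j hj) t ht
        rwa [zero_add] at this
      have htv : ∀ t ≤ h, mo.ψ (iz mo z₀ (h + t)) (orb (Fz mo z₀) h v t) = S^[t] (mo.ψ i₁ v) :=
        track mo hρ hC (z₀ := z₀) h h v (fun j hj => hgood _ (by omega)) hvb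
      obtain ⟨κ, hκ, hκ'⟩ := exists_cell mo hσ i₁ hvW
      have hjm : ∀ j : Fin (k + 1), j * m < h := fun j => Nat.mul_lt_mul_of_pos_right j.2 hm
      refine ⟨⟨(i₁, κ), hκ⟩, ⟨huW, ⟨?_, ?_⟩, ?_⟩, ⟨hvW, ⟨?_, ?_⟩, ?_⟩⟩
      · rw [← hz₀.1.2.1]
        funext t
        show O (S^[t] (mo.ψ i₀ u)) = O (S^[t] z₀)
        rw [← htu t t.2.le]
        exact same_bit mo hgL (hgood t (by have := t.2; omega)) (hfar t (by have := t.2; omega))
          (hub t t.2)
      · rw [← htu h le_rfl]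
        exact nbr_of mo (q := (i₁, κ)) (ball_sub mo (hgood h (by omega)) huh) huv hκ'
          (by linarith)
      · intro j
        rw [← htu _ (hjm j).le]
        have h1 := (hy.2.2 j).1
        have h2 := (hz₀.2 j).1
        have e : iz mo z₀ (j * m) = (a j).1 := h2.1
        have hW := ball_sub mo (hgood _ (by have := hjm j; omega)) (hub _ (hjm j))
        have h3 := hu _ (hjm j)
        rw [(hstay y hy _ (by have := hjm j; omega)).2] at h3
        rw [e] at hW h3 ⊢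
        exact nbr_of mo hW h3 h1.2 (by linarith)
      · rw [← hz₀.1.2.2]
        funext t
        show O (S^[t] (mo.ψ i₁ v)) = O (S^[t] (S^[h] z₀))
        rw [← htv t t.2.le, ← Function.iterate_add_apply, add_comm (t : ℕ) h]
        exact same_bit mo hgL (hgood _ (by have := t.2; omega)) (hfar _ (by have := t.2; omega))
          (hvb t t.2)
      · exact nbr_of mo (q := (i₁, κ)) (r₁ := 0) hvW (by simp) hκ' (by linarith)
      · intro j
        rw [← htv _ (hjm j).le]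
        have h1 := (hy.2.2 j).2
        have h2 := (hz₀.2 j).2
        have e : iz mo z₀ (h + j * m) = (a' j).1 := h2.1
        have hW := ball_sub mo (hgood _ (by have := hjm j; omega)) (hvb _ (hjm j))
        have h3 := hv (j * m) (by have := hjm j; omega)
        rw [(hstay y hy _ (by have := hjm j; omega)).2] at h3
        rw [e] at hW h3 ⊢
        exact nbr_of mo hW h3 h1.2 (by linarith))
  have hZU : Z = Z ∩ mo.U i₀ := by
    refine (Set.inter_eq_left.2 fun z hz => ?_).symm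
    have h1 : z ∈ mo.good ρ := (hz.1.1.2 0 (by omega)).1
    have h2 := (hz.2 0).1.1
    have h3 := (hz₀.2 0).1.1
    simp only [Fin.val_zero, zero_mul, Function.iterate_zero, id] at h2 h3
    have : i₀ = mo.c z := by rw [h2, ← h3]; rfl
    rw [this]
    exact (mo.hgood ρ z h1).1
  have hup : ν Z ≤ ENNReal.ofReal mo.C * volume A₀ := by
    rw [hZU]; exact mo.up i₀ Z hZm
  have hlow : ∀ i Y, MeasurableSet Y →
      volume (mo.W i ∩ mo.ψ i ⁻¹' Y) ≤ ENNReal.ofReal mo.C * ν Y := fun i Y hY =>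
    (mo.low i Y hY).trans (mul_le_mul_right (measure_mono Set.inter_subset_left) _)
  calc ν Z * volume (closedBall (0 : E d) σ)
      ≤ ENNReal.ofReal mo.C * (volume A₀ * volume (closedBall (0 : E d) σ)) := by
        rw [← mul_assoc]; exact mul_le_mul_left hup _
    _ ≤ ENNReal.ofReal mo.C * (9 * ∑ q : ↥(cells mo σ),
          (ENNReal.ofReal mo.C * ν (Y₁ q)) * (ENNReal.ofReal mo.C * ν (Y₂ q))) := by
        refine mul_le_mul_right (htube.trans (mul_le_mul_right (sum_le_sum fun q _ => ?_) _)) _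
        exact mul_le_mul' (hlow _ _ (hY₁m q)) (hlow _ _ (hY₂m q))
    _ = ENNReal.ofReal (9 * mo.C ^ 3) * ∑ q ∈ cells mo σ, ν (Y₁ q) * ν (Y₂ q) := by
        rw [sum_coe_sort (cells mo σ) (fun q =>
          (ENNReal.ofReal mo.C * ν (Y₁ q)) * (ENNReal.ofReal mo.C * ν (Y₂ q)))]
        rw [ENNReal.ofReal_mul (by norm_num), ENNReal.ofReal_pow hC0, mul_sum, mul_sum, mul_sum]
        refine sum_congr rfl fun q _ => ?_
        rw [ENNReal.ofReal_ofNat]
        ring

end Crest.Agent.R133.DomAux
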