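import Crest.Agent.R133.PotM

/-! # Row 133: cells and neighbourhoods used in the domination lemma -/

set_option autoImplicit false
set_option maxHeartbeats 400000

namespace Crest.Agent.R133.DomAux

open MeasureTheory Metric Finset
open scoped ENNReal

variable {d : ℕ} {M : Type*} [MeasurableSpace M] {ν : Measure M} {S : M → M}

/-- index type of cells -/
abbrev Cell (mo : Model d ν S) := Fin mo.N × (Fin d → ℤ)

/-- range of the integer coordinates -/
noncomputable def Kr (mo : Model d ν S) (r : ℝ) : ℤ := ⌈mo.C / r⌉ + 1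

/-- the finite set of cells at scale `r` -/
noncomputable def cells (mo : Model d ν S) (r : ℝ) : Finset (Cell mo) :=
  univ ×ˢ Fintype.piFinset (fun _ => Finset.Icc (-(Kr mo r)) (Kr mo r))

/-- neighbourhood of a cell -/
def Nbr (mo : Model d ν S) (r : ℝ) (q : Cell mo) : Set M :=
  {z | z ∈ mo.U q.1 ∧ ∀ b, |mo.φ q.1 z b - r * q.2 b| ≤ 3 * r}

/-- tight neighbourhood of a cell -/
def Tig (mo : Model d ν S) (r : ℝ) (q : Cell mo) : Set M :=
  {z | mo.c z = q.1 ∧ ∀ b, |mo.φ q.1 z b - r * q.2 b| ≤ r}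

theorem measurable_coord (mo : Model d ν S) (i : Fin mo.N) (b : Fin d) :
    Measurable fun z => mo.φ i z b := by
  have h : Measurable fun y : E d => y b := by fun_prop
  exact h.comp (mo.mφ i)

theorem measurableSet_Nbr (mo : Model d ν S) (r : ℝ) (q : Cell mo) :
    MeasurableSet (Nbr mo r q) := by
  unfold Nbr
  refine MeasurableSet.inter (s₁ := mo.U q.1) (s₂ := {z | _}) (mo.mU _) ?_
  simp only [Set.ofPred_forall]
  refine MeasurableSet.iInter fun b => ?_
  exact measurableSet_le (((measurable_coord mo q.1 b).sub measurable_const).abs) measurable_const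

theorem measurableSet_Tig (mo : Model d ν S) (r : ℝ) (q : Cell mo) :
    MeasurableSet (Tig mo r q) := by
  unfold Tig
  refine MeasurableSet.inter (s₁ := {z | _}) (s₂ := {z | _}) ?_ ?_
  · exact mo.mc (measurableSet_singleton q.1)
  simp only [Set.ofPred_forall]
  refine MeasurableSet.iInter fun b => ?_
  exact measurableSet_le (((measurable_coord mo q.1 b).sub measurable_const).abs) measurable_const

theorem floor_close {r : ℝ} (hr : 0 < r) (t : ℝ) : |t - r * (⌊t / r⌋ : ℤ)| ≤ r := by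
  have h1 := Int.floor_le (t / r)
  have h2 := Int.lt_floor_add_one (t / r)
  rw [le_div_iff₀ hr] at h1
  rw [div_lt_iff₀ hr] at h2
  rw [abs_le]
  constructor <;> nlinarith

theorem exists_cell (mo : Model d ν S) {r : ℝ} (hr : 0 < r) (i : Fin mo.N) {y : E d}
    (hy : y ∈ mo.W i) : ∃ κ : Fin d → ℤ, (i, κ) ∈ cells mo r ∧ ∀ b, |y b - r * κ b| ≤ r := by
  refine ⟨fun b => ⌊y b / r⌋, ?_, fun b => floor_close hr _⟩
  simp only [cells, mem_product, mem_univ, true_and, Fintype.mem_piFinset, mem_Icc]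
  intro b
  have hb : |y b| ≤ mo.C := by
    have := EuclideanSpace.norm_eq y
    have h2 : ‖y b‖ ≤ ‖y‖ := PiLp.norm_apply_le y b
    exact (Real.norm_eq_abs _ ▸ h2).trans (mo.W_bdd i y hy)
  rw [abs_le] at hb
  have h3 : y b / r ≤ mo.C / r := div_le_div_of_nonneg_right hb.2 hr.le
  have h4 : -(mo.C / r) ≤ y b / r := by
    rw [← neg_div]; exact div_le_div_of_nonneg_right hb.1 hr.le
  have h5 := Int.floor_le (y b / r)
  have h6 := Int.lt_floor_add_one (y b / r)
  have h7 := Int.le_ceil (mo.C / r)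
  unfold Kr
  constructor
  · have : ((-(⌈mo.C / r⌉ + 1) : ℤ) : ℝ) ≤ (⌊y b / r⌋ : ℝ) := by push_cast; linarith
    exact_mod_cast this
  · have : (⌊y b / r⌋ : ℝ) ≤ ((⌈mo.C / r⌉ + 1 : ℤ) : ℝ) := by push_cast; linarith
    exact_mod_cast this

theorem card_cells (mo : Model d ν S) {r : ℝ} (hr : 0 < r) :
    ((cells mo r).card : ℝ) ≤ mo.N * (2 * (mo.C / r) + 5) ^ d := by
  have hC : 0 ≤ mo.C / r := div_nonneg (by linarith [mo.one_le]) hr.le
  have hK : 0 ≤ Kr mo r := by
    unfold Kr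
    have : 0 ≤ ⌈mo.C / r⌉ := Int.ceil_nonneg hC
    omega
  have hK2 : (Kr mo r : ℝ) ≤ mo.C / r + 2 := by
    unfold Kr
    have := Int.ceil_lt_add_one (mo.C / r)
    push_cast; linarith
  unfold cells
  rw [card_product, Fintype.card_piFinset, card_univ, Fintype.card_fin, prod_const, card_univ,
    Fintype.card_fin, Int.card_Icc]
  push_cast
  have h1 : (((Kr mo r + 1 - -Kr mo r).toNat : ℕ) : ℝ) = 2 * (Kr mo r : ℝ) + 1 := by
    have : (((Kr mo r + 1 - -Kr mo r).toNat : ℕ) : ℤ) = 2 * Kr mo r + 1 := by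
      rw [Int.toNat_of_nonneg (by omega)]; ring
    exact_mod_cast this
  rw [h1]
  have hK' : (0 : ℝ) ≤ Kr mo r := by exact_mod_cast hK
  exact mul_le_mul_of_nonneg_left (pow_le_pow_left₀ (by linarith) (by linarith) d)
    (Nat.cast_nonneg _)

open Classical in
theorem mult_le (mo : Model d ν S) {r : ℝ} (hr : 0 < r) (z : M) (s : Finset (Cell mo)) :
    (s.filter (fun q => z ∈ Nbr mo r q)).card ≤ mo.N * 7 ^ d := by
  have hsub : s.filter (fun q => z ∈ Nbr mo r q) ⊆ univ.biUnion (fun i : Fin mo.N =>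
      ({i} : Finset (Fin mo.N)) ×ˢ Fintype.piFinset (fun b =>
        Finset.Icc (⌈mo.φ i z b / r - 3⌉) (⌈mo.φ i z b / r - 3⌉ + 6))) := by
    intro q hq
    rw [mem_filter] at hq
    obtain ⟨-, -, hq⟩ := hq
    rw [mem_biUnion]
    refine ⟨q.1, mem_univ _, ?_⟩
    rw [mem_product]
    refine ⟨mem_singleton_self _, ?_⟩
    rw [Fintype.mem_piFinset]
    intro b
    have h := hq b
    rw [abs_le] at h
    have h1 : mo.φ q.1 z b / r - 3 ≤ q.2 b := by
      rw [sub_le_iff_le_add, div_le_iff₀ hr]; linarith [h.2]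
    have h2 : (q.2 b : ℝ) ≤ mo.φ q.1 z b / r + 3 := by
      rw [← sub_le_iff_le_add, le_div_iff₀ hr]; linarith [h.1]
    rw [mem_Icc]
    refine ⟨Int.ceil_le.2 h1, ?_⟩
    have h3 := Int.le_ceil (mo.φ q.1 z b / r - 3)
    have : (q.2 b : ℝ) ≤ ((⌈mo.φ q.1 z b / r - 3⌉ + 6 : ℤ) : ℝ) := by push_cast; linarith
    exact_mod_cast this
  refine (card_le_card hsub).trans (card_biUnion_le.trans ?_)
  refine (sum_le_card_nsmul _ _ (7 ^ d) ?_).trans (by simp)
  intro i _
  rw [card_product, card_singleton, one_mul, Fintype.card_piFinset]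
  refine le_of_eq ?_
  rw [prod_congr rfl (g := fun _ => 7)]
  · simp
  · intro b _
    rw [Int.card_Icc]
    have : ⌈mo.φ i z b / r - 3⌉ + 6 + 1 - ⌈mo.φ i z b / r - 3⌉ = 7 := by ring
    rw [this]; rfl

open Classical in
/-- bounded multiplicity -/
theorem sum_measure_le {ι : Type*} (ν : Measure M) (s : Finset ι) (B : ι → Set M)
    (hB : ∀ i, MeasurableSet (B i)) (D : ℕ) (hD : ∀ z, (s.filter (fun i => z ∈ B i)).card ≤ D)
    (Y : Set M) : ∑ i ∈ s, ν (Y ∩ B i) ≤ D * ν Y := by
  have h1 : ∀ i ∈ s, ν (Y ∩ B i) ≤ ∫⁻ z, (B i).indicator 1 z ∂(ν.restrict (toMeasurable ν Y)) := by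
    intro i _
    rw [lintegral_indicator_one (hB i), Measure.restrict_apply (hB i)]
    apply measure_mono
    rw [Set.inter_comm]
    exact Set.inter_subset_inter_right _ (subset_toMeasurable _ _)
  refine (sum_le_sum h1).trans ?_
  rw [← lintegral_finsetSum _ (fun i _ => measurable_one.indicator (hB i))]
  calc ∫⁻ z, ∑ i ∈ s, (B i).indicator (1 : M → ℝ≥0∞) z ∂(ν.restrict (toMeasurable ν Y))
      ≤ ∫⁻ _, (D : ℝ≥0∞) ∂(ν.restrict (toMeasurable ν Y)) := by
        refine lintegral_mono fun z => ?_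
        have : ∑ i ∈ s, (B i).indicator (1 : M → ℝ≥0∞) z =
            ((s.filter (fun i => z ∈ B i)).card : ℝ≥0∞) := by
          rw [card_filter]; push_cast
          refine sum_congr rfl fun i _ => ?_
          by_cases h : z ∈ B i <;> simp [h]
        simp only [this]
        exact_mod_cast hD z
    _ = D * ν Y := by
        rw [lintegral_const, Measure.restrict_apply MeasurableSet.univ, Set.univ_inter,
          measure_toMeasurable]

theorem norm_le_of_coord (y : E d) {r : ℝ} (hr : 0 ≤ r) (h : ∀ b, |y b| ≤ r) :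
    ‖y‖ ≤ (d + 1) * r := by
  rw [EuclideanSpace.norm_eq]
  apply Real.sqrt_le_iff.2
  refine ⟨by positivity, ?_⟩
  calc ∑ b, ‖y b‖ ^ 2 ≤ ∑ _b : Fin d, r ^ 2 := by
        refine sum_le_sum fun b _ => ?_
        rw [Real.norm_eq_abs]
        exact pow_le_pow_left₀ (abs_nonneg _) (h b) 2
    _ = d * r ^ 2 := by simp
    _ ≤ ((d + 1) * r) ^ 2 := by
        rw [mul_pow]
        have : (d : ℝ) ≤ (d + 1) ^ 2 := by nlinarith [Nat.cast_nonneg (α := ℝ) d]
        exact mul_le_mul_of_nonneg_right this (sq_nonneg _)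

theorem nbr_le (mo : Model d ν S) {r : ℝ} (hr : 0 < r) (q : Cell mo) :
    ν (Nbr mo r q) ≤ ENNReal.ofReal (mo.C * (3 * (d + 1)) ^ d) * volume (closedBall (0 : E d) r) := by
  have h0 : Nbr mo r q = Nbr mo r q ∩ mo.U q.1 := by
    ext z; simp only [Set.mem_inter_iff]; exact ⟨fun h => ⟨h, h.1⟩, fun h => h.1⟩
  rw [h0]
  refine (mo.up q.1 _ (measurableSet_Nbr mo r q)).trans ?_
  have hsub : mo.W q.1 ∩ mo.ψ q.1 ⁻¹' Nbr mo r q ⊆
      closedBall (WithLp.toLp 2 (fun b => r * q.2 b) : E d) ((3 * (d + 1)) * r) := by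
    intro y hy
    obtain ⟨hy1, -, hy2⟩ := hy
    rw [mo.φψ _ _ hy1] at hy2
    rw [mem_closedBall, dist_eq_norm]
    refine (norm_le_of_coord _ (r := 3 * r) (by positivity) ?_).trans (le_of_eq (by ring))
    intro b
    simpa using hy2 b
  have hv := measure_mono (μ := (volume : Measure (E d))) hsub
  rw [Measure.addHaar_closedBall_center, Measure.addHaar_closedBall_mul _ _ (by positivity) hr.le]
    at hv
  rw [ENNReal.ofReal_mul (by linarith [mo.one_le]), mul_assoc]
  gcongr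
  simpa using hv

end Crest.Agent.R133.DomAux
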