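import Crest.Agent.R133.Dom_Cells

/-! # Row 133: orbits read in the charts along a reference orbit -/

set_option autoImplicit false
set_option maxHeartbeats 400000

namespace Crest.Agent.R133.DomAux

open MeasureTheory Metric Finset
open scoped ENNReal

variable {d : ℕ} {M : Type*} [MeasurableSpace M] {ν : Measure M} {S : M → M}

/-- chart index along the reference orbit -/
def iz (mo : Model d ν S) (z₀ : M) (t : ℕ) : Fin mo.N := mo.c (S^[t] z₀)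

/-- the reference orbit in charts -/
def xz (mo : Model d ν S) (z₀ : M) (t : ℕ) : E d := mo.φ (iz mo z₀ t) (S^[t] z₀)

/-- the map in charts -/
def Fz (mo : Model d ν S) (z₀ : M) (t : ℕ) (y : E d) : E d :=
  mo.φ (iz mo z₀ (t + 1)) (S (mo.ψ (iz mo z₀ t) y))

theorem measurable_Fz (mo : Model d ν S) (hS : Measurable S) (z₀ : M) (t : ℕ) :
    Measurable (Fz mo z₀ t) :=
  (mo.mφ _).comp (hS.comp (mo.mψ _))

theorem dynF (mo : Model d ν S) {ρ : ℝ} (hρ : 0 < ρ) (hC : mo.C * ρ ≤ 1) {z₀ : M} {t : ℕ}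
    (hg : S^[t] z₀ ∈ mo.good ρ) {y : E d} (hy : y ∈ ball (xz mo z₀ t) ρ) :
    mo.ψ (iz mo z₀ (t + 1)) (Fz mo z₀ t y) = S (mo.ψ (iz mo z₀ t) y) ∧
    ∀ y' ∈ ball (xz mo z₀ t) ρ,
      ‖Fz mo z₀ t y - Fz mo z₀ t y' - act (mo.A (S^[t] z₀)) (y - y')‖ ≤ mo.C * ρ * ‖y - y'‖ := by
  have h := mo.dyn ρ hρ hC _ hg y hy
  have e : mo.c (S (S^[t] z₀)) = iz mo z₀ (t + 1) := by
    unfold iz; rw [Function.iterate_succ_apply']
  rw [e] at h
  exact h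

theorem psi_phi (mo : Model d ν S) {i : Fin mo.N} {z : M} (hz : z ∈ mo.U i) :
    mo.ψ i (mo.φ i z) = z ∧ mo.φ i z ∈ mo.W i := by
  rw [mo.hU] at hz
  obtain ⟨y, hy, rfl⟩ := hz
  rw [mo.φψ i y hy]
  exact ⟨rfl, hy⟩

theorem psi_mem (mo : Model d ν S) {i : Fin mo.N} {y : E d} (hy : y ∈ mo.W i) :
    mo.ψ i y ∈ mo.U i := by
  rw [mo.hU]; exact ⟨y, hy, rfl⟩

theorem psi_xz (mo : Model d ν S) {ρ : ℝ} {z₀ : M} {t : ℕ} (hg : S^[t] z₀ ∈ mo.good ρ) :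
    mo.ψ (iz mo z₀ t) (xz mo z₀ t) = S^[t] z₀ :=
  (psi_phi mo (mo.hgood ρ _ hg).1).1

theorem ball_sub (mo : Model d ν S) {ρ : ℝ} {z₀ : M} {t : ℕ} (hg : S^[t] z₀ ∈ mo.good ρ) :
    ball (xz mo z₀ t) ρ ⊆ mo.W (iz mo z₀ t) :=
  (mo.hgood ρ _ hg).2

theorem F_xz (mo : Model d ν S) {ρ : ℝ} {z₀ : M} {t : ℕ} (hg : S^[t] z₀ ∈ mo.good ρ) :
    Fz mo z₀ t (xz mo z₀ t) = xz mo z₀ (t + 1) := by
  unfold Fz
  rw [psi_xz mo hg, xz, Function.iterate_succ_apply']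

theorem track (mo : Model d ν S) {ρ : ℝ} (hρ : 0 < ρ) (hC : mo.C * ρ ≤ 1) {z₀ : M} (t₀ J : ℕ)
    (u : E d) (hg : ∀ j < J, S^[t₀ + j] z₀ ∈ mo.good ρ)
    (hb : ∀ j < J, orb (Fz mo z₀) t₀ u j ∈ ball (xz mo z₀ (t₀ + j)) ρ) :
    ∀ j ≤ J, mo.ψ (iz mo z₀ (t₀ + j)) (orb (Fz mo z₀) t₀ u j) = S^[j] (mo.ψ (iz mo z₀ t₀) u) := by
  intro j hj
  induction j with
  | zero => rfl
  | succ j ih =>
    have h := (dynF mo hρ hC (hg j (by omega)) (hb j (by omega))).1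
    rw [Function.iterate_succ_apply', ← ih (by omega), ← h]
    rfl

theorem lip_step (mo : Model d ν S) {ρ : ℝ} (hρ : 0 < ρ) (hC : mo.C * ρ ≤ 1) {z₀ : M} {t : ℕ}
    (hg : S^[t] z₀ ∈ mo.good ρ) {y : E d} (hy : y ∈ ball (xz mo z₀ t) ρ) :
    ‖Fz mo z₀ t y - xz mo z₀ (t + 1)‖ ≤ (mo.C + 1) * ‖y - xz mo z₀ t‖ := by
  have h := (dynF mo hρ hC hg hy).2 _ (mem_ball_self hρ)
  rw [F_xz mo hg] at h
  have h2 := mo.A_bd (S^[t] z₀) (y - xz mo z₀ t)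
  have h3 := norm_add_le (Fz mo z₀ t y - xz mo z₀ (t + 1) - act (mo.A (S^[t] z₀)) (y - xz mo z₀ t))
    (act (mo.A (S^[t] z₀)) (y - xz mo z₀ t))
  rw [sub_add_cancel] at h3
  have h4 : mo.C * ρ * ‖y - xz mo z₀ t‖ ≤ 1 * ‖y - xz mo z₀ t‖ :=
    mul_le_mul_of_nonneg_right hC (norm_nonneg _)
  linarith

theorem stay (mo : Model d ν S) {ρ η : ℝ} (hρ : 0 < ρ) (hC : mo.C * ρ ≤ 1) {z₀ : M} {m n : ℕ}
    (hm : 0 < m) (hg : ∀ t < n, S^[t] z₀ ∈ mo.good ρ) {y : E d} (hy : y ∈ mo.W (iz mo z₀ 0))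
    (hη0 : 0 ≤ η)
    (hclose : ∀ t < n, t % m = 0 →
      ‖mo.φ (iz mo z₀ t) (S^[t] (mo.ψ (iz mo z₀ 0) y)) - xz mo z₀ t‖ ≤ η)
    (hη : η * (mo.C + 1) ^ m ≤ ρ / 4) :
    ∀ t < n, ‖orb (Fz mo z₀) 0 y t - xz mo z₀ t‖ ≤ ρ / 4 ∧
      orb (Fz mo z₀) 0 y t = mo.φ (iz mo z₀ t) (S^[t] (mo.ψ (iz mo z₀ 0) y)) := by
  have hC1 : 1 ≤ mo.C + 1 := by linarith [mo.one_le]
  have hpow : ∀ t, η * (mo.C + 1) ^ (t % m) ≤ ρ / 4 := fun t =>
    (mul_le_mul_of_nonneg_left (pow_le_pow_right₀ hC1 (Nat.mod_lt t hm).le) hη0).trans hη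
  have key : ∀ t < n, mo.ψ (iz mo z₀ t) (orb (Fz mo z₀) 0 y t) = S^[t] (mo.ψ (iz mo z₀ 0) y) ∧
      orb (Fz mo z₀) 0 y t = mo.φ (iz mo z₀ t) (S^[t] (mo.ψ (iz mo z₀ 0) y)) ∧
      ‖orb (Fz mo z₀) 0 y t - xz mo z₀ t‖ ≤ η * (mo.C + 1) ^ (t % m) := by
    intro t ht
    induction t with
    | zero =>
      have e : orb (Fz mo z₀) 0 y 0 = mo.φ (iz mo z₀ 0) (S^[0] (mo.ψ (iz mo z₀ 0) y)) := by
        show y = mo.φ _ (mo.ψ _ y)
        rw [mo.φψ _ _ hy]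
      refine ⟨rfl, e, ?_⟩
      rw [e, Nat.zero_mod, pow_zero, mul_one]
      exact hclose 0 ht (Nat.zero_mod _)
    | succ t ih =>
      obtain ⟨h1, h2, h3⟩ := ih (by omega)
      have hb : orb (Fz mo z₀) 0 y t ∈ ball (xz mo z₀ t) ρ := by
        rw [mem_ball, dist_eq_norm]
        linarith [hpow t]
      have e0 : orb (Fz mo z₀) 0 y (t + 1) = Fz mo z₀ t (orb (Fz mo z₀) 0 y t) := by
        show Fz mo z₀ (0 + t) _ = _
        rw [zero_add]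
      have e : orb (Fz mo z₀) 0 y (t + 1) =
          mo.φ (iz mo z₀ (t + 1)) (S^[t + 1] (mo.ψ (iz mo z₀ 0) y)) := by
        rw [e0, Fz, h1, Function.iterate_succ_apply']
      refine ⟨?_, e, ?_⟩
      · rw [e0, (dynF mo hρ hC (hg t (by omega)) hb).1, h1, Function.iterate_succ_apply']
      · by_cases h0 : (t + 1) % m = 0
        · rw [e, h0, pow_zero, mul_one]
          exact hclose _ ht h0
        · have e1 : (t + 1) % m = t % m + 1 := by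
            have h4 := Nat.mod_lt t hm
            rw [Nat.add_mod] at h0 ⊢
            rcases Nat.lt_or_ge 1 m with h5 | h5
            · rw [Nat.mod_eq_of_lt h5] at h0 ⊢
              rcases Nat.lt_or_ge (t % m + 1) m with h6 | h6
              · exact Nat.mod_eq_of_lt h6
              · have : t % m + 1 = m := by omega
                rw [this, Nat.mod_self] at h0
                exact absurd rfl h0
            · have : m = 1 := by omega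
              subst this
              simp [Nat.mod_one] at h0
          rw [e0, e1, pow_succ]
          refine (lip_step mo hρ hC (hg t (by omega)) hb).trans ?_
          calc (mo.C + 1) * ‖orb (Fz mo z₀) 0 y t - xz mo z₀ t‖
              ≤ (mo.C + 1) * (η * (mo.C + 1) ^ (t % m)) :=
                mul_le_mul_of_nonneg_left h3 (by linarith)
            _ = _ := by ring
  intro t ht
  obtain ⟨-, h2, h3⟩ := key t ht
  exact ⟨h3.trans (hpow t), h2⟩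

theorem pot_split (mo : Model d ν S) (z : M) {m J s : ℕ} (hm : 0 < m) (hs : s < J * m) :
    mo.pot z s + mo.pot (S^[s] z) (J * m - s) ≤
      ∑ j ∈ range J, mo.pot (S^[j * m] z) m + m * (d * Real.log (1 + mo.C ^ 2)) := by
  obtain ⟨j₀, r, hr, rfl⟩ : ∃ j₀ r, r < m ∧ s = j₀ * m + r :=
    ⟨s / m, s % m, Nat.mod_lt _ hm, (Nat.div_add_mod' s m).symm⟩
  have hj : j₀ < J := by
    by_contra h
    have : J * m ≤ j₀ * m := Nat.mul_le_mul_right _ (by omega)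
    omega
  obtain ⟨J', rfl⟩ : ∃ J', J = j₀ + 1 + J' := ⟨J - j₀ - 1, by omega⟩
  have e : (j₀ + 1 + J') * m - (j₀ * m + r) = (m - r) + J' * m := by
    rw [add_mul, add_mul, one_mul]; omega
  rw [e, sum_range_add, sum_range_succ]
  have h1 := mo.pot_add_le z (j₀ * m) r
  have h2 := mo.pot_mul_le z j₀ m
  have h3 := mo.pot_le (S^[j₀ * m] z) r
  have h4 := mo.pot_add_le (S^[j₀ * m + r] z) (m - r) (J' * m)
  have h5 := mo.pot_le (S^[j₀ * m + r] z) (m - r)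
  have h6 := mo.pot_mul_le (S^[m - r] (S^[j₀ * m + r] z)) J' m
  have h7 := mo.pot_nonneg (S^[j₀ * m] z) m
  have e2 : ∑ j ∈ range J', mo.pot (S^[j * m] (S^[m - r] (S^[j₀ * m + r] z))) m =
      ∑ j ∈ range J', mo.pot (S^[(j₀ + 1 + j) * m] z) m := by
    refine sum_congr rfl fun j _ => ?_
    rw [← Function.iterate_add_apply, ← Function.iterate_add_apply]
    congr 2
    rw [add_mul, add_mul, one_mul]; omega
  rw [e2] at h6
  rw [Nat.cast_sub hr.le] at h5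
  linarith

theorem same_bit (mo : Model d ν S) {g : M → ℝ} {Lg t₀ ρ : ℝ}
    (hgL : ∀ x ∈ mo.good ρ, ∀ y ∈ ball (mo.φ (mo.c x) x) ρ, |g (mo.ψ (mo.c x) y) - g x| ≤ Lg * ρ)
    {z₀ : M} {t : ℕ} (hg : S^[t] z₀ ∈ mo.good ρ) (hfar : Lg * ρ < |g (S^[t] z₀) - t₀|)
    {y : E d} (hy : y ∈ ball (xz mo z₀ t) ρ) :
    decide (t₀ < g (mo.ψ (iz mo z₀ t) y)) = decide (t₀ < g (S^[t] z₀)) := by
  have h := hgL _ hg y hy
  change |g (mo.ψ (iz mo z₀ t) y) - g (S^[t] z₀)| ≤ Lg * ρ at h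
  rw [abs_le] at h
  rw [decide_eq_decide]
  rcases lt_abs.1 hfar with h1 | h1
  · constructor <;> intro _ <;> linarith [h.1, h.2]
  · constructor <;> intro _ <;> linarith [h.1, h.2]

end Crest.Agent.R133.DomAux
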