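import Crest.Agent.R133.Defs

/-!
# Row 133: the finite information inequality of a hash step

PLAN.  Let `κ₁ (u | a) = pr (U,W₁) (u,a) / pr W₁ a`, `κ₂ (z | b) = pr (Z,W₂) (z,b) / pr W₂ b`,
`P (u,z,a,b) = pr (U,Z,W₁,W₂)`, `R (u,z,a,b) = pr (W₁,W₂) (a,b) κ₁ (u|a) κ₂ (z|b)` (total mass
`≤ 1`).  The right-hand side is `∑ P log (P/R)` and by the log-sum inequality on an event `G` and
its complement it is `≥ P(G) log (1/R(G)) - log 2`.  (Equivalently: `gibbs` for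
`Hc (U,Z) (W₁,W₂)` is replaced by `∑ w (R/P) φ ≤ ...`, i.e. use `log y ≤ y - 1` with
`y = (R/P) * (1_G/(2ϱ) + 1_{Gᶜ}/2)`, whose `P`-average is `≤ R(G)/(2ϱ) + 1/2 ≤ 1`.)
`G = {u ∈ Hs z, (a,b) ∈ 𝒲₀, a ∈ 𝒲₁, b ∈ 𝒲₂}` with
`𝒲₀ = {pr (W₁,W₂) (a,b) ≤ 2 Λ ∑_q α q a β q b}` (`P(𝒲₀ᶜ) ≤ 2θ`),
`𝒲₁ = {νh a ≤ Λ₁ pr W₁ a}`, `𝒲₂ = {νh b ≤ Λ₁ pr W₂ b}` (`P(𝒲ᵢᶜ) ≤ 1/Λ₁`).
`R(G) ≤ 2Λ ∑_q ∑_{u ∈ Hs z} α̃_q u β̃_q z` where `α̃_q u = ∑_{a ∈ 𝒲₁} α q a κ₁ (u|a) ≤ Λ₁ Q^{-(k+1)}`,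
`∑_u α̃_q u ≤ ∑_a α q a`, and likewise `β̃`.  Extractor bound (Cauchy–Schwarz, pairwise
independence): with `X u = ∑_z β̃ z (1[u ∈ Hs z] - 1/Q)`,
`∑_u X u ^2 = ∑_{z,z'} β̃ z β̃ z' (|Hs z ∩ Hs z'| - Q^{k+1}/Q²) ≤ Q^k ∑ β̃² ≤ Λ₁²/Q`,
`∑ α̃² ≤ Λ₁² Q^{-(k+1)}`, so `∑_{u ∈ Hs z} α̃ β̃ ≤ |α̃| |β̃| / Q + Λ₁² / √(Q^(k+2))`.
-/

set_option autoImplicit false

namespace Crest.Agent.R133

open Finset Lib.FinEnt

namespace InfoAux

theorem extractor {V : Type*} [Fintype V] [DecidableEq V] (Q N : ℝ) (hQ : 0 < Q) (hN0 : 0 < N)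
    (hN : (Fintype.card V : ℝ) = N) (Hs : V → Finset V) (h1 : ∀ z, ((Hs z).card : ℝ) * Q = N)
    (h2 : ∀ z z', z ≠ z' → ((Hs z ∩ Hs z').card : ℝ) * Q ^ 2 ≤ N) (A B : V → ℝ)
    (hA0 : ∀ u, 0 ≤ A u) (hB0 : ∀ u, 0 ≤ B u) (L : ℝ) (hA : ∀ u, A u ≤ L / N)
    (hB : ∀ u, B u ≤ L / N) :
    ∑ u, ∑ z, (if u ∈ Hs z then A u * B z else 0) ≤
      (∑ u, A u) * (∑ z, B z) / Q + L ^ 2 / Real.sqrt (N * Q) := by
  obtain ⟨I, hI⟩ : ∃ I : V → V → ℝ, ∀ u z, I u z = (if u ∈ Hs z then 1 else 0) - 1 / Q :=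
    ⟨_, fun _ _ => rfl⟩
  obtain ⟨X, hX⟩ : ∃ X : V → ℝ, ∀ u, X u = ∑ z, B z * I u z := ⟨_, fun _ => rfl⟩
  have e1 : ∑ u, ∑ z, (if u ∈ Hs z then A u * B z else 0) =
      (∑ u, A u) * (∑ z, B z) / Q + ∑ u, A u * X u := by
    rw [sum_mul_sum, sum_div, ← sum_add_distrib]
    refine sum_congr rfl fun u _ => ?_
    rw [hX, mul_sum, sum_div, ← sum_add_distrib]
    refine sum_congr rfl fun z _ => ?_
    rw [hI]
    split_ifs <;> ring
  have sq : ∀ C : V → ℝ, (∀ u, 0 ≤ C u) → (∀ u, C u ≤ L / N) → ∑ u, C u ^ 2 ≤ L ^ 2 / N := by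
    intro C h0 h
    calc ∑ u, C u ^ 2 ≤ ∑ _u : V, (L / N) ^ 2 :=
          sum_le_sum fun u _ => pow_le_pow_left₀ (h0 u) (h u) 2
      _ = L ^ 2 / N := by
          rw [sum_const, card_univ, nsmul_eq_mul, hN]; field_simp
  have cnt : ∀ z, ∑ u, (if u ∈ Hs z then (1 : ℝ) else 0) = N / Q := by
    intro z
    rw [sum_ite_mem, univ_inter, sum_const, nsmul_eq_mul, mul_one, ← h1 z]; field_simp
  have e2 : ∀ z z', ∑ u, I u z * I u z' = (Hs z ∩ Hs z').card - N / Q ^ 2 := by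
    intro z z'
    have : ∀ u, I u z * I u z' = (if u ∈ Hs z ∩ Hs z' then (1 : ℝ) else 0) -
        (1 / Q) * (if u ∈ Hs z then 1 else 0) - (1 / Q) * (if u ∈ Hs z' then 1 else 0) +
        1 / Q ^ 2 := by
      intro u
      rw [hI, hI]
      by_cases a : u ∈ Hs z <;> by_cases b : u ∈ Hs z' <;> simp [a, b] <;> ring
    simp only [this, sum_add_distrib, sum_sub_distrib, ← mul_sum, cnt]
    rw [sum_ite_mem, univ_inter, sum_const, nsmul_eq_mul, mul_one, sum_const, card_univ,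
      nsmul_eq_mul, hN]
    field_simp; ring
  have e3 : ∑ u, X u ^ 2 ≤ L ^ 2 / Q := by
    have : ∑ u, X u ^ 2 = ∑ z, ∑ z', B z * B z' * ∑ u, I u z * I u z' := by
      simp only [hX, pow_two, sum_mul_sum]
      simp only [mul_sum]
      rw [sum_comm]
      refine sum_congr rfl fun z _ => ?_
      rw [sum_comm]
      refine sum_congr rfl fun z' _ => sum_congr rfl fun u _ => by ring
    rw [this]
    calc _ ≤ ∑ z, ∑ z', (if z' = z then B z ^ 2 * (N / Q) else 0) := by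
          refine sum_le_sum fun z _ => sum_le_sum fun z' _ => ?_
          rw [e2]
          split_ifs with h
          · subst h
            rw [inter_self, pow_two (B z')]
            refine mul_le_mul_of_nonneg_left ?_ (mul_nonneg (hB0 _) (hB0 _))
            have : ((Hs z').card : ℝ) = N / Q := by rw [← h1 z']; field_simp
            rw [this]
            have : 0 ≤ N / Q ^ 2 := by positivity
            linarith
          · refine mul_nonpos_of_nonneg_of_nonpos (mul_nonneg (hB0 _) (hB0 _)) ?_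
            rw [sub_nonpos, le_div_iff₀ (by positivity)]
            exact h2 z z' (Ne.symm h)
      _ = (∑ z, B z ^ 2) * (N / Q) := by
          simp only [sum_ite_eq', mem_univ, if_true, sum_mul]
      _ ≤ L ^ 2 / N * (N / Q) := mul_le_mul_of_nonneg_right (sq B hB0 hB) (by positivity)
      _ = L ^ 2 / Q := by field_simp
  have e4 : (∑ u, A u * X u) ^ 2 ≤ (L ^ 2 / Real.sqrt (N * Q)) ^ 2 := by
    refine (sum_mul_sq_le_sq_mul_sq univ A X).trans ?_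
    rw [div_pow, Real.sq_sqrt (by positivity)]
    calc _ ≤ L ^ 2 / N * (L ^ 2 / Q) :=
          mul_le_mul (sq A hA0 hA) e3 (sum_nonneg fun _ _ => sq_nonneg _) (by positivity)
      _ = _ := by field_simp
  rw [e1]
  have := abs_le_of_sq_le_sq' e4 (by positivity)
  linarith [this.2]

variable {Ω V W : Type*} [Fintype Ω] {w : Ω → ℝ}

/-- conditional law -/
noncomputable def kap (w : Ω → ℝ) (U : Ω → V) (Y : Ω → W) (a : W) (u : V) : ℝ :=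
  pr w (fun ω => (U ω, Y ω)) (u, a) / pr w Y a

theorem kap_nonneg (hw : IsP w) (U : Ω → V) (Y : Ω → W) (a : W) (u : V) : 0 ≤ kap w U Y a u :=
  div_nonneg (pr_nonneg hw _ _) (pr_nonneg hw _ _)

theorem kap_pos (hw : IsP w) (U : Ω → V) (Y : Ω → W) {ω : Ω} (h : 0 < w ω) :
    0 < kap w U Y (Y ω) (U ω) :=
  div_pos (h.trans_le (le_pr hw (fun ω => (U ω, Y ω)) ω)) (h.trans_le (le_pr hw Y ω))

theorem sum_kap_le [Fintype V] (hw : IsP w) (U : Ω → V) (Y : Ω → W) (a : W) :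
    ∑ u, kap w U Y a u ≤ 1 := by
  classical
  unfold kap
  rw [← sum_div]
  refine div_le_one_of_le₀ (le_of_eq ?_) (pr_nonneg hw _ _)
  unfold pr
  rw [sum_comm]
  refine sum_congr rfl fun ω _ => ?_
  by_cases e : Y ω = a
  · simp [e]
  · simp [e]

theorem sum_pr_pair [Fintype W] (U : Ω → V) (Y : Ω → W) (u : V) :
    ∑ a, pr w (fun ω => (U ω, Y ω)) (u, a) = pr w U u := by
  classical
  unfold pr
  rw [sum_comm]
  refine sum_congr rfl fun ω _ => ?_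
  by_cases e : U ω = u
  · simp [e]
  · simp [e]

theorem Hc_eq_kap (hw : IsP w) (U : Ω → V) (Y : Ω → W) :
    Hc w U Y = ∑ ω, w ω * (-Real.log (kap w U Y (Y ω) (U ω))) := by
  unfold Hc H kap
  rw [← sum_sub_distrib]
  refine sum_congr rfl fun ω _ => ?_
  rcases (hw.nn ω).eq_or_lt with h0 | h0
  · rw [← h0]; simp
  · rw [Real.log_div (h0.trans_le (le_pr hw (fun ω => (U ω, Y ω)) ω)).ne'
      (h0.trans_le (le_pr hw Y ω)).ne']
    ring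

open Classical in
/-- truncated average of the conditional law -/
noncomputable def tl [Fintype W] (w : Ω → ℝ) (U : Ω → V) (Y : Ω → W) (νh α : W → ℝ) (L : ℝ)
    (u : V) : ℝ :=
  ∑ a, if νh a ≤ L * pr w Y a then α a * kap w U Y a u else 0

theorem tl_nonneg [Fintype W] (hw : IsP w) (U : Ω → V) (Y : Ω → W) (νh : W → ℝ) {α : W → ℝ}
    (h0 : ∀ a, 0 ≤ α a) (L : ℝ) (u : V) : 0 ≤ tl w U Y νh α L u :=
  sum_nonneg fun a _ => by
    split_ifs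
    · exact mul_nonneg (h0 a) (kap_nonneg hw _ _ _ _)
    · exact le_rfl

theorem tl_le [Fintype W] (hw : IsP w) (U : Ω → V) (Y : Ω → W) {νh α : W → ℝ}
    (h1 : ∀ a, α a ≤ νh a) {L : ℝ} (hL : 0 ≤ L) (u : V) :
    tl w U Y νh α L u ≤ L * pr w U u := by
  rw [← sum_pr_pair U Y u, mul_sum]
  refine sum_le_sum fun a _ => ?_
  have hp := pr_nonneg hw (fun ω => (U ω, Y ω)) (u, a)
  split_ifs with h
  · refine (mul_le_mul_of_nonneg_right ((h1 a).trans h) (kap_nonneg hw _ _ _ _)).trans ?_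
    unfold kap
    rcases (pr_nonneg hw Y a).eq_or_lt with e | e
    · rw [← e, div_zero, mul_zero]; positivity
    · rw [mul_assoc, mul_div_cancel₀ _ e.ne']
  · positivity

theorem sum_tl_le [Fintype W] [Fintype V] (hw : IsP w) (U : Ω → V) (Y : Ω → W) (νh : W → ℝ)
    {α : W → ℝ} (h0 : ∀ a, 0 ≤ α a) (L : ℝ) : ∑ u, tl w U Y νh α L u ≤ ∑ a, α a := by
  unfold tl
  rw [sum_comm]
  refine sum_le_sum fun a _ => ?_
  split_ifs with h
  · rw [← mul_sum]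
    exact mul_le_of_le_one_right (h0 a) (sum_kap_le hw U Y a)
  · simpa using h0 a

open Classical in
theorem miss_le [Fintype W] (Y : Ω → W) {νh : W → ℝ} (h0 : ∀ a, 0 ≤ νh a)
    (h1 : ∑ a, νh a ≤ 1) {L : ℝ} (hL : 0 < L) :
    ∑ ω, w ω * (if νh (Y ω) ≤ L * pr w Y (Y ω) then 0 else 1) ≤ 1 / L := by
  rw [sum_fiber w Y univ (fun _ => mem_univ _)
    (fun a => if νh a ≤ L * pr w Y a then (0 : ℝ) else 1)]
  calc _ ≤ ∑ a, νh a / L := by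
        refine sum_le_sum fun a _ => ?_
        split_ifs with h
        · rw [mul_zero]; exact div_nonneg (h0 a) hL.le
        · rw [mul_one, le_div_iff₀ hL, mul_comm]; exact (not_le.1 h).le
    _ ≤ 1 / L := by rw [← sum_div]; exact div_le_div_of_nonneg_right h1 hL.le

end InfoAux

open InfoAux

theorem info_step {Ω W 𝒞 : Type*} [Fintype Ω] [Fintype W] [Fintype 𝒞] {Q k : ℕ} (hQ : 2 ≤ Q)
    (w : Ω → ℝ) (hw : IsP w) (U Z : Ω → (Fin (k + 1) → Fin Q)) (W₁ W₂ : Ω → W)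
    (Hs : (Fin (k + 1) → Fin Q) → Finset (Fin (k + 1) → Fin Q))
    (hval : ∀ ω, U ω ∈ Hs (Z ω))
    (hH1 : ∀ z, (Hs z).card * Q = Q ^ (k + 1))
    (hH2 : ∀ z z', z ≠ z' → (Hs z ∩ Hs z').card * Q ^ 2 ≤ Q ^ (k + 1))
    (hU : ∀ u, pr w U u ≤ 1 / (Q : ℝ) ^ (k + 1)) (hZ : ∀ z, pr w Z z ≤ 1 / (Q : ℝ) ^ (k + 1))
    (α β : 𝒞 → W → ℝ) (νh : W → ℝ) (hν : ∑ a, νh a ≤ 1)
    (hα0 : ∀ q a, 0 ≤ α q a) (hβ0 : ∀ q a, 0 ≤ β q a)
    (hα : ∀ q a, α q a ≤ νh a) (hβ : ∀ q a, β q a ≤ νh a) (hν0 : ∀ a, 0 ≤ νh a)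
    (Λ Λ' Λ'' Λ₁ θ ϱ : ℝ) (hΛ : 0 ≤ Λ) (hΛ₁ : 0 < Λ₁) (bad : W → W → ℝ)
    (hbad0 : ∀ a b, 0 ≤ bad a b) (hbad : ∑ a, ∑ b, bad a b ≤ θ)
    (hdom : ∀ a b, pr w (fun ω => (W₁ ω, W₂ ω)) (a, b) ≤ Λ * ∑ q, α q a * β q b + bad a b)
    (hΛ' : Λ * ∑ q, (∑ a, α q a) * (∑ b, β q b) ≤ Λ') (hΛ'' : Λ * Fintype.card 𝒞 ≤ Λ'')
    (hϱ0 : 0 < ϱ) (hϱ1 : ϱ ≤ 1)
    (hϱ : 2 * (Λ' / Q + Λ'' * Λ₁ ^ 2 / Real.sqrt ((Q : ℝ) ^ (k + 2))) ≤ ϱ) :
    (1 - 2 * θ - 2 / Λ₁) * (-Real.log ϱ) - Real.log 2 ≤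
      Hc w U W₁ + Hc w Z W₂ - Hc w (fun ω => (U ω, Z ω)) (fun ω => (W₁ ω, W₂ ω)) := by
  classical
  have hQ0 : (0 : ℝ) < Q := by exact_mod_cast (by omega : 0 < Q)
  obtain ⟨N, hN⟩ : ∃ N : ℝ, N = (Q : ℝ) ^ (k + 1) := ⟨_, rfl⟩
  have hN0 : 0 < N := by rw [hN]; positivity
  obtain ⟨p, hp⟩ : ∃ p : W → W → ℝ, ∀ a b, p a b = pr w (fun ω => (W₁ ω, W₂ ω)) (a, b) :=
    ⟨_, fun _ _ => rfl⟩
  have hp0 : ∀ a b, 0 ≤ p a b := fun a b => hp a b ▸ pr_nonneg hw _ _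
  obtain ⟨T, hT⟩ : ∃ T : W → W → ℝ, ∀ a b, T a b = Λ * ∑ q, α q a * β q b := ⟨_, fun _ _ => rfl⟩
  have hT0 : ∀ a b, 0 ≤ T a b := fun a b => by
    rw [hT]; exact mul_nonneg hΛ (sum_nonneg fun q _ => mul_nonneg (hα0 _ _) (hβ0 _ _))
  -- the event
  obtain ⟨G, hG⟩ : ∃ G : ((Fin (k + 1) → Fin Q) × (Fin (k + 1) → Fin Q)) × (W × W) → Prop,
      ∀ x, G x ↔ x.1.1 ∈ Hs x.1.2 ∧ p x.2.1 x.2.2 ≤ 2 * T x.2.1 x.2.2 ∧
        νh x.2.1 ≤ Λ₁ * pr w W₁ x.2.1 ∧ νh x.2.2 ≤ Λ₁ * pr w W₂ x.2.2 := ⟨_, fun _ => Iff.rfl⟩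
  obtain ⟨R, hR⟩ : ∃ R : ((Fin (k + 1) → Fin Q) × (Fin (k + 1) → Fin Q)) × (W × W) → ℝ,
      ∀ x, R x = p x.2.1 x.2.2 * (kap w U W₁ x.2.1 x.1.1 * kap w Z W₂ x.2.2 x.1.2) :=
    ⟨_, fun _ => rfl⟩
  have hR0 : ∀ x, 0 ≤ R x := fun x => by
    rw [hR]; exact mul_nonneg (hp0 _ _) (mul_nonneg (kap_nonneg hw _ _ _ _) (kap_nonneg hw _ _ _ _))
  have hR1 : ∑ x, R x ≤ 1 := by
    rw [Fintype.sum_prod_type_right]
    calc _ ≤ ∑ y : W × W, pr w (fun ω => (W₁ ω, W₂ ω)) y := by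
          refine sum_le_sum fun y _ => ?_
          simp only [hR]
          rw [← mul_sum, Fintype.sum_prod_type]
          simp only
          rw [← sum_mul_sum, hp]
          exact mul_le_of_le_one_right (pr_nonneg hw _ _)
            (mul_le_one₀ (sum_kap_le hw _ _ _) (sum_nonneg fun _ _ => kap_nonneg hw _ _ _ _)
              (sum_kap_le hw _ _ _))
      _ ≤ 1 := sum_pr_le hw _ _
  have hRG : ∑ x, (if G x then R x else 0) ≤ ϱ := by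
    have s1 : ∀ u z, ∑ y : W × W, (if G ((u, z), y) then R ((u, z), y) else 0) ≤
        2 * Λ * ∑ q, (if u ∈ Hs z then tl w U W₁ νh (α q) Λ₁ u * tl w Z W₂ νh (β q) Λ₁ z
          else 0) := by
      intro u z
      by_cases hu : u ∈ Hs z
      swap
      · simp [hG, hu]
      simp only [hu, if_true, tl, sum_mul_sum]
      rw [Fintype.sum_prod_type, sum_comm (s := univ (α := 𝒞)), mul_sum]
      refine sum_le_sum fun a _ => ?_
      rw [sum_comm (s := univ (α := 𝒞)), mul_sum]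
      refine sum_le_sum fun b _ => ?_
      have k0 := mul_nonneg (kap_nonneg hw U W₁ a u) (kap_nonneg hw Z W₂ b z)
      by_cases h1 : νh a ≤ Λ₁ * pr w W₁ a
      swap
      · simp [hG, h1]
      by_cases h2 : νh b ≤ Λ₁ * pr w W₂ b
      swap
      · simp [hG, h2]
      simp only [h1, h2, if_true]
      have e : 2 * Λ * ∑ q, α q a * kap w U W₁ a u * (β q b * kap w Z W₂ b z) =
          2 * T a b * (kap w U W₁ a u * kap w Z W₂ b z) := by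
        rw [hT, mul_assoc 2, mul_assoc 2, mul_assoc Λ, sum_mul]
        congr 2
        exact sum_congr rfl fun q _ => by ring
      rw [e]
      split_ifs with h3
      · rw [hR]
        exact mul_le_mul_of_nonneg_right ((hG _).1 h3).2.1 k0
      · exact mul_nonneg (mul_nonneg zero_le_two (hT0 _ _)) k0
    have s2 : ∀ q, ∑ u, ∑ z, (if u ∈ Hs z then
        tl w U W₁ νh (α q) Λ₁ u * tl w Z W₂ νh (β q) Λ₁ z else 0) ≤
        (∑ a, α q a) * (∑ b, β q b) / Q + Λ₁ ^ 2 / Real.sqrt ((Q : ℝ) ^ (k + 2)) := by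
      intro q
      have := extractor (Q : ℝ) N hQ0 hN0 (by rw [hN]; simp) Hs
        (fun z => by rw [hN]; exact_mod_cast hH1 z)
        (fun z z' h => by rw [hN]; exact_mod_cast hH2 z z' h)
        (tl w U W₁ νh (α q) Λ₁) (tl w Z W₂ νh (β q) Λ₁) (tl_nonneg hw _ _ _ (hα0 q) _)
        (tl_nonneg hw _ _ _ (hβ0 q) _) Λ₁
        (fun u => (tl_le hw _ _ (hα q) hΛ₁.le u).trans (by
          rw [hN, div_eq_mul_one_div]; exact mul_le_mul_of_nonneg_left (hU u) hΛ₁.le))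
        (fun u => (tl_le hw _ _ (hβ q) hΛ₁.le u).trans (by
          rw [hN, div_eq_mul_one_div]; exact mul_le_mul_of_nonneg_left (hZ u) hΛ₁.le))
      refine this.trans ?_
      rw [hN, ← pow_succ]
      refine add_le_add (div_le_div_of_nonneg_right ?_ hQ0.le) le_rfl
      exact mul_le_mul (sum_tl_le hw _ _ _ (hα0 q) _) (sum_tl_le hw _ _ _ (hβ0 q) _)
        (sum_nonneg fun _ _ => tl_nonneg hw _ _ _ (hβ0 q) _ _) (sum_nonneg fun a _ => hα0 q a)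
    rw [Fintype.sum_prod_type, Fintype.sum_prod_type]
    calc _ ≤ ∑ u, ∑ z, 2 * Λ * ∑ q, (if u ∈ Hs z then
            tl w U W₁ νh (α q) Λ₁ u * tl w Z W₂ νh (β q) Λ₁ z else 0) :=
          sum_le_sum fun u _ => sum_le_sum fun z _ => s1 u z
      _ = 2 * Λ * ∑ q, ∑ u, ∑ z, (if u ∈ Hs z then
            tl w U W₁ νh (α q) Λ₁ u * tl w Z W₂ νh (β q) Λ₁ z else 0) := by
          simp only [← mul_sum]
          congr 1
          rw [sum_comm (s := univ (α := 𝒞))]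
          exact sum_congr rfl fun u _ => sum_comm
      _ ≤ 2 * Λ * ∑ q, ((∑ a, α q a) * (∑ b, β q b) / Q +
            Λ₁ ^ 2 / Real.sqrt ((Q : ℝ) ^ (k + 2))) :=
          mul_le_mul_of_nonneg_left (sum_le_sum fun q _ => s2 q) (by positivity)
      _ = 2 * ((Λ * ∑ q, (∑ a, α q a) * (∑ b, β q b)) / Q +
            (Λ * Fintype.card 𝒞) * (Λ₁ ^ 2 / Real.sqrt ((Q : ℝ) ^ (k + 2)))) := by
          rw [sum_add_distrib, ← sum_div, sum_const, card_univ, nsmul_eq_mul]; ring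
      _ ≤ 2 * (Λ' / Q + Λ'' * (Λ₁ ^ 2 / Real.sqrt ((Q : ℝ) ^ (k + 2)))) := by
          refine mul_le_mul_of_nonneg_left (add_le_add (div_le_div_of_nonneg_right hΛ' hQ0.le)
            (mul_le_mul_of_nonneg_right hΛ'' (by positivity))) zero_le_two
      _ ≤ ϱ := by rw [← mul_div_assoc]; exact hϱ
  obtain ⟨φ, hφ⟩ : ∃ φ : ((Fin (k + 1) → Fin Q) × (Fin (k + 1) → Fin Q)) × (W × W) → ℝ,
      ∀ x, φ x = if G x then 1 / (2 * ϱ) else 1 / 2 := ⟨_, fun _ => rfl⟩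
  have hφ0 : ∀ x, 0 < φ x := fun x => by rw [hφ]; split_ifs <;> positivity
  have hsum : ∑ x, R x * φ x ≤ 1 := by
    calc _ ≤ ∑ x, ((if G x then R x else 0) / (2 * ϱ) + R x / 2) := by
          refine sum_le_sum fun x _ => ?_
          have := hR0 x
          rw [hφ]
          split_ifs
          · rw [mul_one_div]; linarith
          · rw [zero_div, zero_add, mul_one_div]
      _ = (∑ x, (if G x then R x else 0)) / (2 * ϱ) + (∑ x, R x) / 2 := by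
          rw [sum_add_distrib, sum_div, sum_div]
      _ ≤ ϱ / (2 * ϱ) + 1 / 2 :=
          add_le_add (div_le_div_of_nonneg_right hRG (by positivity))
            (div_le_div_of_nonneg_right hR1 zero_le_two)
      _ = 1 := by field_simp; norm_num
  obtain ⟨X, hX⟩ : ∃ X : Ω → ((Fin (k + 1) → Fin Q) × (Fin (k + 1) → Fin Q)) × (W × W),
      X = fun ω => ((U ω, Z ω), (W₁ ω, W₂ ω)) := ⟨_, rfl⟩
  have hpp : ∀ ω, 0 < w ω → 0 < p (W₁ ω) (W₂ ω) := fun ω h => by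
    rw [hp]; exact h.trans_le (le_pr hw (fun ω => (W₁ ω, W₂ ω)) ω)
  have hgib := gibbs hw X (fun _ => ()) (fun _ x => R x * φ x)
    (fun _ x => mul_nonneg (hR0 x) (hφ0 x).le)
    (fun _ s => le_trans (sum_le_sum_of_subset_of_nonneg (subset_univ s)
      (fun x _ _ => mul_nonneg (hR0 x) (hφ0 x).le)) hsum)
    (fun ω h => mul_pos (by
      rw [hR, hX]; exact mul_pos (hpp ω h) (mul_pos (kap_pos hw U W₁ h) (kap_pos hw Z W₂ h)))
      (hφ0 _))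
  rw [Hc_unit hw] at hgib
  have e1 : ∑ ω, w ω * (-Real.log (R (X ω) * φ (X ω))) =
      H w (fun ω => (W₁ ω, W₂ ω)) + Hc w U W₁ + Hc w Z W₂ - ∑ ω, w ω * Real.log (φ (X ω)) := by
    rw [Hc_eq_kap hw, Hc_eq_kap hw]
    unfold H
    rw [← sum_add_distrib, ← sum_add_distrib, ← sum_sub_distrib]
    refine sum_congr rfl fun ω _ => ?_
    rcases (hw.nn ω).eq_or_lt with h0 | h0
    · rw [← h0]; simp
    · have a1 := hpp ω h0
      have a2 := kap_pos hw U W₁ h0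
      have a3 := kap_pos hw Z W₂ h0
      have a4 : R (X ω) =
          p (W₁ ω) (W₂ ω) * (kap w U W₁ (W₁ ω) (U ω) * kap w Z W₂ (W₂ ω) (Z ω)) := by
        rw [hR, hX]
      rw [Real.log_mul (by rw [a4]; positivity) (hφ0 _).ne', a4,
        Real.log_mul a1.ne' (by positivity), Real.log_mul a2.ne' a3.ne', hp]
      ring
  have hlog : 0 ≤ -Real.log ϱ := neg_nonneg.2 (Real.log_nonpos hϱ0.le hϱ1)
  have m0 : ∑ ω, w ω * (if p (W₁ ω) (W₂ ω) ≤ 2 * T (W₁ ω) (W₂ ω) then 0 else 1) ≤ 2 * θ := by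
    rw [sum_fiber w (fun ω => (W₁ ω, W₂ ω)) univ (fun _ => mem_univ _)
      (fun y => if p y.1 y.2 ≤ 2 * T y.1 y.2 then (0 : ℝ) else 1), Fintype.sum_prod_type]
    refine le_trans ?_ (mul_le_mul_of_nonneg_left hbad zero_le_two)
    rw [mul_sum]
    refine sum_le_sum fun a _ => ?_
    rw [mul_sum]
    refine sum_le_sum fun b _ => ?_
    have := hbad0 a b
    have h1 := hdom a b
    rw [← hp, ← hT] at h1
    rw [← hp]
    split_ifs with h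
    · linarith
    · have := not_le.1 h
      linarith
  have m1 := miss_le (w := w) W₁ hν0 hν hΛ₁
  have m2 := miss_le (w := w) W₂ hν0 hν hΛ₁
  have e2 : ∑ ω, w ω * ((1 - (if p (W₁ ω) (W₂ ω) ≤ 2 * T (W₁ ω) (W₂ ω) then 0 else 1) -
      (if νh (W₁ ω) ≤ Λ₁ * pr w W₁ (W₁ ω) then 0 else 1) -
      (if νh (W₂ ω) ≤ Λ₁ * pr w W₂ (W₂ ω) then 0 else 1)) * (-Real.log ϱ) - Real.log 2) ≤
      ∑ ω, w ω * Real.log (φ (X ω)) := by
    refine sum_le_sum fun ω _ => mul_le_mul_of_nonneg_left ?_ (hw.nn ω)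
    rw [hφ]
    by_cases hg : G (X ω)
    · have := (hG _).1 hg
      simp only [hX] at this
      rw [if_pos hg, if_pos this.2.1, if_pos this.2.2.1, if_pos this.2.2.2, one_div, Real.log_inv,
        Real.log_mul two_ne_zero hϱ0.ne']
      linarith
    · rw [if_neg hg, one_div, Real.log_inv]
      rw [hG] at hg
      simp only [hX, hval, true_and] at hg
      split_ifs with c1 c2 c3
      · exact absurd ⟨c1, c2, c3⟩ hg
      all_goals nlinarith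
  have e3 : ∑ ω, w ω * ((1 - (if p (W₁ ω) (W₂ ω) ≤ 2 * T (W₁ ω) (W₂ ω) then 0 else 1) -
      (if νh (W₁ ω) ≤ Λ₁ * pr w W₁ (W₁ ω) then 0 else 1) -
      (if νh (W₂ ω) ≤ Λ₁ * pr w W₂ (W₂ ω) then 0 else 1)) * (-Real.log ϱ) - Real.log 2) =
      (∑ ω, w ω - ∑ ω, w ω * (if p (W₁ ω) (W₂ ω) ≤ 2 * T (W₁ ω) (W₂ ω) then 0 else 1) -
        ∑ ω, w ω * (if νh (W₁ ω) ≤ Λ₁ * pr w W₁ (W₁ ω) then 0 else 1) -
        ∑ ω, w ω * (if νh (W₂ ω) ≤ Λ₁ * pr w W₂ (W₂ ω) then 0 else 1)) * (-Real.log ϱ) -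
        (∑ ω, w ω) * Real.log 2 := by
    rw [← sum_sub_distrib, ← sum_sub_distrib, ← sum_sub_distrib, sum_mul, sum_mul,
      ← sum_sub_distrib]
    exact sum_congr rfl fun ω _ => by ring
  rw [e3, hw.one] at e2
  have e4 : Hc w (fun ω => (U ω, Z ω)) (fun ω => (W₁ ω, W₂ ω)) =
      H w X - H w (fun ω => (W₁ ω, W₂ ω)) := by rw [hX]; rfl
  have e5 : (1 - 2 * θ - 2 / Λ₁) * (-Real.log ϱ) ≤
      (1 - ∑ ω, w ω * (if p (W₁ ω) (W₂ ω) ≤ 2 * T (W₁ ω) (W₂ ω) then 0 else 1) -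
        ∑ ω, w ω * (if νh (W₁ ω) ≤ Λ₁ * pr w W₁ (W₁ ω) then 0 else 1) -
        ∑ ω, w ω * (if νh (W₂ ω) ≤ Λ₁ * pr w W₂ (W₂ ω) then 0 else 1)) * (-Real.log ϱ) := by
    refine mul_le_mul_of_nonneg_right ?_ hlog
    have : 2 / Λ₁ = 1 / Λ₁ + 1 / Λ₁ := by ring
    linarith
  rw [e1] at hgib
  rw [e4]
  linarith

end Crest.Agent.R133
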