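import Crest.Agent.R133.TowerBasic
import Crest.Agent.R133.DesignEx
import Crest.Agent.R133.Info

/-!
# Row 133: conditional entropies of seeds along the tower

PLANS.
* `link`: from `measure_base`, `ae_sub`, `name_iterate`:
  `n l * ν{p l = 0, s l = a, name = v}` summed against `f`.
* `fano`: `gibbs` with `κ (s | v) = 1/2 [s = dec v] + 1/(2Q)`, where `dec v` is the seed whose word
  is at Hamming distance `< n/4` from `v` (unique by `word_dist`; arbitrary if none).  The
  probability that the name has `≥ n/4` errors is `≤ 4δ` (Markov; `measure_tower`, `ae_word`).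
* for a set `J` of sub-block positions, `gibbs` with the product kernel
  `∏_{j} κ_l (y j | sub (n l) (j * n l) v)` (`κ_l` = conditional law under `T.w O l`) and `link`
  give `Hc U W₁ + Hc Z W₂ ≤ M l * T.H O l`, where `W₁ = sub h 0 ∘ snd`, `W₂ = sub h h ∘ snd`,
  `h = (k+1) n l`; and `T.H O (l+1) = Hc (U,Z) (W₁,W₂)` (`H_congr`; `(U,Z)` determines the seed,
  `(W₁,W₂)` the name).  `H_succ_le` then follows from `Hc_pair_le`, `Hc_mono_right`;
  `H_step` from `info_step` with `α q a = ν{name = a, S^[h] ∈ Nq q}`, `β q b = ν{name = b, ∈ Nq q}`,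
  `νh a = ν{name = a}`, `Λ := n Λ`, `bad a b = n ν({p = 0} \ G ∩ names)`.
-/

set_option autoImplicit false

namespace Crest.Agent.R133

open MeasureTheory Finset Lib.FinEnt

variable {D : Design} {Ω : Type*} [MeasurableSpace Ω] {ν : Measure Ω} [IsProbabilityMeasure ν]
  {S : Ω → Ω}

omit [IsProbabilityMeasure ν] in
theorem Tower.ms_st (T : Tower D ν S) (hS : MeasurePreserving S ν ν) {O : Ω → Bool}
    (hO : Measurable O) (l : ℕ) (P : Fin (D.Q l) × (Fin (D.n l) → Bool) → Prop) :
    MeasurableSet {x | T.p l x = 0 ∧ P (T.s l x, name O S (D.n l) x)} :=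
  (T.mp l (measurableSet_singleton 0)).inter
    (((T.ms l).prodMk (measurable_name hO hS.measurable _)) (Set.toFinite {ω | P ω}).measurableSet)

theorem Tower.sum_w_ite (T : Tower D ν S) (hS : MeasurePreserving S ν ν) {O : Ω → Bool}
    (hO : Measurable O) (l : ℕ) (P : Fin (D.Q l) × (Fin (D.n l) → Bool) → Prop) [DecidablePred P] :
    ∑ ω, (if P ω then T.w O l ω else 0) =
      D.n l * ν.real {x | T.p l x = 0 ∧ P (T.s l x, name O S (D.n l) x)} := by
  have e : {x | T.p l x = 0 ∧ P (T.s l x, name O S (D.n l) x)} =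
      ⋃ ω ∈ univ.filter P, {x | T.p l x = 0 ∧ (T.s l x, name O S (D.n l) x) = ω} := by
    ext x
    simp only [Set.mem_ofPred_eq, Set.mem_iUnion, mem_filter, mem_univ, true_and, exists_prop]
    exact ⟨fun h => ⟨_, h.2, h.1, rfl⟩, fun ⟨ω, h1, h2, h3⟩ => ⟨h2, h3 ▸ h1⟩⟩
  rw [e, measureReal_biUnion_finset, ← sum_filter, mul_sum]
  · refine sum_congr rfl fun ω _ => ?_
    simp only [Tower.w, Prod.ext_iff]
  · intro a _ b _ hab
    exact Set.disjoint_left.2 fun x h1 h2 => hab (h1.2.symm.trans h2.2)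
  · intro ω _
    exact T.ms_st hS hO l (fun ω' => ω' = ω)

theorem Tower.pr_w (T : Tower D ν S) (hS : MeasurePreserving S ν ν) {O : Ω → Bool}
    (hO : Measurable O) (l : ℕ) {γ : Type*} (Φ : Fin (D.Q l) × (Fin (D.n l) → Bool) → γ) (v : γ) :
    pr (T.w O l) Φ v = D.n l * ν.real {x | T.p l x = 0 ∧ Φ (T.s l x, name O S (D.n l) x) = v} := by
  classical
  rw [← T.sum_w_ite hS hO l (fun ω => Φ ω = v)]
  unfold pr
  exact sum_congr rfl fun ω _ => by congr

theorem Tower.isP_w (T : Tower D ν S) (hS : MeasurePreserving S ν ν) {O : Ω → Bool}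
    (hO : Measurable O) (l : ℕ) : IsP (T.w O l) := by
  refine ⟨fun ω => mul_nonneg (Nat.cast_nonneg _) measureReal_nonneg, ?_⟩
  have := T.sum_w_ite hS hO l (fun _ => True)
  simp only [if_true, and_true] at this
  rw [this, Measure.real, T.measure_p l 0 (D.n_pos l), ENNReal.toReal_inv, ENNReal.toReal_natCast]
  exact mul_inv_cancel₀ (Nat.cast_ne_zero.2 (D.n_pos l).ne')

theorem Tower.link_pt (T : Tower D ν S) (hS : MeasurePreserving S ν ν) {O : Ω → Bool}
    (hO : Measurable O) (l : ℕ) (ω : Fin (D.Q l) × (Fin (D.n l) → Bool)) :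
    D.M l * T.w O l ω = ∑ j ∈ range (D.M l), ∑ ω',
      if (D.θ l ω'.1 j, sub (D.n l) (j * D.n l) ω'.2) = ω then T.w O (l + 1) ω' else 0 := by
  have hm : MeasurableSet {x | (T.s l x, name O S (D.n l) x) = ω} :=
    ((T.ms l).prodMk (measurable_name hO hS.measurable _)) (measurableSet_singleton ω)
  have h1 := T.measure_base hS l _ hm
  have h2 : ν.real {x | T.p l x = 0 ∧ T.s l x = ω.1 ∧ name O S (D.n l) x = ω.2} =
      ∑ j ∈ range (D.M l), ν.real {x | T.p (l + 1) x = 0 ∧
        (D.θ l (T.s (l + 1) x) j, sub (D.n l) (j * D.n l) (name O S (D.n (l + 1)) x)) = ω} := by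
    simp only [Measure.real]
    rw [← ENNReal.toReal_sum fun _ _ => measure_ne_top _ _]
    congr 1
    have e : {x | T.p l x = 0 ∧ T.s l x = ω.1 ∧ name O S (D.n l) x = ω.2} =
        {x | T.p l x = 0 ∧ x ∈ {x | (T.s l x, name O S (D.n l) x) = ω}} := by
      ext x; simp [Prod.ext_iff]
    rw [e, h1]
    refine sum_congr rfl fun j hj => measure_congr ?_
    have hj := mem_range.1 hj
    filter_upwards [T.ae_sub hS] with x hx
    have hle : j * D.n l + D.n l ≤ D.n (l + 1) := by
      rw [D.n_succ, ← Nat.succ_mul]; exact Nat.mul_le_mul_right _ hj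
    apply propext
    change (T.p (l + 1) x = 0 ∧ (T.s l (S^[j * D.n l] x), name O S (D.n l) (S^[j * D.n l] x)) = ω) ↔
      (T.p (l + 1) x = 0 ∧ _)
    refine and_congr_right fun h0 => ?_
    rw [(hx l h0 j hj).2, name_iterate O S hle]
  simp only [Tower.w] at *
  rw [h2, ← mul_assoc, ← Nat.cast_mul, ← D.n_succ, mul_sum]
  refine sum_congr rfl fun j _ => ?_
  exact (T.sum_w_ite hS hO (l + 1)
    (fun ω' => (D.θ l ω'.1 j, sub (D.n l) (j * D.n l) ω'.2) = ω)).symm

theorem Tower.link (T : Tower D ν S) (hS : MeasurePreserving S ν ν) {O : Ω → Bool}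
    (hO : Measurable O) (l : ℕ) (f : Fin (D.Q l) × (Fin (D.n l) → Bool) → ℝ) :
    D.M l * ∑ ω, T.w O l ω * f ω =
      ∑ ω, T.w O (l + 1) ω *
        ∑ j ∈ range (D.M l), f (D.θ l ω.1 j, sub (D.n l) (j * D.n l) ω.2) := by
  rw [mul_sum]
  simp_rw [← mul_assoc, T.link_pt hS hO l, sum_mul, mul_sum]
  rw [sum_comm, sum_comm (s := univ)]
  refine sum_congr rfl fun j _ => ?_
  rw [sum_comm]
  refine sum_congr rfl fun ω' _ => ?_
  simp only [ite_mul, zero_mul, sum_ite_eq, mem_univ, if_true]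

theorem Tower.fano (T : Tower D ν S) (hS : MeasurePreserving S ν ν) {O : Ω → Bool}
    (hO : Measurable O) (l : ℕ) (hl : D.IsAff l) (δ : ℝ)
    (hδ : ν.real {x | O x ≠ T.bit x} ≤ δ) :
    T.H O (l + 1) ≤ Real.log 2 + 4 * δ * Real.log (D.Q (l + 1)) := by
  classical
  set n := D.n (l + 1) with hn
  set Q := D.Q (l + 1) with hQ
  have hn0 : (0 : ℝ) < n := by exact_mod_cast D.n_pos (l + 1)
  have hQ2 : (2 : ℝ) ≤ Q := by exact_mod_cast D.Q_ge (l + 1)
  have hw := T.isP_w hS hO (l + 1)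
  let dist : Fin Q → (Fin n → Bool) → ℕ := fun s v =>
    (univ.filter fun t : Fin n => v t ≠ D.word (l + 1) s t).card
  have huniq : ∀ v s s', 4 * dist s v < n → 4 * dist s' v < n → s = s' := by
    intro v s s' h1 h2
    by_contra hne
    have h3 : n ≤ 2 * ((range n).filter
      (fun t => D.word (l + 1) s t ≠ D.word (l + 1) s' t)).card := D.word_dist l hl s s' hne
    have h4 : ((range n).filter (fun t => D.word (l + 1) s t ≠ D.word (l + 1) s' t)).card ≤
        dist s v + dist s' v := by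
      refine le_trans ?_ (card_union_le _ _)
      refine le_trans ?_ (card_image_le (f := Fin.val))
      refine card_le_card fun t ht => ?_
      rw [mem_filter, mem_range] at ht
      refine mem_image.2 ⟨⟨t, ht.1⟩, ?_, rfl⟩
      simp only [mem_union, mem_filter, mem_univ, true_and]
      by_contra hc
      push Not at hc
      exact ht.2 (hc.1.symm.trans hc.2)
    omega
  let κ : (Fin n → Bool) → Fin Q → ℝ := fun v s =>
    (if 4 * dist s v < n then 1 / 2 else 0) + 1 / (2 * Q)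
  have hG := gibbs hw Prod.fst Prod.snd κ (fun v s => by simp only [κ]; split_ifs <;> positivity)
    (fun v A => by
      simp only [κ]
      rw [sum_add_distrib, ← sum_filter, sum_const, sum_const, nsmul_eq_mul, nsmul_eq_mul]
      have h1 : ((A.filter fun s => 4 * dist s v < n).card : ℝ) ≤ 1 := by
        exact_mod_cast card_le_one.2 fun a ha b hb =>
          huniq v a b (mem_filter.1 ha).2 (mem_filter.1 hb).2
      have h2 : (A.card : ℝ) ≤ Q := by exact_mod_cast (card_le_univ A).trans (by simp [hQ])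
      have h3 : (A.card : ℝ) * (1 / (2 * Q)) ≤ 1 / 2 := by
        rw [mul_one_div, div_le_div_iff₀ (by positivity) (by norm_num)]; linarith
      linarith)
    (fun ω _ => by simp only [κ]; split_ifs <;> positivity)
  have hL : 0 ≤ Real.log Q := Real.log_nonneg (by linarith)
  have hpt : ∀ ω : Fin Q × (Fin n → Bool), -Real.log (κ ω.2 ω.1) ≤
      Real.log 2 + 4 / n * Real.log Q * dist ω.1 ω.2 := by
    intro ω
    simp only [κ]
    split_ifs with h
    · have h1 : Real.log (1 / 2) ≤ Real.log (1 / 2 + 1 / (2 * Q)) :=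
        Real.log_le_log (by norm_num) (le_add_of_nonneg_right (by positivity))
      rw [one_div, Real.log_inv] at h1
      have : 0 ≤ 4 / n * Real.log Q * dist ω.1 ω.2 := by positivity
      rw [one_div]; linarith
    · rw [zero_add, one_div, Real.log_inv, neg_neg, Real.log_mul (by norm_num) (by positivity)]
      have h1 : (n : ℝ) ≤ 4 * dist ω.1 ω.2 := by exact_mod_cast not_lt.1 h
      have h2 : 1 ≤ 4 / n * (dist ω.1 ω.2 : ℝ) := by
        rw [div_mul_eq_mul_div, le_div_iff₀ hn0]; linarith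
      nlinarith
  have hZ : MeasurableSet {x | O x ≠ T.bit x} :=
    (hO.prodMk T.measurable_bit) (Set.toFinite {p : Bool × Bool | p.1 ≠ p.2}).measurableSet
  have hE : ∑ ω, T.w O (l + 1) ω * dist ω.1 ω.2 = n * ν.real {x | O x ≠ T.bit x} := by
    have e1 : ∀ ω : Fin Q × (Fin n → Bool), T.w O (l + 1) ω * dist ω.1 ω.2 =
        ∑ t : Fin n, if ω.2 t ≠ D.word (l + 1) ω.1 t then T.w O (l + 1) ω else 0 := by
      intro ω
      rw [← sum_filter, sum_const, nsmul_eq_mul, mul_comm]
    simp_rw [e1]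
    rw [sum_comm, Measure.real, T.measure_tower hS (l + 1) _ hZ,
      ENNReal.toReal_sum fun _ _ => measure_ne_top _ _, mul_sum, sum_range]
    refine sum_congr rfl fun t _ => ?_
    rw [T.sum_w_ite hS hO (l + 1) (fun ω => ω.2 t ≠ D.word (l + 1) ω.1 t), Measure.real]
    congr 2
    refine measure_congr ?_
    filter_upwards [T.ae_word hS] with x hx
    apply propext
    change (T.p (l + 1) x = 0 ∧ O (S^[t] x) ≠ D.word (l + 1) (T.s (l + 1) x) t) ↔
      (T.p (l + 1) x = 0 ∧ O (S^[t] x) ≠ T.bit (S^[t] x))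
    refine and_congr_right fun h0 => ?_
    rw [hx (l + 1) t (by rw [h0, zero_add]; exact t.2), h0, zero_add]
  refine hG.trans ((sum_le_sum fun ω _ => mul_le_mul_of_nonneg_left (hpt ω) (hw.nn ω)).trans ?_)
  have e2 : ∑ ω, T.w O (l + 1) ω * (Real.log 2 + 4 / n * Real.log Q * dist ω.1 ω.2) =
      Real.log 2 + 4 / n * Real.log Q * ∑ ω, T.w O (l + 1) ω * dist ω.1 ω.2 := by
    simp_rw [mul_add]
    rw [sum_add_distrib, ← sum_mul, hw.one, one_mul, mul_sum]
    congr 1
    exact sum_congr rfl fun ω _ => by ring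
  rw [e2, hE]
  have e3 : 4 / n * Real.log Q * (n * ν.real {x | O x ≠ T.bit x}) =
      4 * ν.real {x | O x ≠ T.bit x} * Real.log Q := by field_simp
  rw [e3]
  gcongr

theorem sub_sub {len len' len'' a b : ℕ} (h : b + len'' ≤ len') (v : Fin len → Bool) :
    sub len'' b (sub len' a v) = sub len'' (a + b) v := by
  funext t
  have ht : b + t < len' := by have := t.2; omega
  simp only [sub, dif_pos ht, add_assoc]

/-- sum of the conditional entropies of the sub-seeds -/
theorem Tower.sum_Hc_le (T : Tower D ν S) (hS : MeasurePreserving S ν ν) {O : Ω → Bool}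
    (hO : Measurable O) (l : ℕ) :
    ∑ j ∈ range (D.M l), Hc (T.w O (l + 1)) (fun ω => D.θ l ω.1 j)
      (fun ω => sub (D.n l) (j * D.n l) ω.2) ≤ D.M l * T.H O l := by
  classical
  have hw := T.isP_w hS hO l
  have hw' := T.isP_w hS hO (l + 1)
  let κ : (Fin (D.n l) → Bool) → Fin (D.Q l) → ℝ := fun v s =>
    T.w O l (s, v) / pr (T.w O l) Prod.snd v
  have hM : (0 : ℝ) < D.M l := by have := D.M_ge l; positivity
  have hpr : ∀ ω, pr (T.w O l) (fun ω => (ω.1, ω.2)) ω = T.w O l ω := fun ω => by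
    unfold pr; simp
  have e1 : T.H O l = ∑ ω, T.w O l ω * (-Real.log (κ ω.2 ω.1)) := by
    unfold Tower.H Hc Lib.FinEnt.H
    rw [← sum_sub_distrib]
    refine sum_congr rfl fun ω _ => ?_
    rcases (hw.nn ω).eq_or_lt with h0 | h0
    · rw [← h0]; simp
    · simp only [κ]
      rw [hpr, Real.log_div h0.ne' (h0.trans_le (le_pr hw Prod.snd ω)).ne']; ring
  rw [e1, T.link hS hO l (fun ω => -Real.log (κ ω.2 ω.1))]
  simp_rw [mul_sum]
  rw [sum_comm]
  refine sum_le_sum fun j hj => ?_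
  refine gibbs hw' _ _ κ (fun v s => div_nonneg (hw.nn _) (pr_nonneg hw _ _)) (fun v A => ?_)
    (fun ω h0 => ?_)
  · simp only [κ]
    rw [← sum_div]
    refine div_le_one_of_le₀ ?_ (pr_nonneg hw _ _)
    unfold pr
    rw [Fintype.sum_prod_type]
    refine le_trans (sum_le_sum_of_subset_of_nonneg (subset_univ A) fun s _ _ => hw.nn _)
      (le_of_eq (sum_congr rfl fun s _ => ?_))
    rw [sum_eq_single v]
    · simp
    · intro b _ hb; simp [hb]
    · simp
  · have h1 : 0 < T.w O l (D.θ l ω.1 j, sub (D.n l) (j * D.n l) ω.2) := by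
      refine (pos_iff_pos_of_mul_pos (a := (D.M l : ℝ)) ?_).1 hM
      rw [T.link_pt hS hO l]
      refine lt_of_lt_of_le ?_ (single_le_sum (f := fun j => ∑ ω', if (D.θ l ω'.1 j,
        sub (D.n l) (j * D.n l) ω'.2) = (D.θ l ω.1 _, sub (D.n l) (_ * D.n l) ω.2) then
        T.w O (l + 1) ω' else 0) (fun j _ => sum_nonneg fun ω' _ => by
          split_ifs; exacts [hw'.nn _, le_rfl]) hj)
      refine lt_of_lt_of_le ?_ (single_le_sum (f := fun ω' => if (D.θ l ω'.1 j,
        sub (D.n l) (j * D.n l) ω'.2) = (D.θ l ω.1 j, sub (D.n l) (j * D.n l) ω.2) then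
        T.w O (l + 1) ω' else 0) (fun ω' _ => by split_ifs; exacts [hw'.nn _, le_rfl]) (mem_univ ω))
      simpa using h0
    exact div_pos h1 (h1.trans_le (le_pr hw Prod.snd (D.θ l ω.1 j, sub (D.n l) (j * D.n l) ω.2)))

theorem Tower.halves_le (T : Tower D ν S) (hS : MeasurePreserving S ν ν) {O : Ω → Bool}
    (hO : Measurable O) (l k : ℕ) (hl : D.IsHash l k) :
    Hc (T.w O (l + 1)) (fun ω => D.U l k ω.1) (fun ω => sub ((k + 1) * D.n l) 0 ω.2) +
    Hc (T.w O (l + 1)) (fun ω => D.Z l k ω.1)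
      (fun ω => sub ((k + 1) * D.n l) ((k + 1) * D.n l) ω.2) ≤ D.M l * T.H O l := by
  have hw' := T.isP_w hS hO (l + 1)
  refine le_trans ?_ (T.sum_Hc_le hS hO l)
  have hle : ∀ j ∈ range (k + 1), j * D.n l + D.n l ≤ (k + 1) * D.n l := fun j hj => by
    rw [← Nat.succ_mul]; exact Nat.mul_le_mul_right _ (mem_range.1 hj)
  rw [hl.1, two_mul, sum_range_add]
  refine add_le_add ?_ ?_
  · refine (Hc_le_sum hw' (range (k + 1)) (fun j ω => D.θ l ω.1 j) _ _ fun ω ω' h => ?_).trans
      (sum_le_sum fun j hj => Hc_mono_right hw' _ fun ω ω' h => ?_)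
    · funext j; exact h j (mem_range.2 j.2)
    · have := congrArg (sub (D.n l) (j * D.n l)) h
      simpa only [sub_sub (hle j hj), zero_add] using this
  · refine (Hc_le_sum hw' (range (k + 1)) (fun j ω => D.θ l ω.1 (k + 1 + j)) _ _
      fun ω ω' h => ?_).trans (sum_le_sum fun j hj => Hc_mono_right hw' _ fun ω ω' h => ?_)
    · funext j; exact h j (mem_range.2 j.2)
    · have := congrArg (sub (D.n l) (j * D.n l)) h
      simpa only [sub_sub (hle j hj), ← Nat.add_mul] using this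

theorem Tower.H_eq_pair (T : Tower D ν S) (hS : MeasurePreserving S ν ν) {O : Ω → Bool}
    (hO : Measurable O) (l k : ℕ) (hl : D.IsHash l k) :
    T.H O (l + 1) = Hc (T.w O (l + 1)) (fun ω => (D.U l k ω.1, D.Z l k ω.1))
      (fun ω => (sub ((k + 1) * D.n l) 0 ω.2, sub ((k + 1) * D.n l) ((k + 1) * D.n l) ω.2)) := by
  have hw' := T.isP_w hS hO (l + 1)
  have hn : D.n (l + 1) = (k + 1) * D.n l + (k + 1) * D.n l := by rw [D.n_succ, hl.1]; ring
  have hv : ∀ v v' : Fin (D.n (l + 1)) → Bool,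
      sub ((k + 1) * D.n l) 0 v = sub ((k + 1) * D.n l) 0 v' →
      sub ((k + 1) * D.n l) ((k + 1) * D.n l) v = sub ((k + 1) * D.n l) ((k + 1) * D.n l) v' →
      v = v' := by
    intro v v' h1 h2
    funext t
    have ht := t.2
    by_cases h : (t : ℕ) < (k + 1) * D.n l
    · have := congrFun h1 ⟨t, h⟩
      simpa [sub] using this
    · have := congrFun h2 ⟨t - (k + 1) * D.n l, by omega⟩
      have e : (k + 1) * D.n l + (t - (k + 1) * D.n l) = t := by omega
      simpa [sub, e] using this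
  unfold Tower.H Hc
  congr 1
  · refine H_congr hw' (fun ω ω' h => ?_) (fun ω ω' h => ?_)
    · simp only [Prod.mk.injEq] at h ⊢; rw [h.1, h.2]; simp
    · simp only [Prod.mk.injEq] at h ⊢
      exact ⟨hl.2.2.1 _ _ h.1.1 h.1.2, hv _ _ h.2.1 h.2.2⟩
  · refine H_congr hw' (fun ω ω' h => ?_) (fun ω ω' h => ?_)
    · simp only [Prod.mk.injEq]; rw [h]; simp
    · simp only [Prod.mk.injEq] at h
      exact hv _ _ h.1 h.2

theorem Tower.pr_seed (T : Tower D ν S) (hS : MeasurePreserving S ν ν) {O : Ω → Bool}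
    (hO : Measurable O) (l : ℕ) {γ : Type*} [DecidableEq γ] (Φ : Fin (D.Q l) → γ) (v : γ) :
    pr (T.w O l) (fun ω => Φ ω.1) v = (univ.filter fun s => Φ s = v).card / D.Q l := by
  have hw := T.isP_w hS hO l
  have h1 : ∀ a, pr (T.w O l) Prod.fst a = 1 / D.Q l := fun a => by
    rw [T.pr_w hS hO l]
    have e : {x | T.p l x = 0 ∧ (T.s l x, name O S (D.n l) x).1 = a} =
        {x | T.s l x = a ∧ T.p l x = 0} := by ext x; simp [and_comm]
    rw [e, Measure.real, T.law l a 0 (D.n_pos l), ENNReal.toReal_inv, ENNReal.toReal_natCast]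
    have := D.n_pos l
    have := D.Q_ge l
    push_cast; field_simp
  have h2 := sum_fiber (T.w O l) Prod.fst univ (fun _ => mem_univ _)
    (fun a => if Φ a = v then 1 else 0)
  simp only [h1, mul_ite, mul_one, mul_zero] at h2
  rw [← sum_filter (s := univ) (p := fun a => Φ a = v), sum_const, nsmul_eq_mul, mul_one_div] at h2
  rw [← h2]
  unfold pr
  exact sum_congr rfl fun ω _ => by congr

theorem Tower.H_succ_le (T : Tower D ν S) (hS : MeasurePreserving S ν ν) {O : Ω → Bool}
    (hO : Measurable O) (l k : ℕ) (hl : D.IsHash l k) : T.H O (l + 1) ≤ D.M l * T.H O l := by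
  have hw' := T.isP_w hS hO (l + 1)
  rw [T.H_eq_pair hS hO l k hl]
  refine (Hc_pair_le hw' _ _ _).trans (le_trans (add_le_add ?_ ?_) (T.halves_le hS hO l k hl))
  · exact Hc_mono_right hw' _ fun _ _ h => congrArg Prod.fst h
  · exact Hc_mono_right hw' _ fun _ _ h => congrArg Prod.snd h

theorem Tower.H_step (T : Tower D ν S) (hS : MeasurePreserving S ν ν) {O : Ω → Bool}
    (hO : Measurable O) (l k : ℕ) (hl : D.IsHash l k) (G : Set Ω) (hG : MeasurableSet G)
    {𝒞 : Type*} [Fintype 𝒞] (Nq : 𝒞 → Set Ω) (hNq : ∀ q, MeasurableSet (Nq q))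
    (Λ Λ' Λ'' Λ₁ θ ϱ : ℝ) (hΛ : 0 ≤ Λ) (hΛ₁ : 0 < Λ₁)
    (hΛ' : Λ * ∑ q, ν.real (Nq q) ^ 2 ≤ Λ') (hΛ'' : Λ * Fintype.card 𝒞 ≤ Λ'')
    (hdom : ∀ w₁ w₂ : Fin ((k + 1) * D.n l) → Bool,
      ν.real (G ∩ {z | name O S ((k + 1) * D.n l) z = w₁ ∧
          name O S ((k + 1) * D.n l) (S^[(k + 1) * D.n l] z) = w₂}) ≤
        Λ * ∑ q, ν.real {z | name O S ((k + 1) * D.n l) z = w₁ ∧ S^[(k + 1) * D.n l] z ∈ Nq q} *
          ν.real {z | name O S ((k + 1) * D.n l) z = w₂ ∧ z ∈ Nq q})
    (hθ : D.n (l + 1) * ν.real ({x | T.p (l + 1) x = 0} \ G) ≤ θ)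
    (hϱ0 : 0 < ϱ) (hϱ1 : ϱ ≤ 1)
    (hϱ : 2 * D.n (l + 1) *
      (Λ' / D.Q l + Λ'' * Λ₁ ^ 2 / Real.sqrt ((D.Q l : ℝ) ^ (k + 2))) ≤ ϱ) :
    (1 - 2 * θ - 2 / Λ₁) * (-Real.log ϱ) - Real.log 2 ≤ D.M l * T.H O l - T.H O (l + 1) := by
  classical
  have hw' := T.isP_w hS hO (l + 1)
  set h := (k + 1) * D.n l with hh
  have hn : D.n (l + 1) = h + h := by rw [D.n_succ, hl.1, hh]; ring
  obtain ⟨Hs, hH0, hH1, hH2⟩ := hl.2.2.2.2.2
  have hQ := D.Q_ge l
  have hQ' : (0 : ℝ) < D.Q (l + 1) := by have := D.Q_ge (l + 1); positivity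
  have hnm := measurable_name hO hS.measurable h
  have hmn : ∀ a, MeasurableSet {z | name O S h z = a} := fun a => hnm (measurableSet_singleton a)
  have hsum : ∀ Y : Set Ω, MeasurableSet Y → ∑ a, ν.real {z | name O S h z = a ∧ z ∈ Y} = ν.real Y := by
    intro Y hY
    rw [← measureReal_biUnion_finset]
    · congr 1; ext z; simp
    · intro a _ b _ hab
      exact Set.disjoint_left.2 fun x h1 h2 => hab (h1.1.symm.trans h2.1)
    · intro a _; exact (hmn a).inter hY
  have hn0 : (0 : ℝ) ≤ D.n (l + 1) := Nat.cast_nonneg _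
  have hB : MeasurableSet ({x | T.p (l + 1) x = 0} \ G) :=
    (T.mp (l + 1) (measurableSet_singleton 0)).diff hG
  have key := info_step (𝒞 := 𝒞) hQ (T.w O (l + 1)) hw' (fun ω => D.U l k ω.1) (fun ω => D.Z l k ω.1)
    (fun ω => sub h 0 ω.2) (fun ω => sub h h ω.2) Hs (fun ω => hH0 ω.1) hH1 hH2
    (fun u => by
      rw [T.pr_seed hS hO (l + 1) (D.U l k) u, div_le_div_iff₀ hQ' (by positivity), one_mul]
      exact_mod_cast (hl.2.2.2.1 u).le)
    (fun z => by
      rw [T.pr_seed hS hO (l + 1) (D.Z l k) z, div_le_div_iff₀ hQ' (by positivity), one_mul]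
      exact_mod_cast (hl.2.2.2.2.1 z).le)
    (fun q a => ν.real {z | name O S h z = a ∧ S^[h] z ∈ Nq q})
    (fun q a => ν.real {z | name O S h z = a ∧ z ∈ Nq q})
    (fun a => ν.real {z | name O S h z = a})
    (by
      have := hsum Set.univ MeasurableSet.univ
      simp only [Set.mem_univ, and_true, probReal_univ] at this
      exact this.le)
    (fun _ _ => measureReal_nonneg) (fun _ _ => measureReal_nonneg)
    (fun _ _ => measureReal_mono fun _ hz => hz.1) (fun _ _ => measureReal_mono fun _ hz => hz.1)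
    (fun _ => measureReal_nonneg)
    (D.n (l + 1) * Λ) (D.n (l + 1) * Λ') (D.n (l + 1) * Λ'') Λ₁ θ ϱ (mul_nonneg hn0 hΛ) hΛ₁
    (fun a b => D.n (l + 1) * ν.real {z | name O S h z = a ∧
      z ∈ S^[h] ⁻¹' {y | name O S h y = b} ∩ ({x | T.p (l + 1) x = 0} \ G)})
    (fun _ _ => mul_nonneg hn0 measureReal_nonneg)
    (by
      refine le_trans (le_of_eq ?_) hθ
      rw [sum_comm]
      simp_rw [← mul_sum]
      congr 1
      rw [sum_congr rfl fun b _ => hsum _ ((hS.measurable.iterate h (hmn b)).inter hB),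
        ← measureReal_biUnion_finset]
      · congr 1; ext z; simp
      · intro a _ b _ hab
        exact Set.disjoint_left.2 fun x h1 h2 => hab (h1.1.symm.trans h2.1)
      · intro b _; exact (hS.measurable.iterate h (hmn b)).inter hB)
    (fun a b => by
      rw [T.pr_w hS hO (l + 1), mul_assoc, ← mul_add]
      refine mul_le_mul_of_nonneg_left ?_ hn0
      refine le_trans (measureReal_mono ?_) ((measureReal_union_le _ _).trans
        (add_le_add_left (hdom a b) _))
      rintro z ⟨h0, hz⟩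
      simp only [Prod.mk.injEq] at hz
      rw [← name_iterate O S (by omega), ← name_iterate O S (by omega)] at hz
      by_cases hzG : z ∈ G
      · exact Or.inl ⟨hzG, hz⟩
      · exact Or.inr ⟨hz.1, hz.2, h0, hzG⟩)
    (by
      rw [mul_assoc]
      refine mul_le_mul_of_nonneg_left (le_trans (le_of_eq ?_) hΛ') hn0
      congr 1
      refine sum_congr rfl fun q _ => ?_
      rw [hsum _ (hNq q), sq]
      congr 1
      rw [← (hS.iterate h).measureReal_preimage (hNq q).nullMeasurableSet]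
      exact hsum _ (hS.measurable.iterate h (hNq q)))
    (by rw [mul_assoc]; exact mul_le_mul_of_nonneg_left hΛ'' hn0) hϱ0 hϱ1
    (le_trans (le_of_eq (by ring)) hϱ)
  rw [T.H_eq_pair hS hO l k hl]
  have := T.halves_le hS hO l k hl
  linarith

end Crest.Agent.R133
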