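import Crest.Agent.R133.Defs

/-!
# Row 133: the potential `log det ∑ Pₜᵀ Pₜ` and right inverses of the shadowing operator

PLAN.  `Qm a (s+k) = Q₁ + Pᵀ Q₂ P` with `Q₁ = Qm a s`, `Q₂ = Qm (shift a s) k`, `P = Pm a s`
(`Pm a (s+t) = Pm (shift a s) t * Pm a s`).  For `s,k ≥ 1`: `Q₁, Q₂ ≥ 1` (term `t = 0`), so they
are positive definite with `det ≥ 1`, and `|P v|² ≤ L² vᵀ Q₁ v`.
Let `H = Q₂⁻¹ + P Q₁⁻¹ Pᵀ` (positive definite).  Then
* `det H * det Q₁ * det Q₂ = det (Q₁ + Pᵀ Q₂ P)` (`Matrix.det_one_add_mul_comm`);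
* `xᵀ H x ≤ κ |x|²`, `κ = 1 + L²` (Cauchy–Schwarz), so all eigenvalues of `H` lie in `(0, κ]`:
  `det H ≤ κ^d` and `wᵀ H⁻¹ w ≤ κ^d / det H * |w|²` (spectral theorem for `IsHermitian`);
* columns: `e t = Pm a t * V` for `t < s`, `e t = Pm (shift a s) (t-s) * V'` for `t ≥ s`, with
  `V = -Q₁⁻¹ Pᵀ H⁻¹`, `V' = Q₂⁻¹ H⁻¹`; `V' - P V = 1` and
  `∑_{t<s+k} |e t w|² = wᵀ H⁻¹ w`.
-/

set_option autoImplicit false

namespace Crest.Agent.R133

open Matrix Finset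

variable {d : ℕ} {L : ℝ} {a : ℕ → Matrix (Fin d) (Fin d) ℝ}

namespace Lin

theorem norm_sq (v : E d) : ‖v‖ ^ 2 = v.ofLp ⬝ᵥ v.ofLp := by
  rw [EuclideanSpace.real_norm_sq_eq]
  simp [dotProduct, sq]

theorem dd_nonneg (x : Fin d → ℝ) : 0 ≤ x ⬝ᵥ x :=
  Finset.sum_nonneg fun _ _ => mul_self_nonneg _

theorem cs (x y : Fin d → ℝ) : (x ⬝ᵥ y) ^ 2 ≤ (x ⬝ᵥ x) * (y ⬝ᵥ y) := by
  simpa [dotProduct, sq] using Finset.sum_mul_sq_le_sq_mul_sq univ x y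

theorem bd (ha : ∀ t v, ‖act (a t) v‖ ≤ L * ‖v‖) (t : ℕ) (x : Fin d → ℝ) :
    (a t *ᵥ x) ⬝ᵥ (a t *ᵥ x) ≤ L ^ 2 * (x ⬝ᵥ x) := by
  have h := pow_le_pow_left₀ (norm_nonneg _) (ha t (WithLp.toLp 2 x)) 2
  rwa [mul_pow, norm_sq, norm_sq] at h

theorem eig {A : Matrix (Fin d) (Fin d) ℝ} (hA : A.IsHermitian) (i : Fin d) :
    ∃ v : Fin d → ℝ, v ⬝ᵥ v = 1 ∧ hA.eigenvalues i = v ⬝ᵥ A *ᵥ v := by
  refine ⟨(hA.eigenvectorBasis i).ofLp, ?_, by simpa using hA.eigenvalues_eq i⟩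
  rw [← norm_sq, hA.eigenvectorBasis.orthonormal.1 i, one_pow]

theorem det_prod {A : Matrix (Fin d) (Fin d) ℝ} (hA : A.IsHermitian) :
    A.det = ∏ i, hA.eigenvalues i := by
  simpa using hA.det_eq_prod_eigenvalues

theorem lower {A : Matrix (Fin d) (Fin d) ℝ} (hA : A.IsHermitian) {μ : ℝ}
    (h : ∀ i, μ ≤ hA.eigenvalues i) (x : Fin d → ℝ) : μ * (x ⬝ᵥ x) ≤ x ⬝ᵥ A *ᵥ x := by
  set U : Matrix (Fin d) (Fin d) ℝ := hA.eigenvectorUnitary.1 with hU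
  have h1 : A = U * diagonal hA.eigenvalues * Uᵀ := by
    have := hA.spectral_theorem
    rw [Unitary.conjStarAlgAut_apply] at this
    simpa [star_eq_conjTranspose] using this
  have h2 : U * Uᵀ = 1 := by
    have := Unitary.coe_mul_star_self hA.eigenvectorUnitary
    simpa [star_eq_conjTranspose] using this
  have e1 : x ⬝ᵥ x = (Uᵀ *ᵥ x) ⬝ᵥ (Uᵀ *ᵥ x) := by
    rw [dotProduct_mulVec, vecMul_transpose, mulVec_mulVec, h2, one_mulVec]
  have e2 : x ⬝ᵥ A *ᵥ x = (Uᵀ *ᵥ x) ⬝ᵥ diagonal hA.eigenvalues *ᵥ (Uᵀ *ᵥ x) := by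
    conv_lhs => rw [h1]
    rw [← mulVec_mulVec, ← mulVec_mulVec, dotProduct_mulVec, ← mulVec_transpose]
  rw [e1, e2]
  generalize Uᵀ *ᵥ x = y
  simp only [dotProduct, mulVec_diagonal, Finset.mul_sum]
  exact Finset.sum_le_sum fun i _ => by nlinarith [h i, mul_self_nonneg (y i)]

theorem one_le_det {A : Matrix (Fin d) (Fin d) ℝ} (hA : A.IsHermitian)
    (h : ∀ x, x ⬝ᵥ x ≤ x ⬝ᵥ A *ᵥ x) : 1 ≤ A.det := by
  rw [det_prod hA]
  refine le_trans (by simp) (Finset.prod_le_prod (f := fun _ => (1 : ℝ))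
    (fun _ _ => zero_le_one) fun i _ => ?_)
  obtain ⟨v, h1, h2⟩ := eig hA i
  rw [h2, ← h1]
  exact h v

theorem inv_form {A : Matrix (Fin d) (Fin d) ℝ} (hA : IsUnit A.det) {μ : ℝ} (hμ : 0 < μ)
    (h : ∀ x, μ * (x ⬝ᵥ x) ≤ x ⬝ᵥ A *ᵥ x) (w : Fin d → ℝ) :
    0 ≤ w ⬝ᵥ A⁻¹ *ᵥ w ∧ w ⬝ᵥ A⁻¹ *ᵥ w ≤ μ⁻¹ * (w ⬝ᵥ w) := by
  have h1 := h (A⁻¹ *ᵥ w)
  rw [mulVec_mulVec, mul_nonsing_inv _ hA, one_mulVec, dotProduct_comm _ w] at h1
  have h2 := cs w (A⁻¹ *ᵥ w)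
  have h3 := dd_nonneg (A⁻¹ *ᵥ w)
  have h4 := dd_nonneg w
  generalize w ⬝ᵥ A⁻¹ *ᵥ w = β at *
  generalize (A⁻¹ *ᵥ w) ⬝ᵥ (A⁻¹ *ᵥ w) = y at *
  have h5 : 0 ≤ β := le_trans (by positivity) h1
  refine ⟨h5, ?_⟩
  rw [le_inv_mul_iff₀ hμ]
  rcases h5.lt_or_eq with h6 | h6
  · by_contra h7
    push Not at h7
    nlinarith [mul_le_mul_of_nonneg_left h1 h4, mul_lt_mul_of_pos_right h7 h6]
  · rw [← h6, mul_zero]; exact h4

theorem form_Q (a : ℕ → Matrix (Fin d) (Fin d) ℝ) (k : ℕ) (x : Fin d → ℝ) :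
    x ⬝ᵥ Qm a k *ᵥ x = ∑ t ∈ range k, (Pm a t *ᵥ x) ⬝ᵥ (Pm a t *ᵥ x) := by
  rw [Qm, sum_mulVec, dotProduct_sum]
  refine Finset.sum_congr rfl fun t _ => ?_
  rw [← mulVec_mulVec, dotProduct_mulVec, vecMul_transpose]

theorem le_form_Q (a : ℕ → Matrix (Fin d) (Fin d) ℝ) {k t : ℕ} (h : t < k) (x : Fin d → ℝ) :
    (Pm a t *ᵥ x) ⬝ᵥ (Pm a t *ᵥ x) ≤ x ⬝ᵥ Qm a k *ᵥ x := by
  rw [form_Q]
  exact Finset.single_le_sum (f := fun t => (Pm a t *ᵥ x) ⬝ᵥ (Pm a t *ᵥ x))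
    (fun _ _ => dd_nonneg _) (mem_range.2 h)

theorem one_le_Q (a : ℕ → Matrix (Fin d) (Fin d) ℝ) {k : ℕ} (h : 0 < k) (x : Fin d → ℝ) :
    x ⬝ᵥ x ≤ x ⬝ᵥ Qm a k *ᵥ x := by
  simpa [Pm] using le_form_Q a h x

theorem Q_symm (a : ℕ → Matrix (Fin d) (Fin d) ℝ) (k : ℕ) : (Qm a k)ᵀ = Qm a k := by
  simp [Qm, transpose_sum]

theorem Q_herm (a : ℕ → Matrix (Fin d) (Fin d) ℝ) (k : ℕ) : (Qm a k).IsHermitian := by
  simpa [IsHermitian] using Q_symm a k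

theorem det_Q (a : ℕ → Matrix (Fin d) (Fin d) ℝ) {k : ℕ} (h : 0 < k) : 1 ≤ (Qm a k).det :=
  one_le_det (Q_herm a k) (one_le_Q a h)

theorem Pm_add (a : ℕ → Matrix (Fin d) (Fin d) ℝ) (s t : ℕ) :
    Pm a (s + t) = Pm (fun t => a (s + t)) t * Pm a s := by
  induction t with
  | zero => simp [Pm]
  | succ t ih => rw [← add_assoc, Pm, ih, Pm, mul_assoc]

theorem Qm_add (a : ℕ → Matrix (Fin d) (Fin d) ℝ) (s k : ℕ) :
    Qm a (s + k) = Qm a s + (Pm a s)ᵀ * Qm (fun t => a (s + t)) k * Pm a s := by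
  simp only [Qm, Finset.sum_range_add, Pm_add, transpose_mul, Finset.mul_sum, Finset.sum_mul,
    mul_assoc]

/-- the Schur complement -/
noncomputable def Hm (a : ℕ → Matrix (Fin d) (Fin d) ℝ) (s k : ℕ) : Matrix (Fin d) (Fin d) ℝ :=
  (Qm (fun t => a (s + t)) k)⁻¹ + Pm a s * (Qm a s)⁻¹ * (Pm a s)ᵀ

theorem unit_Q (a : ℕ → Matrix (Fin d) (Fin d) ℝ) {k : ℕ} (h : 0 < k) : IsUnit (Qm a k).det :=
  isUnit_iff_ne_zero.2 (zero_lt_one.trans_le (det_Q a h)).ne'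

theorem det_H (a : ℕ → Matrix (Fin d) (Fin d) ℝ) {s k : ℕ} (hs : 0 < s) (hk : 0 < k) :
    (Hm a s k).det * (Qm a s).det * (Qm (fun t => a (s + t)) k).det = (Qm a (s + k)).det := by
  have u1 := unit_Q a hs
  have u2 := unit_Q (fun t => a (s + t)) hk
  rw [Qm_add, Hm]
  generalize Qm (fun t => a (s + t)) k = Q2 at *
  generalize Qm a s = Q1 at *
  generalize Pm a s = P
  have e1 : (Q2⁻¹ + P * Q1⁻¹ * Pᵀ) * Q2 = 1 + P * (Q1⁻¹ * Pᵀ * Q2) := by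
    rw [add_mul, nonsing_inv_mul _ u2]
    simp only [mul_assoc]
  have e2 : Q1 + Pᵀ * Q2 * P = Q1 * (1 + Q1⁻¹ * Pᵀ * Q2 * P) := by
    rw [mul_add, mul_one, ← mul_assoc, ← mul_assoc, ← mul_assoc, mul_nonsing_inv _ u1, one_mul]
  rw [mul_right_comm, ← det_mul, e1, e2, det_mul, det_one_add_mul_comm, mul_comm]

theorem H_symm (a : ℕ → Matrix (Fin d) (Fin d) ℝ) (s k : ℕ) : (Hm a s k)ᵀ = Hm a s k := by
  simp only [Hm, transpose_add, transpose_mul, transpose_nonsing_inv, Q_symm, transpose_transpose,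
    mul_assoc]

theorem H_herm (a : ℕ → Matrix (Fin d) (Fin d) ℝ) (s k : ℕ) : (Hm a s k).IsHermitian := by
  simpa [IsHermitian] using H_symm a s k

theorem form_H (ha : ∀ t v, ‖act (a t) v‖ ≤ L * ‖v‖) {s k : ℕ} (hs : 0 < s) (hk : 0 < k)
    (x : Fin d → ℝ) : 0 ≤ x ⬝ᵥ Hm a s k *ᵥ x ∧ x ⬝ᵥ Hm a s k *ᵥ x ≤ (1 + L ^ 2) * (x ⬝ᵥ x) := by
  obtain ⟨b1, b2⟩ := inv_form (unit_Q (fun t => a (s + t)) hk) one_pos
    (fun x => by simpa using one_le_Q _ hk x) x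
  have e : x ⬝ᵥ (Pm a s * (Qm a s)⁻¹ * (Pm a s)ᵀ) *ᵥ x =
      ((Pm a s)ᵀ *ᵥ x) ⬝ᵥ (Qm a s)⁻¹ *ᵥ ((Pm a s)ᵀ *ᵥ x) := by
    rw [← mulVec_mulVec, ← mulVec_mulVec, dotProduct_mulVec, ← mulVec_transpose]
  obtain ⟨b3, -⟩ := inv_form (unit_Q a hs) one_pos
    (fun x => by simpa using one_le_Q _ hs x) ((Pm a s)ᵀ *ᵥ x)
  rw [Hm, add_mulVec, dotProduct_add, e]
  refine ⟨by positivity, ?_⟩
  obtain ⟨s, rfl⟩ : ∃ s', s = s' + 1 := ⟨s - 1, by omega⟩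
  set y := (Qm a (s + 1))⁻¹ *ᵥ ((Pm a (s + 1))ᵀ *ᵥ x) with hy
  have h1 := le_form_Q a (Nat.lt_succ_self s) y
  have h2 : Qm a (s + 1) *ᵥ y = (Pm a (s + 1))ᵀ *ᵥ x := by
    rw [hy, mulVec_mulVec, mul_nonsing_inv _ (unit_Q a hs), one_mulVec]
  rw [h2, dotProduct_comm y] at h1
  have h3 := bd ha s (Pm a s *ᵥ y)
  have h4 := cs x (Pm a (s + 1) *ᵥ y)
  rw [mulVec_mulVec] at h3
  change (Pm a (s + 1) *ᵥ y) ⬝ᵥ (Pm a (s + 1) *ᵥ y) ≤ _ at h3
  rw [dotProduct_mulVec, ← mulVec_transpose] at h4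
  have h5 := dd_nonneg x
  generalize ((Pm a (s + 1))ᵀ *ᵥ x) ⬝ᵥ y = β at *
  have h6 : β ^ 2 ≤ x ⬝ᵥ x * (L ^ 2 * β) :=
    h4.trans (mul_le_mul_of_nonneg_left (h3.trans (mul_le_mul_of_nonneg_left h1 (sq_nonneg L))) h5)
  have h7 : β ≤ L ^ 2 * (x ⬝ᵥ x) := by
    rcases b3.lt_or_eq with h | h
    · by_contra h8
      push Not at h8
      nlinarith [mul_lt_mul_of_pos_right h8 h]
    · rw [← h]; positivity
  rw [inv_one, one_mul] at b2
  linarith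

theorem eig_H (ha : ∀ t v, ‖act (a t) v‖ ≤ L * ‖v‖) {s k : ℕ} (hs : 0 < s) (hk : 0 < k)
    (i : Fin d) : 0 ≤ (H_herm a s k).eigenvalues i ∧ (H_herm a s k).eigenvalues i ≤ 1 + L ^ 2 := by
  obtain ⟨v, h1, h2⟩ := eig (H_herm a s k) i
  have := form_H ha hs hk v
  rwa [h1, mul_one, ← h2] at this

theorem det_H_pos (a : ℕ → Matrix (Fin d) (Fin d) ℝ) {s k : ℕ} (hs : 0 < s) (hk : 0 < k) :
    0 < (Hm a s k).det := by
  have h := det_H a hs hk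
  have h1 := det_Q a hs
  have h2 := det_Q (fun t => a (s + t)) hk
  have h3 := det_Q a (Nat.add_pos_left hs k)
  rw [mul_assoc] at h
  by_contra h4
  push Not at h4
  have := mul_nonpos_of_nonpos_of_nonneg h4
    (show 0 ≤ (Qm a s).det * (Qm (fun t => a (s + t)) k).det by positivity)
  linarith

theorem pot_diff (L : ℝ) (a : ℕ → Matrix (Fin d) (Fin d) ℝ) {s k : ℕ} (hs : 0 < s) (hk : 0 < k) :
    Real.exp (pot L a s + pot L (fun t => a (s + t)) k - pot L a (s + k)) =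
      (1 + L ^ 2) ^ d / (Hm a s k).det := by
  have h1 := det_Q a hs
  have h2 := det_Q (fun t => a (s + t)) hk
  have h3 := det_H_pos a hs hk
  rw [pot, pot, pot, if_neg hs.ne', if_neg hk.ne', if_neg (Nat.add_pos_left hs k).ne',
    ← det_H a hs hk, Real.log_mul (by positivity) (by positivity),
    Real.log_mul (by positivity) (by positivity),
    ← Real.exp_log (show 0 < (1 + L ^ 2) ^ d / (Hm a s k).det by positivity),
    Real.log_div (by positivity) h3.ne', Real.log_pow]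
  congr 1
  ring

end Lin

open Lin

theorem pot_nonneg (L : ℝ) (a : ℕ → Matrix (Fin d) (Fin d) ℝ) (k : ℕ) : 0 ≤ pot L a k := by
  unfold pot
  split_ifs with h
  · exact le_rfl
  · exact add_nonneg (Real.log_nonneg (det_Q a (Nat.pos_of_ne_zero h)))
      (mul_nonneg (Nat.cast_nonneg _) (Real.log_nonneg (by nlinarith [sq_nonneg L])))

theorem pot_add_le (ha : ∀ t v, ‖act (a t) v‖ ≤ L * ‖v‖) (s k : ℕ) :
    pot L a (s + k) ≤ pot L a s + pot L (fun t => a (s + t)) k := by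
  rcases Nat.eq_zero_or_pos s with rfl | hs
  · simp [pot]
  rcases Nat.eq_zero_or_pos k with rfl | hk
  · simp [pot]
  rw [← sub_nonneg, ← Real.one_le_exp_iff, pot_diff L a hs hk, one_le_div (det_H_pos a hs hk),
    det_prod (H_herm a s k)]
  refine (Finset.prod_le_prod (fun i _ => (eig_H ha hs hk i).1)
    (fun i _ => (eig_H ha hs hk i).2)).trans ?_
  simp

theorem pot_le (ha : ∀ t v, ‖act (a t) v‖ ≤ L * ‖v‖) (k : ℕ) :
    pot L a k ≤ k * (d * Real.log (1 + L ^ 2)) := by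
  induction k with
  | zero => simp [pot]
  | succ k ih =>
    have h := pot_add_le ha k 1
    have e : pot L (fun t => a (k + t)) 1 = d * Real.log (1 + L ^ 2) := by simp [pot, Qm, Pm]
    push_cast
    linarith

theorem exists_col (ha : ∀ t v, ‖act (a t) v‖ ≤ L * ‖v‖) (s k : ℕ) (hs : 0 < s) (hk : 0 < k) :
    ∃ e : ℕ → Matrix (Fin d) (Fin d) ℝ,
      (∀ t, e (t + 1) - a t * e t = if t + 1 = s then 1 else 0) ∧
      ∀ t < s + k, ∀ w, ‖act (e t) w‖ ^ 2 ≤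
        Real.exp (pot L a s + pot L (fun t => a (s + t)) k - pot L a (s + k)) * ‖w‖ ^ 2 := by
  have hH := det_H_pos a hs hk
  have uH : IsUnit (Hm a s k).det := isUnit_iff_ne_zero.2 hH.ne'
  have u1 := unit_Q a hs
  have u2 := unit_Q (fun t => a (s + t)) hk
  set V : Matrix (Fin d) (Fin d) ℝ := -((Qm a s)⁻¹ * (Pm a s)ᵀ * (Hm a s k)⁻¹) with hV
  set V' : Matrix (Fin d) (Fin d) ℝ := (Qm (fun t => a (s + t)) k)⁻¹ * (Hm a s k)⁻¹ with hV'
  have hVV : V' - Pm a s * V = 1 := by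
    rw [← mul_nonsing_inv _ uH, hV, hV']
    conv_rhs => enter [1]; rw [Hm]
    simp only [add_mul, mul_neg, sub_neg_eq_add, mul_assoc]
  refine ⟨fun t => if t < s then Pm a t * V else Pm (fun t => a (s + t)) (t - s) * V',
    fun t => ?_, fun t ht w => ?_⟩
  · rcases lt_trichotomy (t + 1) s with h | h | h
    · simp only [h, if_true, show t < s by omega, h.ne, if_false, Pm, mul_assoc, sub_self]
    · subst h
      simp only [lt_irrefl, if_false, Nat.sub_self, Nat.lt_succ_self, if_true]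
      rw [← hVV, Pm, Pm, one_mul, mul_assoc]
    · obtain ⟨u, rfl⟩ : ∃ u, t = s + u := ⟨t - s, by omega⟩
      simp only [show ¬ s + u + 1 < s by omega, show ¬ s + u < s by omega, h.ne', if_false]
      rw [add_assoc, Nat.add_sub_cancel_left, Nat.add_sub_cancel_left, Pm, mul_assoc, sub_self]
  · rw [pot_diff L a hs hk, norm_sq, norm_sq]
    have hκ : 1 ≤ 1 + L ^ 2 := by nlinarith [sq_nonneg L]
    have hμ : 0 < (Hm a s k).det / (1 + L ^ 2) ^ d := by positivity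
    have hl : ∀ i, (Hm a s k).det / (1 + L ^ 2) ^ d ≤ (H_herm a s k).eigenvalues i := fun i => by
      rw [div_le_iff₀ (by positivity), det_prod (H_herm a s k),
        ← Finset.mul_prod_erase _ _ (mem_univ i)]
      refine mul_le_mul_of_nonneg_left ?_ (eig_H ha hs hk i).1
      refine (Finset.prod_le_prod (fun j _ => (eig_H ha hs hk j).1)
        (fun j _ => (eig_H ha hs hk j).2)).trans ?_
      rw [Finset.prod_const]
      exact pow_le_pow_right₀ hκ (by simp)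
    have hb := (inv_form uH hμ (lower (H_herm a s k) hl) w.ofLp).2
    rw [inv_div] at hb
    refine le_trans ?_ hb
    set y := (Hm a s k)⁻¹ *ᵥ w.ofLp with hy
    have e0 : w.ofLp = Hm a s k *ᵥ y := by
      rw [hy, mulVec_mulVec, mul_nonsing_inv _ uH, one_mulVec]
    have e1 : (V *ᵥ w.ofLp) ⬝ᵥ Qm a s *ᵥ (V *ᵥ w.ofLp) =
        (Pm a s * (Qm a s)⁻¹ * (Pm a s)ᵀ) *ᵥ y ⬝ᵥ y := by
      have a1 : V *ᵥ w.ofLp = -((Qm a s)⁻¹ *ᵥ ((Pm a s)ᵀ *ᵥ y)) := by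
        rw [hV, neg_mulVec, hy, mulVec_mulVec, mulVec_mulVec]
      rw [a1, mulVec_neg, neg_dotProduct_neg, mulVec_mulVec _ (Qm a s), mul_nonsing_inv _ u1,
        one_mulVec, ← mulVec_mulVec, ← mulVec_mulVec, dotProduct_comm _ y, dotProduct_mulVec y,
        ← mulVec_transpose, dotProduct_comm]
    have e2 : (V' *ᵥ w.ofLp) ⬝ᵥ Qm (fun t => a (s + t)) k *ᵥ (V' *ᵥ w.ofLp) =
        (Qm (fun t => a (s + t)) k)⁻¹ *ᵥ y ⬝ᵥ y := by
      have a1 : V' *ᵥ w.ofLp = (Qm (fun t => a (s + t)) k)⁻¹ *ᵥ y := by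
        rw [hV', hy, mulVec_mulVec]
      rw [a1, mulVec_mulVec y (Qm _ k), mul_nonsing_inv _ u2, one_mulVec]
    have e3 : w.ofLp ⬝ᵥ y = (V *ᵥ w.ofLp) ⬝ᵥ Qm a s *ᵥ (V *ᵥ w.ofLp) +
        (V' *ᵥ w.ofLp) ⬝ᵥ Qm (fun t => a (s + t)) k *ᵥ (V' *ᵥ w.ofLp) := by
      rw [e1, e2, ← add_dotProduct, ← add_mulVec, add_comm]
      conv_lhs => enter [1]; rw [e0]
      rfl
    have n1 := (dd_nonneg _).trans (one_le_Q a hs (V *ᵥ w.ofLp))
    have n2 := (dd_nonneg _).trans (one_le_Q (fun t => a (s + t)) hk (V' *ᵥ w.ofLp))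
    rw [e3]
    simp only [act]
    split_ifs with h
    · rw [← mulVec_mulVec]
      linarith [le_form_Q a h (V *ᵥ w.ofLp)]
    · rw [← mulVec_mulVec]
      linarith [le_form_Q (fun t => a (s + t)) (show t - s < k by omega) (V' *ᵥ w.ofLp)]

theorem measurable_pot {M : Type*} [MeasurableSpace M] (L : ℝ)
    (b : M → ℕ → Matrix (Fin d) (Fin d) ℝ) (hb : ∀ t i j, Measurable fun x => b x t i j) (k : ℕ) :
    Measurable fun x => pot L (b x) k := by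
  have hP : ∀ t i j, Measurable fun x => Pm (b x) t i j := by
    intro t
    induction t with
    | zero => exact fun i j => measurable_const
    | succ t ih =>
      intro i j
      simp only [Pm, mul_apply]
      exact Finset.measurable_sum _ fun l _ => (hb t i l).mul (ih l j)
  have hQ : ∀ i j, Measurable fun x => Qm (b x) k i j := fun i j => by
    simp only [Qm, Matrix.sum_apply, mul_apply, transpose_apply]
    exact Finset.measurable_sum _ fun t _ => Finset.measurable_sum _ fun l _ =>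
      (hP t l i).mul (hP t l j)
  unfold pot
  split_ifs
  · exact measurable_const
  · refine Measurable.add (Measurable.log ?_) measurable_const
    simp only [det_apply']
    exact Finset.measurable_sum _ fun σ _ =>
      measurable_const.mul (Finset.measurable_prod _ fun i _ => hQ _ _)

end Crest.Agent.R133
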