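import Crest.Agent.R133.LinAlg

/-! # Row 133: the potential along orbits -/

set_option autoImplicit false

namespace Crest.Agent.R133

open MeasureTheory Finset

variable {d : ℕ} {M : Type*} [MeasurableSpace M] {ν : Measure M} {S : M → M}

theorem Model.measurable_pot (mo : Model d ν S) (hS : Measurable S) (k : ℕ) :
    Measurable fun x => mo.pot x k :=
  R133.measurable_pot mo.C (fun x t => mo.A (S^[t] x))
    (fun t i j => (mo.mA i j).comp (hS.iterate t)) k

theorem Model.pot_nonneg (mo : Model d ν S) (x : M) (k : ℕ) : 0 ≤ mo.pot x k :=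
  R133.pot_nonneg _ _ _

theorem Model.pot_le (mo : Model d ν S) (x : M) (k : ℕ) :
    mo.pot x k ≤ k * (d * Real.log (1 + mo.C ^ 2)) :=
  R133.pot_le (fun _ v => mo.A_bd _ v) k

theorem Model.pot_shift (mo : Model d ν S) (x : M) (s k : ℕ) :
    R133.pot mo.C (fun t => mo.A (S^[s + t] x)) k = mo.pot (S^[s] x) k := by
  unfold Model.pot
  congr 1
  funext t
  rw [add_comm, Function.iterate_add_apply]

theorem Model.pot_add_le (mo : Model d ν S) (x : M) (s k : ℕ) :
    mo.pot x (s + k) ≤ mo.pot x s + mo.pot (S^[s] x) k := by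
  rw [← mo.pot_shift]
  exact R133.pot_add_le (a := fun t => mo.A (S^[t] x)) (fun _ v => mo.A_bd _ v) s k

theorem Model.pot_zero (mo : Model d ν S) (x : M) : mo.pot x 0 = 0 := by
  simp [Model.pot, R133.pot]

theorem Model.pot_mul_le (mo : Model d ν S) (x : M) (J m : ℕ) :
    mo.pot x (J * m) ≤ ∑ j ∈ range J, mo.pot (S^[j * m] x) m := by
  induction J with
  | zero => simp [mo.pot_zero]
  | succ J ih =>
    rw [sum_range_succ, Nat.succ_mul]
    exact (mo.pot_add_le x _ _).trans (by linarith)

theorem Model.measurableSet_G (mo : Model d ν S) (hS : Measurable S) {g : M → ℝ}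
    (hg : Measurable g) (Lg t₀ : ℝ) (m k : ℕ) (x : ℝ) : MeasurableSet (mo.G g Lg t₀ m k x) := by
  unfold Model.G
  refine MeasurableSet.inter (s₁ := {z | _}) (s₂ := {z | _}) ?_ ?_
  · refine measurableSet_le (Measurable.sub ?_ (mo.measurable_pot hS _)) measurable_const
    exact Finset.measurable_sum _ fun j _ => (mo.measurable_pot hS m).comp (hS.iterate _)
  · simp only [Set.ofPred_forall]
    refine MeasurableSet.iInter fun t => MeasurableSet.iInter fun _ => ?_
    refine MeasurableSet.inter (s₁ := {z | _}) (s₂ := {z | _}) ?_ ?_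
    · exact (hS.iterate t) (mo.mgood _)
    · exact measurableSet_lt measurable_const
        (((hg.comp (hS.iterate t)).sub measurable_const).abs)

end Crest.Agent.R133
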