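import Crest.Agent.R133.TowerBasic
import Crest.Agent.R133.PotM

/-! # Row 133: potential drops, choice of threshold, measure of the bad set -/

set_option autoImplicit false

namespace Crest.Agent.R133

open MeasureTheory Finset
open scoped ENNReal

variable {D : Design} {d : ℕ} {M : Type*} [MeasurableSpace M] {ν : Measure M}
  [IsProbabilityMeasure ν] {S : M → M}

/-- the potential drops telescope -/
theorem exists_drop (mo : Model d ν S) (hS : MeasurePreserving S ν ν) (T : Tower D ν S) :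
    ∃ Λ : ℕ → ℝ, (∀ l, 0 ≤ Λ l) ∧ (∀ l, Λ l ≤ d * Real.log (1 + mo.C ^ 2)) ∧
      ∀ l (x : ℝ), 0 < x → x * ν.real {z | T.p (l + 1) z = 0 ∧
        x < ∑ j ∈ range (D.M l), mo.pot (S^[j * D.n l] z) (D.n l) - mo.pot z (D.n (l + 1))} ≤
        Λ l - Λ (l + 1) := by
  set c₀ : ℝ := d * Real.log (1 + mo.C ^ 2) with hc₀
  have hc : 0 ≤ c₀ := mul_nonneg (Nat.cast_nonneg _) (Real.log_nonneg (by nlinarith [sq_nonneg mo.C]))
  have hm : ∀ l u, MeasurableSet {x | T.p l x = u} :=
    fun l u => T.mp l (measurableSet_singleton u)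
  let 𝓛 : ℕ → ℝ≥0∞ := fun l => ∫⁻ x in {x | T.p l x = 0}, ENNReal.ofReal (mo.pot x (D.n l)) ∂ν
  have hb : ∀ l, 𝓛 l ≤ ENNReal.ofReal c₀ := fun l => by
    have hn := D.n_pos l
    calc 𝓛 l ≤ ∫⁻ _ in {x | T.p l x = 0}, ENNReal.ofReal (D.n l * c₀) ∂ν :=
          lintegral_mono fun x => ENNReal.ofReal_le_ofReal (mo.pot_le x _)
      _ = ENNReal.ofReal c₀ := by
          rw [setLIntegral_const, T.measure_p l 0 hn, ENNReal.ofReal_mul (Nat.cast_nonneg _),
            ENNReal.ofReal_natCast, mul_comm ((D.n l : ℕ) : ℝ≥0∞), mul_assoc,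
            ENNReal.mul_inv_cancel (Nat.cast_ne_zero.2 hn.ne') (ENNReal.natCast_ne_top _), mul_one]
  have hfin : ∀ l, 𝓛 l ≠ ∞ := fun l => ne_top_of_le_ne_top ENNReal.ofReal_ne_top (hb l)
  refine ⟨fun l => (𝓛 l).toReal, fun l => ENNReal.toReal_nonneg,
    fun l => ENNReal.toReal_le_of_le_ofReal hc (hb l), fun l x hx => ?_⟩
  let Dr : M → ℝ := fun z =>
    ∑ j ∈ range (D.M l), mo.pot (S^[j * D.n l] z) (D.n l) - mo.pot z (D.n (l + 1))
  have hD0 : ∀ z, 0 ≤ Dr z := fun z => by
    have := mo.pot_mul_le z (D.M l) (D.n l)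
    rw [← D.n_succ] at this
    exact sub_nonneg.2 this
  have hmp := fun k => mo.measurable_pot hS.measurable k
  have hmD : Measurable Dr :=
    (Finset.measurable_sum _ fun j _ => (hmp _).comp (hS.measurable.iterate _)).sub (hmp _)
  have e1 : 𝓛 l = (∫⁻ z in {x | T.p (l + 1) x = 0}, ENNReal.ofReal (Dr z) ∂ν) + 𝓛 (l + 1) := by
    simp only [𝓛]
    rw [T.lintegral_base hS l _ (hmp _).ennreal_ofReal,
      ← lintegral_finsetSum (f := fun j z => ENNReal.ofReal (mo.pot (S^[j * D.n l] z) (D.n l))) _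
        fun j _ => ((hmp _).comp (hS.measurable.iterate _)).ennreal_ofReal,
      ← lintegral_add_left hmD.ennreal_ofReal]
    refine lintegral_congr fun z => ?_
    rw [← ENNReal.ofReal_add (hD0 z) (mo.pot_nonneg _ _),
      ← ENNReal.ofReal_sum_of_nonneg fun j _ => mo.pot_nonneg _ _]
    congr 1
    simp only [Dr]; ring
  have e2 : ENNReal.ofReal x * ν {z | T.p (l + 1) z = 0 ∧ x < Dr z} ≤
      ∫⁻ z in {x | T.p (l + 1) x = 0}, ENNReal.ofReal (Dr z) ∂ν := by
    refine le_trans ?_ (mul_meas_ge_le_lintegral hmD.ennreal_ofReal (ENNReal.ofReal x))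
    refine mul_le_mul_right ?_ _
    rw [Measure.restrict_apply' (hm _ _)]
    exact measure_mono fun z hz => ⟨ENNReal.ofReal_le_ofReal hz.2.le, hz.1⟩
  have e3 : ENNReal.ofReal x * ν {z | T.p (l + 1) z = 0 ∧ x < Dr z} + 𝓛 (l + 1) ≤ 𝓛 l := by
    rw [e1]; exact add_le_add_left e2 _
  have e4 := ENNReal.toReal_mono (hfin l) e3
  rw [ENNReal.toReal_add (ENNReal.mul_ne_top ENNReal.ofReal_ne_top (measure_ne_top _ _)) (hfin _),
    ENNReal.toReal_mul, ENNReal.toReal_ofReal hx.le] at e4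
  simp only [Measure.real]
  linarith

/-- choice of a threshold avoiding the values of `g` at finitely many scales -/
theorem exists_threshold {g : M → ℝ} (hg : Measurable g) {ι : Type*} (s : Finset ι)
    (a η : ι → ℝ) (ha : ∀ i, 0 ≤ a i) (hη : ∀ i, 0 ≤ η i) :
    ∃ t : ℝ, 0 < t ∧ t < 1 ∧
      ∑ i ∈ s, a i * ν.real {z | |g z - t| ≤ η i} ≤ ∑ i ∈ s, a i * (2 * η i) := by
  let P : Measure ℝ := volume.restrict (Set.Ioo 0 1)
  have : IsProbabilityMeasure P := ⟨by simp [P]⟩
  have hms : ∀ i, MeasurableSet {p : ℝ × M | |g p.2 - p.1| ≤ η i} := fun i =>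
    measurableSet_le ((hg.comp measurable_snd).sub measurable_fst).abs measurable_const
  have hmi : ∀ i, Measurable fun t : ℝ => ν {z | |g z - t| ≤ η i} := fun i =>
    measurable_measure_prodMk_left (ν := ν) (hms i)
  have hint : ∀ i, ∫⁻ t, ν {z | |g z - t| ≤ η i} ∂P ≤ ENNReal.ofReal (2 * η i) := fun i => by
    have h1 := Measure.prod_apply (μ := P) (ν := ν) (hms i)
    have h2 := Measure.prod_apply_symm (μ := P) (ν := ν) (hms i)
    refine (le_of_eq h1.symm).trans (h2.le.trans ?_)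
    calc _ ≤ ∫⁻ _, ENNReal.ofReal (2 * η i) ∂ν := by
          refine lintegral_mono fun z => ?_
          refine (Measure.restrict_le_self _).trans ?_
          have : ((fun x => (x, z)) ⁻¹' {p : ℝ × M | |g p.2 - p.1| ≤ η i}) =
              Set.Icc (g z - η i) (g z + η i) := by
            ext x; simp only [Set.mem_preimage, Set.mem_ofPred_eq, Set.mem_Icc, abs_le]
            constructor <;> rintro ⟨h1, h2⟩ <;> constructor <;> linarith
          rw [this, Real.volume_Icc]
          exact le_of_eq (by congr 1; ring)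
      _ = _ := by simp
  obtain ⟨t, ht, hle⟩ := exists_notMem_null_le_lintegral (μ := P) (N := (Set.Ioo 0 1)ᶜ)
    (f := fun t => ∑ i ∈ s, ENNReal.ofReal (a i) * ν {z | |g z - t| ≤ η i})
    (Finset.measurable_sum _ fun i _ => (hmi i).const_mul _).aemeasurable
    (by simp [P, Measure.restrict_apply' measurableSet_Ioo])
  rw [Set.notMem_compl_iff] at ht
  refine ⟨t, ht.1, ht.2, ?_⟩
  rw [lintegral_finsetSum _ fun i _ => (hmi i).const_mul _] at hle
  have h3 : ∑ i ∈ s, ENNReal.ofReal (a i) * ν {z | |g z - t| ≤ η i} ≤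
      ∑ i ∈ s, ENNReal.ofReal (a i * (2 * η i)) := by
    refine hle.trans (sum_le_sum fun i _ => ?_)
    rw [lintegral_const_mul _ (hmi i), ENNReal.ofReal_mul (ha i)]
    exact mul_le_mul_right (hint i) _
  have h4 := ENNReal.toReal_mono (by simp) h3
  rw [ENNReal.toReal_sum fun i _ => ENNReal.mul_ne_top ENNReal.ofReal_ne_top (measure_ne_top _ _),
    ENNReal.toReal_sum fun i _ => ENNReal.ofReal_ne_top] at h4
  refine le_trans (le_of_eq (sum_congr rfl fun i _ => ?_)) (h4.trans (le_of_eq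
    (sum_congr rfl fun i _ => ENNReal.toReal_ofReal (mul_nonneg (ha i) (by linarith [hη i])))))
  rw [ENNReal.toReal_mul, ENNReal.toReal_ofReal (ha i)]; rfl

/-- measure of the bad part of the base -/
theorem bad_le (mo : Model d ν S) (hS : MeasurePreserving S ν ν) (T : Tower D ν S)
    {g : M → ℝ} (hg : Measurable g) (Lg t₀ x : ℝ) (l k : ℕ) (hM : D.M l = 2 * (k + 1)) :
    ν.real ({z | T.p (l + 1) z = 0} \ mo.G g Lg t₀ (D.n l) k x) ≤
      ν.real {z | T.p (l + 1) z = 0 ∧
        x < ∑ j ∈ range (D.M l), mo.pot (S^[j * D.n l] z) (D.n l) - mo.pot z (D.n (l + 1))} +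
      D.n (l + 1) * (mo.C * Real.exp (-x) + ν.real {z | |g z - t₀| ≤ Lg * Real.exp (-x)}) := by
  set B₁ := (mo.good (Real.exp (-x)))ᶜ with hB₁
  set B₂ := {z | |g z - t₀| ≤ Lg * Real.exp (-x)} with hB₂
  have hm₁ : MeasurableSet B₁ := (mo.mgood _).compl
  have hm₂ : MeasurableSet B₂ := measurableSet_le (hg.sub measurable_const).abs measurable_const
  have hsub : {z | T.p (l + 1) z = 0} \ mo.G g Lg t₀ (D.n l) k x ⊆
      {z | T.p (l + 1) z = 0 ∧
        x < ∑ j ∈ range (D.M l), mo.pot (S^[j * D.n l] z) (D.n l) - mo.pot z (D.n (l + 1))} ∪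
      ⋃ t ∈ range (D.n (l + 1)), S^[t] ⁻¹' (B₁ ∪ B₂) := by
    rintro z ⟨h0, hz⟩
    by_contra hcon
    simp only [Set.mem_union, Set.mem_ofPred_eq, Set.mem_iUnion, not_or, not_and, not_lt,
      not_exists, Set.mem_preimage, hB₁, hB₂, Set.mem_compl_iff, not_not, not_le, mem_range] at hcon
    apply hz
    have e : D.n (l + 1) = 2 * (k + 1) * D.n l := by rw [D.n_succ, hM]
    refine ⟨?_, fun t ht => hcon.2 t (e ▸ ht)⟩
    have := hcon.1 h0
    rwa [hM, e] at this
  refine (measureReal_mono hsub).trans ((measureReal_union_le _ _).trans (add_le_add_right ?_ _))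
  refine (measureReal_biUnion_finset_le _ _).trans ?_
  have h1 : ν.real B₁ ≤ mo.C * Real.exp (-x) :=
    ENNReal.toReal_le_of_le_ofReal (by have := mo.one_le; positivity)
      (mo.good_le _ (Real.exp_pos _))
  calc _ ≤ ∑ _t ∈ range (D.n (l + 1)), (mo.C * Real.exp (-x) + ν.real B₂) := by
        refine sum_le_sum fun t _ => ?_
        rw [(hS.iterate t).measureReal_preimage (hm₁.union hm₂).nullMeasurableSet]
        exact (measureReal_union_le _ _).trans (by linarith)
    _ = _ := by rw [sum_const, card_range, nsmul_eq_mul]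

end Crest.Agent.R133
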