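import Crest.Agent.R133.Level
import Crest.Agent.R133.Dom
import Crest.Agent.R133.MainA

/-! # Row 133: chart data and towers are incompatible -/

set_option autoImplicit false

namespace Crest.Agent.R133

open MeasureTheory Finset

theorem final_arith (k : ℕ) (hk : 1 ≤ k) (r : ℝ) (hr : 0 < r) (u θ : ℕ → ℝ) (hu0 : 0 ≤ u k)
    (h1 : u 0 ≤ r / 20)
    (hs : ∀ i < k, r / (4 * (k + 1)) * (3 / 4 * (1 - 2 * θ i - 1 / 50) - 1 / 100) ≤
      u i - u (i + 1))
    (hθ : ∑ i ∈ range k, θ i ≤ k / 50) : False := by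
  have h2 := sum_le_sum fun i (hi : i ∈ range k) => hs i (mem_range.1 hi)
  rw [sum_range_sub', ← mul_sum] at h2
  have e : ∑ i ∈ range k, (3 / 4 * (1 - 2 * θ i - 1 / 50) - 1 / 100) =
      k * (3 / 4 * (49 / 50) - 1 / 100) - 3 / 2 * ∑ i ∈ range k, θ i := by
    rw [mul_sum, ← nsmul_eq_mul, ← card_range k, ← sum_const, card_range, ← sum_sub_distrib]
    exact sum_congr rfl fun i _ => by ring
  rw [e] at h2
  have hk' : (1 : ℝ) ≤ k := by exact_mod_cast hk
  have h3 : r / (4 * (k + 1)) * (k * (69 / 100)) ≤ r / 20 := by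
    refine le_trans (mul_le_mul_of_nonneg_left (by linarith) (by positivity)) (h2.trans (by linarith))
  rw [div_mul_eq_mul_div, div_le_div_iff₀ (by positivity) (by positivity)] at h3
  nlinarith

theorem rho_bound (C₁ μ e q nn : ℝ) (k : ℕ) (Q : ℕ) (hC : 1 ≤ C₁) (hk : 1 ≤ k)
    (hμ : 2 * (k : ℝ) + 2 ≤ μ) (hQ : (Q : ℝ) = Real.exp q) (hq : μ * e / 2 ≤ q)
    (he : 8 * (14 + C₁) ≤ e) (hnn : nn ≤ Real.exp (3 * μ)) (hnn0 : 0 ≤ nn) :
    2 * nn * (C₁ ^ (k + 1) / Q + Real.exp (C₁ * ((2 * k + 2) * μ * e / (100 * C₁))) * 100 ^ 2 /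
      Real.sqrt ((Q : ℝ) ^ (k + 2))) ≤ Real.exp (-(3 / 4 * q)) := by
  have hk' : (1 : ℝ) ≤ k := by exact_mod_cast hk
  have hμ0 : 4 ≤ μ := by linarith
  have he0 : 120 ≤ e := by linarith
  have hq0 : 0 ≤ q := le_trans (by positivity) hq
  have e1 : Real.sqrt ((Q : ℝ) ^ (k + 2)) = Real.exp ((k + 2) * q / 2) := by
    rw [hQ, ← Real.exp_nat_mul, ← Real.exp_half]; congr 1; push_cast; ring
  have e2 : C₁ * ((2 * k + 2) * μ * e / (100 * C₁)) = (2 * k + 2) * (μ * e) / 100 := by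
    field_simp
  have h1 : Real.exp ((2 * k + 2) * (μ * e) / 100) / Real.exp ((k + 2) * q / 2) ≤
      Real.exp (-q) := by
    rw [← Real.exp_sub]
    refine Real.exp_le_exp.2 ?_
    have : (2 * k + 2) * (μ * e) ≤ (2 * k + 2) * (2 * q) :=
      mul_le_mul_of_nonneg_left (by linarith) (by positivity)
    nlinarith
  have h2 : C₁ ^ (k + 1) ≤ Real.exp (μ * C₁) := by
    calc C₁ ^ (k + 1) ≤ Real.exp C₁ ^ (k + 1) :=
          pow_le_pow_left₀ (by linarith) (by linarith [Real.add_one_le_exp C₁]) _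
      _ = Real.exp ((k + 1 : ℕ) * C₁) := (Real.exp_nat_mul _ _).symm
      _ ≤ _ := Real.exp_le_exp.2 (mul_le_mul_of_nonneg_right (by push_cast; linarith) (by linarith))
  have h3 : (1 : ℝ) ≤ Real.exp (μ * C₁) := Real.one_le_exp (by positivity)
  have h4 : (40000 : ℝ) ≤ Real.exp (11 * μ) := by
    have := Real.pow_div_factorial_le_exp (11 * μ) (by positivity) 4
    have h5 : (44 : ℝ) ^ 4 ≤ (11 * μ) ^ 4 := pow_le_pow_left₀ (by norm_num) (by linarith) _
    norm_num [Nat.factorial] at this h5 ⊢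
    linarith
  rw [e1, e2, mul_div_right_comm, hQ, div_eq_mul_inv, ← Real.exp_neg]
  have h6 := Real.exp_pos (-q)
  calc _ ≤ 2 * nn * (Real.exp (μ * C₁) * Real.exp (-q) +
          Real.exp (-q) * (100 ^ 2 * Real.exp (μ * C₁))) := by
        refine mul_le_mul_of_nonneg_left (add_le_add (mul_le_mul_of_nonneg_right h2 h6.le) ?_)
          (by positivity)
        exact mul_le_mul h1 (by nlinarith) (by positivity) h6.le
    _ = nn * 20002 * Real.exp (μ * C₁) * Real.exp (-q) := by ring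
    _ ≤ Real.exp (3 * μ) * Real.exp (11 * μ) * Real.exp (μ * C₁) * Real.exp (-q) := by
        gcongr; linarith
    _ = Real.exp (μ * (14 + C₁) - q) := by
        rw [← Real.exp_add, ← Real.exp_add, ← Real.exp_add]; congr 1; ring
    _ ≤ _ := Real.exp_le_exp.2 (by nlinarith)

theorem small_bound (C₁ B μ e nn : ℝ) (k : ℕ) (hC : 1 ≤ C₁) (hB : 0 ≤ B)
    (hμ : 1 ≤ μ) (he : 1 ≤ e) (hk : 50 * C₁ * (6 + 100 * B) ≤ k)
    (hnn : nn ≤ Real.exp (3 * μ)) (hnn0 : 0 ≤ nn) :
    nn ^ 2 * (B * Real.exp (-((2 * k + 2) * μ * e / (100 * C₁)))) ≤ 1 / 100 := by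
  have h1 : μ * (6 + 100 * B) ≤ (2 * k + 2) * μ * e / (100 * C₁) := by
    rw [le_div_iff₀ (by positivity)]
    have : (2 * k + 2) * μ ≤ (2 * k + 2) * μ * e := le_mul_of_one_le_right (by positivity) he
    nlinarith
  have h2 : nn ^ 2 ≤ Real.exp (6 * μ) := by
    calc nn ^ 2 ≤ Real.exp (3 * μ) ^ 2 := pow_le_pow_left₀ hnn0 hnn _
      _ = _ := by rw [← Real.exp_nat_mul]; congr 1; push_cast; ring
  have h3 : 100 * B ≤ Real.exp (μ * (100 * B)) := by
    have := Real.add_one_le_exp (μ * (100 * B))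
    nlinarith
  calc _ ≤ Real.exp (6 * μ) * (Real.exp (μ * (100 * B)) / 100 * Real.exp (-(μ * (6 + 100 * B)))) := by
        gcongr; linarith
    _ = 1 / 100 := by
        rw [div_mul_eq_mul_div, ← mul_div_assoc, ← Real.exp_add, ← Real.exp_add]
        congr 1; rw [← Real.exp_zero]; congr 1; ring

theorem half_pow_le (k i : ℕ) (hi : i ≤ k + 1) :
    (2 * (k : ℝ) + 2) ^ i / 2 ≤ (2 * k + 1) ^ i := by
  have h0 : (0 : ℝ) < 2 * k + 2 := by positivity
  have h1 := one_add_mul_le_pow (a := -(1 / (2 * (k : ℝ) + 2)))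
    (by have : 1 / (2 * (k : ℝ) + 2) ≤ 1 := by rw [div_le_one h0]; linarith [Nat.cast_nonneg (α := ℝ) k]
        linarith) i
  have e : (2 * (k : ℝ) + 1) = (2 * k + 2) * (1 + -(1 / (2 * (k : ℝ) + 2))) := by
    field_simp; ring
  have h2 : (i : ℝ) * (1 / (2 * (k : ℝ) + 2)) ≤ 1 / 2 := by
    have : (i : ℝ) ≤ k + 1 := by exact_mod_cast hi
    rw [mul_one_div, div_le_div_iff₀ h0 (by norm_num)]; linarith
  rw [e, mul_pow, div_eq_mul_inv]
  exact mul_le_mul_of_nonneg_left (by linarith) (by positivity)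

theorem no_tower {D : Design} {d : ℕ} {M : Type*} [MeasurableSpace M] {ν : Measure M}
    [IsProbabilityMeasure ν] {S : M → M} (mo : Model d ν S) (hS : MeasurePreserving S ν ν)
    (T : Tower D ν S) : False := by
  have hZ : MeasurableSet {x | T.bit x = true} := T.measurable_bit (measurableSet_singleton true)
  obtain ⟨g, Lg, hg, hLg, hgZ, hgL⟩ := mo.approx _ hZ (1 / 100) (by norm_num)
  obtain ⟨C₁, hC₁, hdom⟩ := mo.dom hS g Lg hg hLg hgL
  obtain ⟨Λ, hΛ0, hΛc, hΛ⟩ := exists_drop mo hS T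
  obtain ⟨c₀, hc₀⟩ : ∃ c₀ : ℝ, c₀ = d * Real.log (1 + mo.C ^ 2) := ⟨_, rfl⟩
  rw [← hc₀] at hΛc
  have hc0 : 0 ≤ c₀ := (hΛ0 0).trans (hΛc 0)
  obtain ⟨B, hB⟩ : ∃ B : ℝ, B = mo.C + 2 * Lg := ⟨_, rfl⟩
  have hB0 : 0 ≤ B := by have := mo.one_le; linarith
  obtain ⟨N, hN⟩ := exists_nat_ge (50 * C₁ ^ 2 + 50 * C₁ * (6 + 100 * B) + 10000 * C₁ * c₀ +
    Real.exp (8 * (14 + C₁)) + 1)
  obtain ⟨l, -, hNn, hNQ, haff, hhash⟩ := D.stage N
  obtain ⟨k, hk⟩ : ∃ k, k = D.n (l + 1) ^ 2 := ⟨_, rfl⟩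
  rw [← hk] at hhash
  obtain ⟨n₀, hn₀⟩ : ∃ n₀ : ℝ, n₀ = D.n (l + 1) := ⟨_, rfl⟩
  obtain ⟨e, he⟩ : ∃ e : ℝ, e = Real.log (D.Q (l + 1)) := ⟨_, rfl⟩
  have hp1 : 0 ≤ 50 * C₁ ^ 2 := by positivity
  have hp2 : 0 ≤ 50 * C₁ * (6 + 100 * B) := by positivity
  have hp3 : 0 ≤ 10000 * C₁ * c₀ := by positivity
  have hp4 := Real.exp_pos (8 * (14 + C₁))
  have hNn' : (N : ℝ) ≤ n₀ := by rw [hn₀]; exact_mod_cast hNn
  have hNQ' : (N : ℝ) ≤ D.Q (l + 1) := by exact_mod_cast hNQ
  have hn1 : 1 ≤ n₀ := by linarith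
  have hkr : (k : ℝ) = n₀ ^ 2 := by rw [hk, hn₀]; push_cast; ring
  have hkn : n₀ ≤ k := by rw [hkr]; nlinarith
  have hk1 : 1 ≤ k := by exact_mod_cast hn1.trans hkn
  have he1 : 8 * (14 + C₁) ≤ e := by
    rw [he, Real.le_log_iff_exp_le (by linarith)]; linarith
  have he2 : 120 ≤ e := by linarith
  -- sizes along the stage
  have hn : ∀ i ≤ k + 1, (D.n (l + 1 + i) : ℝ) = (2 * k + 2) ^ i * n₀ := by
    intro i hi
    induction i with
    | zero => simp [hn₀]
    | succ i ih =>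
      rw [← add_assoc, D.n_succ, (hhash i (by omega)).1, Nat.cast_mul, ih (by omega)]
      push_cast; ring
  have hq : ∀ i ≤ k + 1, Real.log (D.Q (l + 1 + i)) = (2 * k + 1) ^ i * e := by
    intro i hi
    induction i with
    | zero => simp [he]
    | succ i ih =>
      rw [← add_assoc, (hhash i (by omega)).2.1, Nat.cast_pow, Real.log_pow, ih (by omega)]
      push_cast; ring
  -- level `l + 2 + i`, `i < k`
  let μ : ℕ → ℝ := fun i => (2 * k + 2) ^ (i + 1)
  have hμ : ∀ i, 2 * (k : ℝ) + 2 ≤ μ i := fun i =>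
    le_self_pow₀ (by linarith [Nat.cast_nonneg (α := ℝ) k]) (Nat.succ_ne_zero i)
  have hk0 : (0 : ℝ) ≤ k := Nat.cast_nonneg k
  let x : ℕ → ℝ := fun i => (2 * k + 2) * μ i * e / (100 * C₁)
  let nn : ℕ → ℝ := fun i => D.n (l + 1 + (i + 1) + 1)
  have hnn : ∀ i < k, nn i = (2 * k + 2) * μ i * n₀ := fun i hi => by
    simp only [nn, μ]
    rw [add_assoc (l + 1), hn (i + 1 + 1) (by omega)]; ring
  have hnn0 : ∀ i, 0 ≤ nn i := fun i => Nat.cast_nonneg _
  have hnne : ∀ i < k, nn i ≤ Real.exp (3 * μ i) := fun i hi => by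
    have h1 := hμ i
    have h2 : μ i ≤ Real.exp (μ i) := by linarith [Real.add_one_le_exp (μ i)]
    rw [hnn i hi]
    calc _ ≤ Real.exp (μ i) * Real.exp (μ i) * Real.exp (μ i) := by
          gcongr <;> linarith
      _ = _ := by rw [← Real.exp_add, ← Real.exp_add]; congr 1; ring
  have hx0 : ∀ i, 0 < x i := fun i => by
    have := hμ i
    have : 0 < μ i := by linarith
    simp only [x]; positivity
  obtain ⟨t₀, ht0, ht1, ht⟩ := exists_threshold (ν := ν) hg (range k) (fun i => nn i ^ 2)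
    (fun i => Lg * Real.exp (-x i)) (fun i => by positivity) (fun i => by positivity)
  let O : M → Bool := fun z => decide (t₀ < g z)
  have hO : Measurable O := by
    refine measurable_to_bool ?_
    have : O ⁻¹' {true} = {z | t₀ < g z} := by ext z; simp [O]
    rw [this]; exact measurableSet_lt measurable_const hg
  have hOδ : ν.real {z | O z ≠ T.bit z} ≤ 1 / 100 := by
    refine ENNReal.toReal_le_of_le_ofReal (by norm_num) (le_trans (measure_mono ?_) hgZ)
    intro z hz h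
    apply hz
    by_cases hb : T.bit z = true
    · have : g z = 1 := by rw [h]; simp [Set.indicator, hb]
      simp [O, this, ht1, hb]
    · have : g z = 0 := by rw [h]; simp [Set.indicator, hb]
      simp only [Bool.not_eq_true] at hb
      simp [O, this, hb, ht0.le]
  let θ : ℕ → ℝ := fun i => nn i * ν.real ({z | T.p (l + 1 + (i + 1) + 1) z = 0} \
    mo.G g Lg t₀ (D.n (l + 1 + (i + 1))) k (x i))
  let u : ℕ → ℝ := fun i => T.H O (l + 1 + (i + 1)) / D.n (l + 1 + (i + 1))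
  have hnpos : ∀ j, (0 : ℝ) < D.n j := fun j => by exact_mod_cast D.n_pos j
  refine final_arith k hk1 (e / n₀) (by positivity) u θ ?_ ?_ ?_ ?_
  · exact div_nonneg (Lib.FinEnt.Hc_nonneg (T.isP_w hS hO _) _ _) (Nat.cast_nonneg _)
  · have h1 := T.H_succ_le hS hO (l + 1) k (hhash 0 (Nat.zero_le _))
    have h2 := T.fano hS hO l haff _ hOδ
    rw [← he] at h2
    have h3 := Real.log_two_lt_d9
    have hM : (0 : ℝ) < D.M (l + 1) := by have := D.M_ge (l + 1); positivity
    simp only [u]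
    rw [zero_add, D.n_succ, Nat.cast_mul, ← hn₀, div_le_iff₀ (by positivity)]
    refine h1.trans ?_
    have : e / n₀ / 20 * (D.M (l + 1) * n₀) = D.M (l + 1) * (e / 20) := by field_simp
    rw [this]
    exact mul_le_mul_of_nonneg_left (by linarith) hM.le
  · intro i hi
    have hh := hhash (i + 1) (by omega)
    have hμi := hμ i
    have hmi : (D.n (l + 1 + (i + 1)) : ℝ) = μ i * n₀ := hn (i + 1) (by omega)
    obtain ⟨q, hqd⟩ : ∃ q : ℝ, q = Real.log (D.Q (l + 1 + (i + 1))) := ⟨_, rfl⟩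
    have hqi : μ i * e / 2 ≤ q := by
      rw [hqd, hq (i + 1) (by omega), mul_div_right_comm]
      exact mul_le_mul_of_nonneg_right (half_pow_le k (i + 1) (by omega)) (by linarith)
    have hQ : (D.Q (l + 1 + (i + 1)) : ℝ) = Real.exp q := by
      have := D.Q_ge (l + 1 + (i + 1))
      rw [hqd, Real.exp_log (by positivity)]
    obtain ⟨𝒞, _, Nq, Λ', hNq, hΛ'0, hc1, hc2, hc3⟩ := hdom (D.n (l + 1 + (i + 1))) k (x i) t₀
      (by
        have : (k : ℝ) + 1 ≤ D.n (l + 1 + (i + 1)) := by rw [hmi]; nlinarith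
        exact_mod_cast this)
      (by
        rw [hmi]
        simp only [x]
        rw [le_div_iff₀ (by positivity)]
        have h1 : 50 * C₁ ^ 2 ≤ n₀ := by linarith
        have h2 : 100 * C₁ ^ 2 * n₀ ≤ (2 * k + 2) * e := by rw [hkr]; nlinarith
        have h3 := mul_le_mul_of_nonneg_left h2 (show 0 ≤ μ i by linarith)
        linarith)
    have hq0 : 0 ≤ q := le_trans (by have : 0 ≤ μ i := by linarith
                                     positivity) hqi
    have hstep := T.H_step hS hO _ k hh _ (mo.measurableSet_G hS.measurable hg Lg t₀ _ k (x i))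
      Nq hNq Λ' _ _ 100 (θ i) (Real.exp (-(3 / 4 * q))) hΛ'0 (by norm_num) hc2 hc1 hc3 le_rfl
      (Real.exp_pos _) (Real.exp_le_one_iff.2 (by linarith))
      (rho_bound C₁ (μ i) e q (nn i) k _ hC₁ hk1 hμi hQ hqi he1 (hnne i hi) (hnn0 i))
    rw [Real.log_exp, neg_neg] at hstep
    have hmono := T.H_succ_le hS hO _ k hh
    have hM : (D.M (l + 1 + (i + 1)) : ℝ) = 2 * k + 2 := by rw [hh.1]; push_cast; ring
    rw [hM] at hstep hmono
    have h3 := Real.log_two_lt_d9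
    have hkey : μ i * e / 2 * (3 / 4 * (1 - 2 * θ i - 1 / 50) - 1 / 100) ≤
        (2 * k + 2) * T.H O (l + 1 + (i + 1)) - T.H O (l + 1 + (i + 1) + 1) := by
      have h4 : 4 * 120 ≤ μ i * e := mul_le_mul (by
        have : (1 : ℝ) ≤ k := by exact_mod_cast hk1
        linarith) he2 (by norm_num) (by linarith)
      rcases le_total 0 (1 - 2 * θ i - 1 / 50) with h5 | h5
      · have := mul_le_mul_of_nonneg_left hqi h5
        norm_num at hstep ⊢
        nlinarith
      · have : μ i * e / 2 * (3 / 4 * (1 - 2 * θ i - 1 / 50) - 1 / 100) ≤ 0 :=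
          mul_nonpos_of_nonneg_of_nonpos (by linarith) (by linarith)
        linarith
    have hni := hnn i hi
    simp only [nn] at hni
    simp only [u]
    rw [hmi, ← add_assoc (l + 1) (i + 1) 1, hni]
    have hμ0 : 0 < μ i := by linarith
    have e1 : T.H O (l + 1 + (i + 1)) / (μ i * n₀) -
        T.H O (l + 1 + (i + 1) + 1) / ((2 * k + 2) * μ i * n₀) =
        ((2 * k + 2) * T.H O (l + 1 + (i + 1)) - T.H O (l + 1 + (i + 1) + 1)) /
          ((2 * k + 2) * μ i * n₀) := by field_simp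
    rw [e1, le_div_iff₀ (by positivity)]
    refine le_trans (le_of_eq ?_) hkey
    field_simp; ring
  · have h1 : ∀ i ∈ range k, θ i ≤ 100 * C₁ * n₀ / e *
        (Λ (l + 1 + (i + 1)) - Λ (l + 1 + (i + 1 + 1))) + nn i ^ 2 * (mo.C * Real.exp (-x i)) +
        nn i ^ 2 * ν.real {z | |g z - t₀| ≤ Lg * Real.exp (-x i)} := by
      intro i hi
      have hi := mem_range.1 hi
      have hh := hhash (i + 1) (by omega)
      have h2 := bad_le mo hS T hg Lg t₀ (x i) _ k hh.1
      have h3 := hΛ (l + 1 + (i + 1)) (x i) (hx0 i)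
      have h4 : nn i = 100 * C₁ * n₀ / e * x i := by
        rw [hnn i hi]; simp only [x]; field_simp
      have h5 := mul_le_mul_of_nonneg_left h3 (show 0 ≤ 100 * C₁ * n₀ / e by positivity)
      rw [← mul_assoc, ← h4] at h5
      have h6 := mul_le_mul_of_nonneg_left h2 (hnn0 i)
      simp only [θ]
      rw [← add_assoc (l + 1) (i + 1) 1]
      refine h6.trans ?_
      simp only [nn] at h5 ⊢
      nlinarith
    refine (sum_le_sum h1).trans ?_
    rw [sum_add_distrib, sum_add_distrib, ← mul_sum,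
      sum_range_sub' (fun i => Λ (l + 1 + (i + 1)))]
    have h2 : ∑ i ∈ range k, nn i ^ 2 * (mo.C * Real.exp (-x i)) +
        ∑ i ∈ range k, nn i ^ 2 * (2 * (Lg * Real.exp (-x i))) ≤ k / 100 := by
      rw [← sum_add_distrib]
      calc _ ≤ ∑ _i ∈ range k, (1 / 100 : ℝ) := by
            refine sum_le_sum fun i hi => ?_
            refine le_trans (le_of_eq ?_) (small_bound C₁ B (μ i) e (nn i) k hC₁ hB0
              (by linarith [hμ i]) (by linarith) (by linarith) (hnne i (mem_range.1 hi)) (hnn0 i))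
            rw [hB]; simp only [x]; ring
        _ = _ := by rw [sum_const, card_range, nsmul_eq_mul]; ring
    have h3 : 100 * C₁ * n₀ / e * (Λ (l + 1 + (0 + 1)) - Λ (l + 1 + (k + 1))) ≤ k / 100 := by
      have h4 : Λ (l + 1 + (0 + 1)) - Λ (l + 1 + (k + 1)) ≤ c₀ := by
        linarith [hΛc (l + 1 + (0 + 1)), hΛ0 (l + 1 + (k + 1))]
      refine (mul_le_mul_of_nonneg_left h4 (by positivity)).trans ?_
      rw [div_mul_eq_mul_div, div_le_div_iff₀ (by positivity) (by norm_num), hkr]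
      have h5 : 10000 * C₁ * c₀ ≤ n₀ := by linarith
      have h6 : n₀ ^ 2 ≤ n₀ ^ 2 * e := le_mul_of_one_le_right (by positivity) (by linarith)
      nlinarith
    linarith

end Crest.Agent.R133
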