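import Crest.Agent.R133.Defs

/-!
# Row 133: auxiliary lemmas for the chart data
-/

set_option autoImplicit false

namespace Crest.Agent.R133.Man

open MeasureTheory Set Metric Filter
open scoped Manifold ContDiff Topology ENNReal

/-- uniform second order bounds -/
theorem unif_C2 {d : ℕ} {F : Type*} [NormedAddCommGroup F] [NormedSpace ℝ F] {R O K : Set (E d)}
    (hR : IsClosed R) (hu : UniqueDiffOn ℝ R) (hO : IsOpen O) {f : E d → F}
    (hf : ContDiffOn ℝ ∞ f (R ∩ O)) (hK : IsCompact K) (hKO : K ⊆ O) :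
    ∀ᶠ C : ℝ in atTop, ∀ ρ : ℝ, 0 < ρ → C * ρ ≤ 1 → ∀ y₀ ∈ K, ball y₀ ρ ⊆ R →
      ball y₀ ρ ⊆ O ∧ ‖fderiv ℝ f y₀‖ ≤ C ∧ ∀ y ∈ ball y₀ ρ, ∀ y' ∈ ball y₀ ρ,
        ‖f y - f y' - fderiv ℝ f y₀ (y - y')‖ ≤ C * ρ * ‖y - y'‖ := by
  obtain ⟨ρ₀, h0, hsub⟩ := hK.exists_cthickening_subset_open hO hKO
  have hK1 : IsCompact (cthickening ρ₀ K ∩ R) := hK.cthickening.inter_right hR
  have hK1D : cthickening ρ₀ K ∩ R ⊆ R ∩ O := fun y hy => ⟨hy.2, hsub hy.1⟩
  have huD : UniqueDiffOn ℝ (R ∩ O) := hu.inter hO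
  have hg : ContDiffOn ℝ 1 (fderivWithin ℝ f (R ∩ O)) (R ∩ O) :=
    hf.fderivWithin huD (WithTop.coe_le_coe.2 (le_top : ((1 + 1 : ℕ∞)) ≤ ⊤))
  have hg' : ContinuousOn (fderivWithin ℝ (fderivWithin ℝ f (R ∩ O)) (R ∩ O)) (R ∩ O) :=
    hg.continuousOn_fderivWithin huD le_rfl
  obtain ⟨L1, hL1⟩ := hK1.exists_bound_of_continuousOn (hg.continuousOn.mono hK1D)
  obtain ⟨L2, hL2⟩ := hK1.exists_bound_of_continuousOn
    (f := fderivWithin ℝ (fderivWithin ℝ f (R ∩ O)) (R ∩ O)) (hg'.mono hK1D)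
  filter_upwards [eventually_ge_atTop L1, eventually_ge_atTop L2, eventually_ge_atTop (1 / ρ₀),
    eventually_ge_atTop 0] with C c1 c2 c3 c4 ρ hρ hC y₀ hy₀ hB
  have hρ0 : ρ ≤ ρ₀ := by
    rw [div_le_iff₀ h0] at c3
    by_contra hcon
    push Not at hcon
    have : 0 < C := by
      rcases c4.lt_or_eq with h | h
      · exact h
      · rw [← h] at c3; linarith
    nlinarith
  have hB1 : ball y₀ ρ ⊆ cthickening ρ₀ K ∩ R := fun y hy =>
    ⟨mem_cthickening_of_dist_le y y₀ ρ₀ K hy₀ ((mem_ball.1 hy).le.trans hρ0), hB hy⟩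
  have hn : ∀ y ∈ ball y₀ ρ, R ∩ O ∈ 𝓝 y := fun y hy =>
    mem_of_superset (isOpen_ball.mem_nhds hy) (hB1.trans hK1D)
  have d1 : ∀ y ∈ ball y₀ ρ, HasFDerivAt f (fderivWithin ℝ f (R ∩ O) y) y := fun y hy =>
    ((hf.differentiableOn (by simp) y (hK1D (hB1 hy))).hasFDerivWithinAt).hasFDerivAt (hn y hy)
  have d2 : ∀ y ∈ ball y₀ ρ, HasFDerivAt (fderivWithin ℝ f (R ∩ O))
      (fderivWithin ℝ (fderivWithin ℝ f (R ∩ O)) (R ∩ O) y) y := fun y hy =>
    ((hg.differentiableOn (by simp) y (hK1D (hB1 hy))).hasFDerivWithinAt).hasFDerivAt (hn y hy)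
  have hc : y₀ ∈ ball y₀ ρ := mem_ball_self hρ
  rw [(d1 y₀ hc).fderiv]
  refine ⟨fun y hy => (hK1D (hB1 hy)).2, (hL1 y₀ (hB1 hc)).trans c1, fun y hy y' hy' => ?_⟩
  refine (convex_ball y₀ ρ).norm_image_sub_le_of_norm_hasFDerivWithin_le'
    (fun z hz => (d1 z hz).hasFDerivWithinAt) (fun z hz => ?_) hy' hy
  refine ((convex_ball y₀ ρ).norm_image_sub_le_of_norm_hasFDerivWithin_le
    (fun z hz => (d2 z hz).hasFDerivWithinAt) (fun z hz => (hL2 z (hB1 hz)).trans c2) hc hz).trans ?_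
  rw [← dist_eq_norm]
  exact mul_le_mul_of_nonneg_left (mem_ball.1 hz).le c4

/-- volume of a boundary layer of a convex set -/
theorem layer {d : ℕ} {R : Set (E d)} (hR : IsClosed R) (hc : Convex ℝ R)
    (hi : (interior R).Nonempty) (z : E d) (r : ℝ) :
    ∃ C : ℝ, 0 ≤ C ∧ ∀ ρ : ℝ, 0 < ρ →
      volume (ball z r ∩ R ∩ {y | ¬ ball y ρ ⊆ R}) ≤ ENNReal.ofReal (C * ρ) := by
  obtain ⟨z₀, hz₀⟩ := hi
  obtain ⟨r₀, h0, hb⟩ := Metric.mem_nhds_iff.1 (mem_interior_iff_mem_nhds.1 hz₀)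
  set B : Set (E d) := closedBall z₀ (dist z z₀ + |r|) ∩ R with hB
  have hBc : IsCompact B := (isCompact_closedBall _ _).inter_right hR
  have hBv : Convex ℝ B := (convex_closedBall _ _).inter hc
  have hz₀B : z₀ ∈ B := ⟨mem_closedBall_self (by positivity), hb (mem_ball_self h0)⟩
  have hsub : ball z r ∩ R ⊆ B := fun y hy => ⟨by
    have := mem_ball.1 hy.1
    have h2 := dist_triangle y z z₀
    have := le_abs_self r
    rw [mem_closedBall]; linarith, hy.2⟩
  have hv : volume B = ENNReal.ofReal (volume.real B) :=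
    (ENNReal.ofReal_toReal hBc.measure_lt_top.ne).symm
  have hv0 : 0 ≤ volume.real B := measureReal_nonneg
  refine ⟨(d + 1) * volume.real B / r₀, by positivity, fun ρ hρ => ?_⟩
  rcases le_or_gt r₀ ρ with h | h
  · refine (measure_mono (inter_subset_left.trans hsub)).trans ?_
    rw [hv]
    refine ENNReal.ofReal_le_ofReal ?_
    rw [div_mul_eq_mul_div, le_div_iff₀ h0]
    have : (0 : ℝ) ≤ d := Nat.cast_nonneg d
    nlinarith [mul_le_mul_of_nonneg_left h hv0, mul_nonneg (mul_nonneg this hv0) hρ.le]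
  · set t := ρ / r₀ with ht
    have t0 : 0 < t := by positivity
    have t1 : t < 1 := (div_lt_one h0).2 h
    have hρt : ρ = t * r₀ := by rw [ht]; field_simp
    have e : ∀ w : E d, AffineMap.homothety z₀ (1 - t) w = (1 - t) • w + t • z₀ := fun w => by
      rw [AffineMap.homothety_apply, vsub_eq_sub, vadd_eq_add, smul_sub, sub_smul, sub_smul]
      simp only [one_smul]
      abel
    have h1 : AffineMap.homothety z₀ (1 - t) '' B ⊆ B := by
      rintro _ ⟨w, hw, rfl⟩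
      rw [e]
      exact hBv hw hz₀B (by linarith) t0.le (by ring)
    have h2 : ball z r ∩ R ∩ {y | ¬ ball y ρ ⊆ R} ⊆ B \ AffineMap.homothety z₀ (1 - t) '' B := by
      rintro y ⟨hy, hy2⟩
      refine ⟨hsub hy, ?_⟩
      rintro ⟨w, hw, rfl⟩
      refine hy2 fun u hu => ?_
      rw [e, mem_ball, dist_eq_norm] at hu
      have h3 : z₀ + t⁻¹ • (u - ((1 - t) • w + t • z₀)) ∈ R := by
        refine hb ?_
        rw [mem_ball, dist_eq_norm, add_sub_cancel_left, norm_smul, norm_inv,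
          Real.norm_of_nonneg t0.le, inv_mul_lt_iff₀ t0]
        linarith
      have h4 := hc hw.2 h3 (show 0 ≤ 1 - t by linarith) t0.le (by ring)
      rw [smul_add, smul_smul, mul_inv_cancel₀ t0.ne', one_smul] at h4
      convert h4 using 1
      abel
    have hm : MeasurableSet (AffineMap.homothety z₀ (1 - t) '' B) :=
      (hBc.image (AffineMap.homothety_continuous _ _)).measurableSet
    refine (measure_mono h2).trans ?_
    rw [measure_sdiff h1 hm.nullMeasurableSet (measure_mono h1 |>.trans_lt hBc.measure_lt_top).ne,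
      Measure.addHaar_image_homothety, hv, ← ENNReal.ofReal_mul (abs_nonneg _),
      ← ENNReal.ofReal_sub _ (by positivity)]
    refine ENNReal.ofReal_le_ofReal ?_
    have h5 := one_add_mul_le_pow (a := -t) (by linarith) d
    rw [finrank_euclideanSpace_fin, abs_of_nonneg (pow_nonneg (by linarith) _), hρt]
    have h6 : (d + 1) * volume.real B / r₀ * (t * r₀) = (d + 1) * t * volume.real B := by
      field_simp
    rw [h6, ← sub_eq_add_neg] at *
    nlinarith [mul_le_mul_of_nonneg_right h5 hv0, mul_nonneg t0.le hv0]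

theorem meas_sel {α β ι : Type*} [MeasurableSpace α] [MeasurableSpace β] [MeasurableSpace ι]
    [Countable ι] [MeasurableSingletonClass ι] {c : α → ι} (hc : Measurable c) {G : ι → α → β}
    (hG : ∀ i, Measurable (G i)) : Measurable fun x => G (c x) x :=
  (measurable_from_prod_countable_left (f := fun p : α × ι => G p.2 p.1) hG).comp
    (measurable_id.prodMk hc)

theorem act_clm {d : ℕ} (T : E d →L[ℝ] E d) (v : E d) :
    act (Matrix.of fun a b => T (EuclideanSpace.single b 1) a) v = T v := by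
  ext a
  conv_rhs => rw [← (EuclideanSpace.basisFun (Fin d) ℝ).sum_repr v]
  simp [act, Matrix.mulVec, dotProduct, mul_comm]

theorem isClosed_ball_sub {d : ℕ} (W : Set (E d)) (ρ : ℝ) : IsClosed {y : E d | ball y ρ ⊆ W} := by
  have : {y : E d | ball y ρ ⊆ W} = ⋂ w ∈ Wᶜ, (ball w ρ)ᶜ := by
    ext y
    simp only [mem_ofPred_eq, mem_iInter, mem_compl_iff, mem_ball]
    exact ⟨fun h w hw hd => hw (h (by rwa [mem_ball, dist_comm])),
      fun h w hw => by_contra fun hn => h w hn (by rwa [mem_ball, dist_comm] at hw)⟩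
  rw [this]
  exact isClosed_biInter fun w _ => isOpen_ball.isClosed_compl

end Crest.Agent.R133.Man
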