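import Crest.Agent.R133.Defs
import Crest.Agent.R133.Man_Aux

/-!
# Row 133: chart data from a compact manifold

PLAN.  For `p ∈ M` let `e_p = extChartAt I p`, `z_p = e_p p`; choose `r_p > 0` with
`K_p = closedBall z_p (3 r_p) ∩ range I ⊆ e_p.target` (compact; `range I` is closed, convex
`I.convex_range`, with nonempty interior).  `V_p = e_p.source ∩ e_p ⁻¹' ball z_p r_p` is an open
neighbourhood of `p`; take a finite subcover indexed by `Fin N`, `c x` = least `i` with `x ∈ V_i`.
`W i = ball z_i (2 r_i) ∩ interior (range I)`, `φ i` = `e_i` on the source (else `0`),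
`ψ i` = `e_i.symm` on `W i` (else a default point) (`ContinuousOn.measurable_piecewise`),
`U i = e_i.source ∩ e_i ⁻¹' W i`, `good ρ = {x | x ∈ U (c x) ∧ ball (φ (c x) x) ρ ⊆ W (c x)}`
(`{y | ball y ρ ⊆ W}` is closed).
* density bounds: the density of the chart `chartAt H p ∈ atlas` is continuous and positive on
  the compact `K_p`.
* `good_le`: for `ρ ≤ r_i` a point `x ∈ V_i` is good as soon as `ball (e_i x) ρ ⊆ range I`;
  the volume of `{y ∈ B ∩ range I | ¬ ball y ρ ⊆ range I}` is `≤ C ρ`: take `closedBall z₀ r₀ ⊆ range I`,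
  `B' = closedBall z₀ R ∩ range I ⊇ B ∩ range I` (convex); the homothety of ratio `1 - t` about
  `z₀` maps `B'` into points `y ∈ B'` with `ball y (t r₀) ⊆ range I`, and has volume
  `(1-t)^d vol B'` (`addHaar_image_homothety`), `1 - (1-t)^d ≤ d t`.  For `C ρ ≥ 1` trivial.
* uniform `C²` bounds (one lemma used for `F_ij = e_j ∘ S ∘ e_i.symm` and for `g ∘ e_i.symm`):
  if `f` is `ContDiffOn ℝ ∞` on `D = range I ∩ O` (`O` open) and `K₀ ⊆ D` is compact, there are
  `ρ₀ > 0`, `L` with: for `y₀ ∈ K₀`, `ρ ≤ ρ₀`, `ball y₀ ρ ⊆ range I`: `ball y₀ ρ ⊆ D`,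
  `‖fderiv f y₀‖ ≤ L`, `‖f y - f y' - fderiv f y₀ (y - y')‖ ≤ L ρ ‖y - y'‖` on the ball
  (bound `fderivWithin` and its derivative on the compact `cthickening ρ₀ K₀ ∩ range I ⊆ D`, mean
  value inequality on the convex ball).  For `F_ij` take
  `K₀ = {y ∈ closedBall z_i r_i ∩ range I | S (e_i.symm y) ∈ e_j.symm '' (closedBall z_j r_j ∩ range I)}`.
  To get `ψ j (φ j (S (ψ i y))) = S (ψ i y)` it is convenient to define `ψ j` as `e_j.symm` on all
  of `e_j.target` (measurable set).
* `A x` = matrix of `fderiv ℝ (φ j ∘ S ∘ ψ i) (φ i x)` (`i = c x`, `j = c (S x)`) if its norm is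
  `≤ C`, else `0` (`measurable_fderiv`).
* `approx`: inner regularity (compact `K₁ ⊆ Z`, `K₀ ⊆ Zᶜ`; `M` is second countable, metrizable)
  and a smooth function equal to `0` on `K₀`, `1` on `K₁` (`exists_contMDiffMap_zero_one_of_isClosed`
  or similar).
-/

set_option autoImplicit false

namespace Crest.Agent.R133

open MeasureTheory Crest.AnalysisR Set Metric Filter
open scoped Manifold ContDiff Topology ENNReal

namespace Man

variable {d : ℕ} {H : Type*} [TopologicalSpace H] (I : ModelWithCorners ℝ (E d) H)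
  {M : Type*} [TopologicalSpace M] [ChartedSpace H M]

open Classical in
/-- chart, extended by zero -/
noncomputable def ph (p : M) : M → E d := (extChartAt I p).source.piecewise (extChartAt I p) 0

open Classical in
/-- inverse chart, extended by a constant -/
noncomputable def ps (p : M) : E d → M :=
  (extChartAt I p).target.piecewise (extChartAt I p).symm fun _ => p

variable {I}

theorem ph_eq {p x : M} (h : x ∈ (extChartAt I p).source) : ph I p x = extChartAt I p x := by
  classical
  exact piecewise_eq_of_mem _ _ _ h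

theorem ps_eq {p : M} {y : E d} (h : y ∈ (extChartAt I p).target) :
    ps I p y = (extChartAt I p).symm y := by
  classical
  exact piecewise_eq_of_mem _ _ _ h

theorem ps_ph {p x : M} (h : x ∈ (extChartAt I p).source) : ps I p (ph I p x) = x := by
  rw [ph_eq h, ps_eq ((extChartAt I p).map_source h), (extChartAt I p).left_inv h]

theorem ph_ps {p : M} {y : E d} (h : y ∈ (extChartAt I p).target) : ph I p (ps I p y) = y := by
  rw [ps_eq h, ph_eq ((extChartAt I p).map_target h), (extChartAt I p).right_inv h]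

theorem meas_target (p : M) : MeasurableSet (extChartAt I p).target := by
  rw [extChartAt_target]
  exact ((chartAt H p).open_target.preimage I.continuous_symm).measurableSet.inter
    I.isClosed_range.measurableSet

theorem meas_ph [MeasurableSpace M] [BorelSpace M] (p : M) : Measurable (ph I p) := by
  classical
  exact (continuousOn_extChartAt p).measurable_piecewise continuousOn_const
    (isOpen_extChartAt_source p).measurableSet

theorem meas_ps [MeasurableSpace M] [BorelSpace M] (p : M) : Measurable (ps I p) := by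
  classical
  exact (continuousOn_extChartAt_symm p).measurable_piecewise continuousOn_const (meas_target p)

theorem exists_open (p : M) {s : Set M} (hs : IsOpen s) : ∃ O : Set (E d), IsOpen O ∧
    (extChartAt I p).target ∩ (extChartAt I p).symm ⁻¹' s = range I ∩ O := by
  refine ⟨I.symm ⁻¹' ((chartAt H p).target ∩ (chartAt H p).symm ⁻¹' s),
    ((chartAt H p).isOpen_inter_preimage_symm hs).preimage I.continuous_symm, ?_⟩
  rw [extChartAt_target]
  ext y
  simp only [mem_inter_iff, mem_preimage, extChartAt_coe_symm, Function.comp]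
  tauto

theorem exists_rad (p : M) : ∃ r : ℝ, 0 < r ∧
    closedBall (extChartAt I p p) (3 * r) ∩ range I ⊆ (extChartAt I p).target := by
  obtain ⟨ε, h0, h⟩ := Metric.mem_nhdsWithin_iff.1 (extChartAt_target_mem_nhdsWithin (I := I) p)
  refine ⟨ε / 4, by positivity, fun y hy => h ⟨?_, hy.2⟩⟩
  exact closedBall_subset_ball (by linarith) hy.1

theorem dens [MeasurableSpace M] [BorelSpace M] {ν : Measure M} (hν : HasSmoothPositiveDensity I ν)
    (p : M) {K : Set (E d)} (hK : IsCompact K) (hKt : K ⊆ (extChartAt I p).target) :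
    ∀ᶠ C : ℝ in atTop, ∀ T ⊆ K, MeasurableSet T →
      ν ((extChartAt I p).source ∩ extChartAt I p ⁻¹' T) ≤ ENNReal.ofReal C * volume T ∧
      volume T ≤ ENNReal.ofReal C * ν ((extChartAt I p).source ∩ extChartAt I p ⁻¹' T) := by
  obtain ⟨f, hf, hpos, hmap⟩ := hν _ (chart_mem_atlas H p)
  have et : I '' (chartAt H p).target = (extChartAt I p).target := by
    rw [extChartAt_target, I.image_eq]
  rw [et] at hf hpos hmap
  rw [← extChartAt_source I p] at hmap
  have hc : ContinuousOn f K := hf.continuousOn.mono hKt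
  obtain ⟨b, hb⟩ := hK.exists_bound_of_continuousOn hc
  obtain ⟨a, ha⟩ := hK.exists_bound_of_continuousOn (hc.inv₀ fun y hy => (hpos y (hKt hy)).ne')
  filter_upwards [eventually_ge_atTop a, eventually_ge_atTop b, eventually_ge_atTop 0]
    with C c1 c2 c0 T hT mT
  have key : ν ((extChartAt I p).source ∩ extChartAt I p ⁻¹' T) =
      ∫⁻ y in T, ENNReal.ofReal (f y) := by
    have h1 := congrArg (fun μ : Measure (E d) => μ T) hmap
    have hm : AEMeasurable (I ∘ chartAt H p) (ν.restrict (extChartAt I p).source) :=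
      (continuousOn_extChartAt p).aemeasurable (isOpen_extChartAt_source p).measurableSet
    rw [Measure.map_apply_of_aemeasurable hm mT,
      Measure.restrict_apply' (isOpen_extChartAt_source p).measurableSet,
      withDensity_apply _ mT, Measure.restrict_restrict mT,
      inter_eq_left.2 (hT.trans hKt), inter_comm] at h1
    exact h1
  rw [key]
  constructor
  · rw [← setLIntegral_const]
    refine setLIntegral_mono' mT fun y hy => ENNReal.ofReal_le_ofReal ?_
    exact ((le_abs_self _).trans (hb y (hT hy))).trans c2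
  · rw [← lintegral_const_mul' _ _ ENNReal.ofReal_ne_top, ← setLIntegral_one]
    refine setLIntegral_mono' mT fun y hy => ?_
    rw [← ENNReal.ofReal_mul c0, ENNReal.one_le_ofReal]
    have h1 := hpos y (hKt (hT hy))
    have h2 : (f y)⁻¹ ≤ C := ((le_abs_self _).trans (ha y (hT hy))).trans c1
    rwa [inv_le_iff_one_le_mul₀ h1] at h2

end Man

open Man

theorem exists_model {d : ℕ} {H : Type*} [TopologicalSpace H] (I : ModelWithCorners ℝ (E d) H)
    (M : Type*) [TopologicalSpace M] [T2Space M] [CompactSpace M] [ChartedSpace H M]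
    [IsManifold I ∞ M] [MeasurableSpace M] [BorelSpace M] (ν : Measure M) [IsProbabilityMeasure ν]
    (S : M → M) (hS : ContMDiff I I ∞ S) (hν : HasSmoothPositiveDensity I ν) :
    Nonempty (Model d ν S) := by
  classical
  choose r r0 hr using fun p : M => exists_rad (I := I) p
  have hVo : ∀ p : M, IsOpen ((extChartAt I p).source ∩
      extChartAt I p ⁻¹' ball (extChartAt I p p) (r p)) := fun p =>
    (continuousOn_extChartAt p).isOpen_inter_preimage (isOpen_extChartAt_source p) isOpen_ball
  obtain ⟨t, ht⟩ := isCompact_univ.elim_finite_subcover _ hVo fun p _ =>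
    mem_iUnion.2 ⟨p, mem_extChartAt_source p, mem_ball_self (r0 p)⟩
  -- enumeration of the charts
  let q : Fin t.card → M := fun i => t.equivFin.symm i
  let V : Fin t.card → Set M := fun i => (extChartAt I (q i)).source ∩
      extChartAt I (q i) ⁻¹' ball (extChartAt I (q i) (q i)) (r (q i))
  have hV : ∀ x, ∃ i, x ∈ V i := fun x => by
    obtain ⟨p, hp, hx⟩ := mem_iUnion₂.1 (ht (mem_univ x))
    exact ⟨t.equivFin ⟨p, hp⟩, by simpa [V, q] using hx⟩
  obtain ⟨c, hc, mc⟩ : ∃ c : M → Fin t.card, (∀ x, x ∈ V (c x)) ∧ Measurable c := by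
    have hV' : ∀ x, ∃ n : ℕ, ∃ h : n < t.card, x ∈ V ⟨n, h⟩ := fun x =>
      let ⟨i, hi⟩ := hV x; ⟨i.1, i.2, hi⟩
    refine ⟨fun x => ⟨Nat.find (hV' x), (Nat.find_spec (hV' x)).1⟩,
      fun x => (Nat.find_spec (hV' x)).2, ?_⟩
    have : Measurable fun x => Nat.find (hV' x) := measurable_find hV' fun n => by
      by_cases h : n < t.card
      · simp only [h, exists_true_left]
        exact (hVo _).measurableSet
      · simp [h]
    refine measurable_to_countable' fun i => ?_
    convert this (measurableSet_singleton i.1) using 1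
    ext x
    simp [Fin.ext_iff]
  have hR : IsClosed (range I) := I.isClosed_range
  let z : Fin t.card → E d := fun i => extChartAt I (q i) (q i)
  let W : Fin t.card → Set (E d) := fun i => ball (z i) (2 * r (q i)) ∩ interior (range I)
  let U : Fin t.card → Set M := fun i => (extChartAt I (q i)).source ∩ extChartAt I (q i) ⁻¹' W i
  have hWK : ∀ i, W i ⊆ closedBall (z i) (3 * r (q i)) ∩ range I := fun i y hy =>
    ⟨ball_subset_closedBall (ball_subset_ball (by linarith [r0 (q i)]) hy.1), interior_subset hy.2⟩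
  have hWt : ∀ i, W i ⊆ (extChartAt I (q i)).target := fun i => (hWK i).trans (hr _)
  have mW : ∀ i, MeasurableSet (W i) := fun i => (isOpen_ball.inter isOpen_interior).measurableSet
  have mU : ∀ i, MeasurableSet (U i) := fun i =>
    ((continuousOn_extChartAt _).isOpen_inter_preimage (isOpen_extChartAt_source _)
      (isOpen_ball.inter isOpen_interior)).measurableSet
  let K : Fin t.card → Set (E d) := fun i => closedBall (z i) (r (q i)) ∩ range I
  have hK : ∀ i, IsCompact (K i) := fun i => (isCompact_closedBall _ _).inter_right hR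
  have hKt : ∀ i, K i ⊆ (extChartAt I (q i)).target := fun i y hy =>
    hr _ ⟨closedBall_subset_closedBall (by linarith [r0 (q i)]) hy.1, hy.2⟩
  have hVK : ∀ x, extChartAt I (q (c x)) x ∈ K (c x) := fun x =>
    ⟨ball_subset_closedBall (hc x).2,
      extChartAt_target_subset_range _ ((extChartAt I _).map_source (hc x).1)⟩
  let good : ℝ → Set M := fun ρ => {x | x ∈ U (c x) ∧ ball (ph I (q (c x)) x) ρ ⊆ W (c x)}
  have mgood : ∀ ρ, MeasurableSet (good ρ) := fun ρ => by
    have : good ρ = ⋃ i, c ⁻¹' {i} ∩ (U i ∩ ph I (q i) ⁻¹' {y | ball y ρ ⊆ W i}) := by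
      ext x
      simp [good]
    rw [this]
    exact MeasurableSet.iUnion fun i => (mc (measurableSet_singleton i)).inter
      ((mU i).inter (meas_ph _ (isClosed_ball_sub _ _).measurableSet))
  have hgR : ∀ ρ x, x ∈ good ρ → ball (extChartAt I (q (c x)) x) ρ ⊆ range I := fun ρ x hx => by
    rw [← ph_eq (hc x).1]
    exact fun y hy => interior_subset (hx.2 hy).2
  -- eventual bounds
  have e1 : ∀ᶠ C : ℝ in atTop, ∀ i, ∀ y ∈ W i, ‖y‖ ≤ C := eventually_all.2 fun i => by
    filter_upwards [eventually_ge_atTop (‖z i‖ + 2 * r (q i))] with C hC y hy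
    exact (norm_le_of_mem_closedBall (ball_subset_closedBall hy.1)).trans hC
  have e2 := eventually_all.2 fun i => dens hν (q i)
    ((isCompact_closedBall (z i) (3 * r (q i))).inter_right hR) (hr (q i))
  have e3 : ∀ᶠ C : ℝ in atTop, ∀ ρ, 0 < ρ → ν (good ρ)ᶜ ≤ ENNReal.ofReal (C * ρ) := by
    obtain ⟨C0, hC0, c0⟩ := (e2.and (eventually_ge_atTop 0)).exists
    choose Cl l0 hl using fun i => layer hR I.convex_range I.nonempty_interior (z i) (r (q i))
    filter_upwards [eventually_ge_atTop (∑ i, C0 * Cl i),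
      eventually_all.2 fun i => eventually_ge_atTop (1 / r (q i))] with C c1 c2 ρ hρ
    by_cases h1 : 1 ≤ C * ρ
    · exact prob_le_one.trans (ENNReal.one_le_ofReal.2 h1)
    have hρr : ∀ i, ρ ≤ r (q i) := fun i => by
      have h2 := c2 i
      have h3 := r0 (q i)
      rw [div_le_iff₀ h3] at h2
      by_contra h4
      push Not at h4 h1
      have : 0 < C := by by_contra h5; push Not at h5; nlinarith
      nlinarith
    have hsub : (good ρ)ᶜ ⊆ ⋃ i, (extChartAt I (q i)).source ∩ extChartAt I (q i) ⁻¹'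
        (ball (z i) (r (q i)) ∩ range I ∩ {y | ¬ ball y ρ ⊆ range I}) := by
      intro x hx
      refine mem_iUnion.2 ⟨c x, (hc x).1, ⟨(hc x).2, (hVK x).2⟩, fun hb => hx ?_⟩
      have h2 : ball (extChartAt I (q (c x)) x) ρ ⊆ W (c x) := fun y hy =>
        ⟨by
          have a1 := mem_ball.1 hy
          have a2 := mem_ball.1 (hc x).2
          have a3 := dist_triangle y (extChartAt I (q (c x)) x) (z (c x))
          have := hρr (c x)
          rw [mem_ball]
          linarith, interior_maximal hb isOpen_ball hy⟩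
      exact ⟨⟨(hc x).1, h2 (mem_ball_self hρ)⟩, by rwa [ph_eq (hc x).1]⟩
    refine (measure_mono hsub).trans ((measure_iUnion_fintype_le _ _).trans ?_)
    refine le_trans (Finset.sum_le_sum (g := fun i => ENNReal.ofReal (C0 * Cl i * ρ))
      fun i _ => ?_) ?_
    · refine (hC0 i _ (fun y hy => ⟨ball_subset_closedBall (ball_subset_ball
        (by linarith [r0 (q i)]) hy.1.1), hy.1.2⟩) ?_).1.trans ?_
      · exact (measurableSet_ball.inter hR.measurableSet).inter
          (isClosed_ball_sub _ _).measurableSet.compl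
      · rw [mul_assoc, ENNReal.ofReal_mul c0]
        gcongr
        exact hl i ρ hρ
    · rw [← ENNReal.ofReal_sum_of_nonneg fun i _ => by have := l0 i; positivity, ← Finset.sum_mul]
      exact ENNReal.ofReal_le_ofReal (mul_le_mul_of_nonneg_right c1 hρ.le)
  let F : Fin t.card → Fin t.card → E d → E d := fun i j => ph I (q j) ∘ S ∘ ps I (q i)
  have e4 : ∀ᶠ C : ℝ in atTop, ∀ i j, ∀ ρ : ℝ, 0 < ρ → C * ρ ≤ 1 → ∀ x, c x = i → c (S x) = j →
      ball (extChartAt I (q i) x) ρ ⊆ range I →
      (∀ y ∈ ball (extChartAt I (q i) x) ρ, S (ps I (q i) y) ∈ (extChartAt I (q j)).source) ∧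
      ‖fderiv ℝ (F i j) (extChartAt I (q i) x)‖ ≤ C ∧
      ∀ y ∈ ball (extChartAt I (q i) x) ρ, ∀ y' ∈ ball (extChartAt I (q i) x) ρ,
        ‖F i j y - F i j y' - fderiv ℝ (F i j) (extChartAt I (q i) x) (y - y')‖ ≤
          C * ρ * ‖y - y'‖ := by
    refine eventually_all.2 fun i => eventually_all.2 fun j => ?_
    obtain ⟨O, hO, eO⟩ := exists_open (I := I) (q i)
      ((isOpen_extChartAt_source (I := I) (q j)).preimage hS.continuous)
    have hF : ContDiffOn ℝ ∞ (F i j) (range I ∩ O) := by
      rw [← eO]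
      refine ((contMDiff_iff.1 hS).2 (q i) (q j)).congr fun y hy => ?_
      simp only [F, Function.comp]
      rw [ps_eq hy.1, ph_eq hy.2]
    have hKb : ∀ i, IsCompact ((extChartAt I (q i)).symm '' K i) := fun i =>
      (hK i).image_of_continuousOn ((continuousOn_extChartAt_symm _).mono (hKt i))
    have hKs : ∀ i, (extChartAt I (q i)).symm '' K i ⊆ (extChartAt I (q i)).source := by
      rintro i _ ⟨y, hy, rfl⟩
      exact (extChartAt I (q i)).map_target (hKt i hy)
    have hK0 : IsCompact (extChartAt I (q i) '' ((extChartAt I (q i)).symm '' K i ∩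
        S ⁻¹' ((extChartAt I (q j)).symm '' K j))) :=
      ((hKb i).inter_right ((hKb j).isClosed.preimage hS.continuous)).image_of_continuousOn
        ((continuousOn_extChartAt _).mono (inter_subset_left.trans (hKs i)))
    have hK0O : extChartAt I (q i) '' ((extChartAt I (q i)).symm '' K i ∩
        S ⁻¹' ((extChartAt I (q j)).symm '' K j)) ⊆ O := by
      rintro _ ⟨x, ⟨h1, h2⟩, rfl⟩
      have : extChartAt I (q i) x ∈ range I ∩ O := by
        rw [← eO]
        refine ⟨(extChartAt I (q i)).map_source (hKs i h1), ?_⟩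
        rw [mem_preimage, (extChartAt I (q i)).left_inv (hKs i h1)]
        exact hKs j h2
      exact this.2
    filter_upwards [unif_C2 hR I.uniqueDiffOn hO hF hK0 hK0O] with C hC ρ hρ h1 x hi hj hb
    subst hi hj
    obtain ⟨a1, a2, a3⟩ := hC ρ hρ h1 _ ⟨x, ⟨⟨_, hVK x, (extChartAt I _).left_inv (hc x).1⟩,
      ⟨_, hVK (S x), (extChartAt I _).left_inv (hc (S x)).1⟩⟩, rfl⟩ hb
    refine ⟨fun y hy => ?_, a2, a3⟩
    have : y ∈ range I ∩ O := ⟨hb hy, a1 hy⟩
    rw [← eO] at this
    rw [ps_eq this.1]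
    exact this.2
  obtain ⟨C, ⟨⟨⟨c1, c2⟩, c3⟩, c4⟩, c5⟩ :=
    ((((e1.and e2).and e3).and e4).and (eventually_ge_atTop 1)).exists
  let B : M → E d →L[ℝ] E d := fun x => fderiv ℝ (F (c x) (c (S x))) (ph I (q (c x)) x)
  have mB : Measurable B :=
    meas_sel (c := fun x => (c x, c (S x))) (mc.prodMk (mc.comp hS.continuous.measurable))
      (G := fun ij x => fderiv ℝ (F ij.1 ij.2) (ph I (q ij.1) x))
      fun ij => (measurable_fderiv ℝ _).comp (meas_ph _)
  let B' : M → E d →L[ℝ] E d := fun x => if ‖B x‖ ≤ C then B x else 0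
  have mB' : Measurable B' :=
    Measurable.ite (measurableSet_le mB.norm measurable_const) mB measurable_const
  have hZU : ∀ i Z, Z ∩ U i = (extChartAt I (q i)).source ∩
      extChartAt I (q i) ⁻¹' (W i ∩ ps I (q i) ⁻¹' Z) := fun i Z => by
    ext x
    constructor
    · rintro ⟨h1, h2, h3⟩
      refine ⟨h2, h3, ?_⟩
      rwa [mem_preimage, ← ph_eq h2, ps_ph h2]
    · rintro ⟨h2, h3, h1⟩
      rw [mem_preimage, ← ph_eq h2, ps_ph h2] at h1
      exact ⟨h1, h2, h3⟩
  refine ⟨{
    N := t.card
    φ := fun i => ph I (q i)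
    ψ := fun i => ps I (q i)
    W := W
    U := U
    c := c
    A := fun x => Matrix.of fun a b => B' x (EuclideanSpace.single b 1) a
    C := C
    good := good
    one_le := c5
    mφ := fun i => meas_ph _
    mψ := fun i => meas_ps _
    mW := mW
    mU := mU
    mc := mc
    mA := fun a b => ?_
    mgood := mgood
    W_bdd := c1
    φψ := fun i y hy => ph_ps (hWt i hy)
    hU := fun i => ?_
    up := fun i Z hZ => ?_
    low := fun i Z hZ => ?_
    hgood := fun ρ x hx => hx
    good_le := c3
    A_bd := fun x v => ?_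
    dyn := fun ρ hρ h1 x hx y hy => ?_
    approx := fun Z hZ δ hδ => ?_ }⟩
  · have : Continuous fun T : E d →L[ℝ] E d => T (EuclideanSpace.single b 1) a := by fun_prop
    exact this.measurable.comp mB'
  · ext x
    constructor
    · rintro ⟨h1, h2⟩
      exact ⟨_, h2, by rw [← ph_eq h1, ps_ph h1]⟩
    · rintro ⟨y, hy, rfl⟩
      rw [ps_eq (hWt i hy)]
      refine ⟨(extChartAt I _).map_target (hWt i hy), ?_⟩
      rwa [mem_preimage, (extChartAt I _).right_inv (hWt i hy)]
  · rw [hZU]
    exact (c2 i _ (inter_subset_left.trans (hWK i)) ((mW i).inter (meas_ps _ hZ))).1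
  · rw [hZU]
    exact (c2 i _ (inter_subset_left.trans (hWK i)) ((mW i).inter (meas_ps _ hZ))).2
  · rw [act_clm]
    refine (ContinuousLinearMap.le_opNorm _ _).trans (mul_le_mul_of_nonneg_right ?_ (norm_nonneg _))
    simp only [B']
    split_ifs with h
    · exact h
    · rw [norm_zero]; linarith
  · obtain ⟨a1, a2, a3⟩ := c4 _ _ ρ hρ h1 x rfl rfl (hgR ρ x hx)
    rw [← ph_eq (hc x).1] at a1 a2 a3
    refine ⟨ps_ph (a1 y hy), fun y' hy' => ?_⟩
    rw [act_clm]
    have : B' x = B x := if_pos a2
    rw [this]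
    exact a3 y hy y' hy'
  · have := Manifold.metrizableSpace I M
    have hδ' : ENNReal.ofReal (δ / 2) ≠ 0 := by simpa using hδ
    obtain ⟨K1, s1, k1, m1⟩ := hZ.exists_isClosed_sdiff_lt (μ := ν) (measure_ne_top _ _) hδ'
    obtain ⟨K0, s0, k0, m0⟩ := hZ.compl.exists_isClosed_sdiff_lt (μ := ν) (measure_ne_top _ _) hδ'
    obtain ⟨g, g0, g1, -⟩ := exists_contMDiffMap_zero_one_of_isClosed I (n := ⊤) k0 k1
      (disjoint_compl_left.mono s0 s1)
    have e5 : ∀ᶠ L : ℝ in atTop, ∀ i, ∀ ρ : ℝ, 0 < ρ → L * ρ ≤ 1 → ∀ y₀ ∈ K i,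
        ball y₀ ρ ⊆ range I → ‖fderiv ℝ (g ∘ ps I (q i)) y₀‖ ≤ L ∧ ∀ y ∈ ball y₀ ρ,
          ‖g (ps I (q i) y) - g (ps I (q i) y₀) - fderiv ℝ (g ∘ ps I (q i)) y₀ (y - y₀)‖ ≤
            L * ρ * ‖y - y₀‖ := by
      refine eventually_all.2 fun i => ?_
      obtain ⟨O, hO, eO⟩ := exists_open (I := I) (q i) isOpen_univ
      rw [preimage_univ, inter_univ] at eO
      have hG : ContDiffOn ℝ ∞ (g ∘ ps I (q i)) (range I ∩ O) := by
        rw [← eO]
        have h1 := (contMDiff_iff.1 g.contMDiff).2 (q i) 0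
        simp only [extChartAt_model_space_eq_id, PartialEquiv.refl_source, preimage_univ,
          inter_univ, PartialEquiv.refl_coe, Function.id_comp] at h1
        refine h1.congr fun y hy => ?_
        simp only [Function.comp]
        rw [ps_eq hy]
      filter_upwards [unif_C2 hR I.uniqueDiffOn hO hG (hK i)
        fun y hy => (eO ▸ hKt i hy : y ∈ range I ∩ O).2] with L hL ρ hρ h1 y₀ hy₀ hb
      obtain ⟨-, a2, a3⟩ := hL ρ hρ h1 y₀ hy₀ hb
      exact ⟨a2, fun y hy => a3 y hy y₀ (mem_ball_self hρ)⟩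
    obtain ⟨L, hL, l1⟩ := (e5.and (eventually_ge_atTop 1)).exists
    refine ⟨g, 2 * L, g.contMDiff.continuous.measurable, by linarith, ?_,
      fun ρ hρ h1 x hx y hy => ?_⟩
    · have hsub : {x | g x ≠ Z.indicator 1 x} ⊆ (Z \ K1) ∪ (Zᶜ \ K0) := by
        intro x hx
        by_cases h : x ∈ Z
        · exact Or.inl ⟨h, fun h' => hx (by rw [g1 h', indicator_of_mem h])⟩
        · exact Or.inr ⟨h, fun h' => hx (by rw [g0 h', indicator_of_notMem h]; rfl)⟩
      refine (measure_mono hsub).trans ((measure_union_le _ _).trans ?_)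
      refine (add_le_add m1.le m0.le).trans ?_
      rw [← ENNReal.ofReal_add (by positivity) (by positivity), add_halves]
    · obtain ⟨a2, a3⟩ := hL (c x) ρ hρ (by nlinarith) _ (hVK x) (hgR ρ x hx)
      rw [← ph_eq (hc x).1] at a2 a3
      have a4 := a3 y hy
      rw [ps_ph (hc x).1] at a4
      have a5 : ‖y - ph I (q (c x)) x‖ ≤ ρ := by rw [← dist_eq_norm]; exact (mem_ball.1 hy).le
      have a6 := (ContinuousLinearMap.le_opNorm (fderiv ℝ (g ∘ ps I (q (c x))) (ph I (q (c x)) x))
        (y - ph I (q (c x)) x)).trans (mul_le_mul a2 a5 (norm_nonneg _) (by linarith))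
      have a7 := norm_sub_norm_le (g (ps I (q (c x)) y) - g x)
        (fderiv ℝ (g ∘ ps I (q (c x))) (ph I (q (c x)) x) (y - ph I (q (c x)) x))
      have a8 : L * ρ * ‖y - ph I (q (c x)) x‖ ≤ L * ρ :=
        mul_le_of_le_one_right (by positivity) (a5.trans (by nlinarith))
      rw [← Real.norm_eq_abs]
      linarith

end Crest.Agent.R133
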