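import Crest.Agent.R133.TowerBasic

/-!
# Row 133: construction of the symbolic system

PLAN.  `X := ∀ a : ℤ × ℕ, Fin (D.Q a.2) × Fin (D.n a.2)` (compact metrizable, Borel = product
σ-algebra, standard Borel), `T` = shift in the `ℤ` coordinate (`(T x) (i,l) = x (i+1,l)`),
`s l x = (x (0,l)).1`, `p l x = (x (0,l)).2`.
For a level `L` define the projections `proj L l : Fin (Q L) × Fin (n L) → Fin (Q l) × Fin (n l)`
for `l ≤ L` (iterate `(s,p) ↦ (θ s (p / n), p % n)`; arbitrary value for `l > L`), the periodic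
point `Φ L (s,p) := fun (i,l) => proj L l (s, (p+i) mod n L)` and `μ L := (uniform).map (Φ L)`.
`μ L` is exactly shift invariant, and for `l < L` (resp. `l ≤ L`) it satisfies `proj`, `law`
(one-step projection pushes uniform to uniform by `D.unif`), `step`.
Take a limit `μ` of `μ L` along an ultrafilter `≤ atTop` in the compact space
`ProbabilityMeasure X` (instance in `Mathlib/MeasureTheory/Measure/Prokhorov.lean`); measures of
clopen sets converge (`ProbabilityMeasure.tendsto_measure_of_isClopen_of_tendsto` or the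
null-frontier version); shift invariance by continuity of `ProbabilityMeasure.map`.
`Gen`: the measurable sets `A` satisfying the conclusion form a σ-algebra (use
`MeasurableSpace.generateFrom_induction` / `induction_on_inter`, continuity of measure for
countable unions); the conclusion for level `l` implies it for `l+1` by `proj`; the generating
sets `{x | x (i,l) = v}` are approximable since a.e. `x (i,l) = proj L l (s L x, p L x + i)`
unless `p L x + i ∉ [0, n L)`, which has measure `≤ |i| / n L` (use `Tower.ae_iter`, shift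
invariance for negative `i`, `Tower.measure_p`; `n L ≥ 2^L`).
-/

set_option autoImplicit false

namespace Crest.Agent.R133

open MeasureTheory Filter Topology
open scoped ENNReal

namespace SysC

variable (D : Design)

/-- level-`l` states -/
abbrev St (l : ℕ) := Fin (D.Q l) × Fin (D.n l)

/-- the default state -/
def dflt (l : ℕ) : St D l := (⟨0, by have := D.Q_ge l; omega⟩, ⟨0, D.n_pos l⟩)

/-- one-step projection -/
def pi1 (l : ℕ) (v : St D (l + 1)) : St D l :=
  (D.θ l v.1 (v.2.val / D.n l), ⟨v.2.val % D.n l, Nat.mod_lt _ (D.n_pos l)⟩)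

/-- projections to all lower levels -/
def proj : ∀ L, St D L → ∀ l, St D l
  | 0, y => Function.update (dflt D) 0 y
  | L + 1, y => Function.update (proj L (pi1 D L y)) (L + 1) y

theorem proj_self (L : ℕ) (y : St D L) : proj D L y L = y := by
  cases L <;> simp [proj]

theorem proj_succ (L : ℕ) (y : St D (L + 1)) (l : ℕ) (h : l ≤ L) :
    proj D (L + 1) y l = proj D L (pi1 D L y) l := by
  simp only [proj]
  rw [Function.update_of_ne (by omega)]

theorem proj_pi1 (L : ℕ) (y : St D L) (l : ℕ) (h : l + 1 ≤ L) :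
    proj D L y l = pi1 D l (proj D L y (l + 1)) := by
  induction L with
  | zero => omega
  | succ L ih =>
    rcases Nat.lt_or_ge (l + 1) (L + 1) with h1 | h1
    · rw [proj_succ D L y l (by omega), proj_succ D L y (l + 1) (by omega), ih _ (by omega)]
    · obtain rfl : l = L := by omega
      rw [proj_succ D l y l le_rfl, proj_self, proj_self]

/-- a consistent family is given by the projections -/
theorem eq_proj (f : ∀ l, St D l) (hf : ∀ l, f l = pi1 D l (f (l + 1))) (L l : ℕ) (h : l ≤ L) :
    f l = proj D L (f L) l := by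
  induction L with
  | zero =>
    obtain rfl : l = 0 := by omega
    rw [proj_self]
  | succ L ih =>
    rcases Nat.lt_or_ge l (L + 1) with h1 | h1
    · rw [proj_succ D L _ l (by omega), ← hf L, ih (by omega)]
    · obtain rfl : l = L + 1 := by omega
      rw [proj_self]

/-- the step relation -/
def Step (l : ℕ) (v v' : St D l) : Prop :=
  v'.2.val = (v.2.val + 1) % D.n l ∧ (v.2.val + 1 < D.n l → v'.1 = v.1)

theorem Step.pi1 {l : ℕ} {v v' : St D (l + 1)} (h : Step D (l + 1) v v') :
    Step D l (pi1 D l v) (pi1 D l v') := by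
  obtain ⟨h1, h2⟩ := h
  have hn := D.n_pos l
  have hs := D.n_succ l
  have hv : v.2.val < D.M l * D.n l := hs ▸ v.2.2
  constructor
  · simp only [SysC.pi1]
    rw [h1, Nat.mod_mod_of_dvd _ ⟨D.M l, hs.trans (mul_comm _ _)⟩, Nat.mod_add_mod]
  · simp only [SysC.pi1]
    intro h3
    have e := Nat.div_add_mod v.2.val (D.n l)
    have hq : v.2.val / D.n l < D.M l := (Nat.div_lt_iff_lt_mul hn).2 hv
    have h4 : v.2.val + 1 < D.n (l + 1) := by
      have : D.n l * (v.2.val / D.n l + 1) ≤ D.n l * D.M l := Nat.mul_le_mul_left _ hq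
      rw [mul_add, mul_one, mul_comm _ (D.M l)] at this
      omega
    rw [h2 h4, h1, Nat.mod_eq_of_lt h4]
    congr 1
    rw [Nat.div_eq_iff hn]
    rw [mul_comm] at e
    omega

theorem Step.proj {L : ℕ} {y y' : St D L} (h : Step D L y y') (l : ℕ) (hl : l ≤ L) :
    Step D l (proj D L y l) (proj D L y' l) := by
  induction L with
  | zero =>
    obtain rfl : l = 0 := by omega
    rwa [proj_self, proj_self]
  | succ L ih =>
    rcases Nat.lt_or_ge l (L + 1) with h1 | h1
    · rw [proj_succ D L _ l (by omega), proj_succ D L _ l (by omega)]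
      exact ih h.pi1 (by omega)
    · obtain rfl : l = L + 1 := by omega
      rwa [proj_self, proj_self]

/-- rotation of the position -/
def rot (L : ℕ) : Equiv.Perm (St D L) := Equiv.prodCongr (Equiv.refl _) (finRotate _)

theorem step_rot (L : ℕ) (y : St D L) : Step D L y (rot D L y) := by
  refine ⟨?_, fun _ => rfl⟩
  have : NeZero (D.n L) := ⟨(D.n_pos L).ne'⟩
  simp only [rot, Equiv.prodCongr_apply, Prod.map_snd, finRotate_apply]
  rw [Fin.val_add, Fin.val_one', Nat.add_mod_mod]

/-- the uniform measure on states -/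
noncomputable def unif (l : ℕ) : Measure (St D l) :=
  ((D.Q l * D.n l : ℕ) : ℝ≥0∞)⁻¹ • Measure.count

theorem unif_singleton (l : ℕ) (v : St D l) :
    unif D l {v} = ((D.Q l * D.n l : ℕ) : ℝ≥0∞)⁻¹ := by
  simp [unif]

theorem QN_ne (l : ℕ) : ((D.Q l * D.n l : ℕ) : ℝ≥0∞) ≠ 0 := by
  have := D.Q_ge l
  have := D.n_pos l
  exact Nat.cast_ne_zero.2 (by positivity)

instance (l : ℕ) : IsProbabilityMeasure (unif D l) := by
  constructor
  simp only [unif, Measure.smul_apply, smul_eq_mul, Measure.count_univ, ENat.card_eq_coe_fintype_card,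
    Fintype.card_prod, Fintype.card_fin, ENat.toENNReal_coe]
  exact ENNReal.inv_mul_cancel (QN_ne D l) (ENNReal.natCast_ne_top _)

theorem map_rot (L : ℕ) : (unif D L).map (rot D L) = unif D L := by
  rw [Measure.ext_iff_singleton]
  intro a
  rw [Measure.map_apply (measurable_of_countable _) (measurableSet_singleton a)]
  have : (rot D L) ⁻¹' {a} = {(rot D L).symm a} := by
    ext y; simp [Equiv.eq_symm_apply]
  rw [this, unif_singleton, unif_singleton]

theorem card_fiber (l : ℕ) (v : St D l) :
    (Finset.univ.filter (fun y => pi1 D l y = v)).card * D.Q l = D.M l * D.Q (l + 1) := by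
  classical
  have hn := D.n_pos l
  have hs := D.n_succ l
  have hlt : ∀ j : Fin (D.M l), j.val * D.n l + v.2.val < D.n (l + 1) := fun j => by
    rw [hs]
    have h1 : (j.val + 1) * D.n l ≤ D.M l * D.n l := Nat.mul_le_mul_right _ j.2
    have h2 := v.2.2
    rw [add_mul, one_mul] at h1
    omega
  have key : (Finset.univ.filter (fun y => pi1 D l y = v)).card =
      (Finset.univ.sigma (fun j : Fin (D.M l) =>
        Finset.univ.filter (fun s => D.θ l s j.val = v.1))).card := by
    symm
    refine Finset.card_bij (fun a _ => (a.2, ⟨a.1.val * D.n l + v.2.val, hlt a.1⟩)) ?_ ?_ ?_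
    · rintro ⟨j, s⟩ ha
      simp only [Finset.mem_sigma, Finset.mem_univ, Finset.mem_filter, true_and] at ha ⊢
      have e1 : (j.val * D.n l + v.2.val) / D.n l = j.val := by
        rw [Nat.div_eq_iff hn]; have := v.2.2; omega
      have e2 : (j.val * D.n l + v.2.val) % D.n l = v.2.val := by
        rw [Nat.mul_add_mod_self_right, Nat.mod_eq_of_lt v.2.2]
      refine Prod.ext ?_ (Fin.ext ?_)
      · simp only [pi1, e1, ha]
      · simp only [pi1, e2]
    · rintro ⟨j, s⟩ _ ⟨j', s'⟩ _ h
      simp only [Prod.mk.injEq, Fin.mk.injEq] at h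
      obtain ⟨rfl, h2⟩ := h
      have : j.val = j'.val := Nat.eq_of_mul_eq_mul_right hn (by omega)
      obtain rfl : j = j' := Fin.ext this
      rfl
    · rintro ⟨s, p⟩ hy
      simp only [Finset.mem_filter, Finset.mem_univ, true_and] at hy
      have hp : p.val < D.M l * D.n l := hs ▸ p.2
      refine ⟨⟨⟨p.val / D.n l, (Nat.div_lt_iff_lt_mul hn).2 hp⟩, s⟩, ?_, ?_⟩
      · simp only [Finset.mem_sigma, Finset.mem_univ, Finset.mem_filter, true_and]
        exact congrArg Prod.fst hy
      · refine Prod.ext rfl (Fin.ext ?_)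
        have e := congrArg (fun z : St D l => z.2.val) hy
        simp only [pi1] at e
        simp only
        rw [← e, mul_comm]
        exact Nat.div_add_mod _ _
  rw [key, Finset.card_sigma, Finset.sum_mul,
    Finset.sum_congr rfl (fun j _ => D.unif l j.val j.2 v.1)]
  simp

theorem map_pi1 (l : ℕ) : (unif D (l + 1)).map (pi1 D l) = unif D l := by
  classical
  rw [Measure.ext_iff_singleton]
  intro v
  rw [Measure.map_apply (measurable_of_countable _) (measurableSet_singleton v), unif_singleton]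
  have e : pi1 D l ⁻¹' {v} = ↑(Finset.univ.filter (fun y => pi1 D l y = v)) := by
    ext y; simp
  rw [e, unif, Measure.smul_apply, Measure.count_apply_finset, smul_eq_mul]
  have h := card_fiber D l v
  have h2 : (Finset.univ.filter (fun y => pi1 D l y = v)).card * (D.Q l * D.n l) =
      D.Q (l + 1) * D.n (l + 1) := by
    rw [← mul_assoc, h, D.n_succ]; ring
  rw [← h2, Nat.cast_mul]
  have hc : (((Finset.univ.filter (fun y => pi1 D l y = v)).card : ℕ) : ℝ≥0∞) ≠ 0 := by
    intro h0
    have h3 := QN_ne D (l + 1)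
    rw [← h2, Nat.cast_mul, h0, zero_mul] at h3
    exact h3 rfl
  rw [ENNReal.mul_inv (Or.inl hc) (Or.inl (ENNReal.natCast_ne_top _)), mul_comm, ← mul_assoc,
    ENNReal.mul_inv_cancel hc (ENNReal.natCast_ne_top _), one_mul]

theorem map_proj (L l : ℕ) (h : l ≤ L) :
    (unif D L).map (fun y => proj D L y l) = unif D l := by
  induction L with
  | zero =>
    obtain rfl : l = 0 := by omega
    simp only [proj_self, Measure.map_id']
  | succ L ih =>
    rcases Nat.lt_or_ge l (L + 1) with h1 | h1
    · have e : (fun y => proj D (L + 1) y l) = (fun y => proj D L y l) ∘ pi1 D L := by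
        funext y; exact proj_succ D L y l (by omega)
      rw [e, ← Measure.map_map (measurable_of_countable _) (measurable_of_countable _), map_pi1,
        ih (by omega)]
    · obtain rfl : l = L + 1 := by omega
      simp only [proj_self, Measure.map_id']

/-- the symbolic space -/
abbrev X := ∀ a : ℤ × ℕ, St D a.2

/-- the shift -/
def shift : X D ≃ᵐ X D where
  toFun x := fun a => x (a.1 + 1, a.2)
  invFun x := fun a => x (a.1 - 1, a.2)
  left_inv x := by
    funext ⟨i, l⟩
    show x (i - 1 + 1, l) = x (i, l)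
    rw [sub_add_cancel]
  right_inv x := by
    funext ⟨i, l⟩
    show x (i + 1 - 1, l) = x (i, l)
    rw [add_sub_cancel_right]
  measurable_toFun := measurable_pi_lambda _ fun a => measurable_pi_apply (X := fun a : ℤ × ℕ => St D a.2) (a.1 + 1, a.2)
  measurable_invFun := measurable_pi_lambda _ fun a => measurable_pi_apply (X := fun a : ℤ × ℕ => St D a.2) (a.1 - 1, a.2)

theorem shift_apply (x : X D) (a : ℤ × ℕ) : shift D x a = x (a.1 + 1, a.2) := rfl

theorem continuous_shift : Continuous (shift D) :=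
  continuous_pi fun a => continuous_apply (A := fun a : ℤ × ℕ => St D a.2) (a.1 + 1, a.2)

/-- periodic points -/
def Phi (L : ℕ) (y : St D L) : X D := fun a => proj D L ((rot D L ^ a.1) y) a.2

theorem shift_Phi (L : ℕ) (y : St D L) : shift D (Phi D L y) = Phi D L (rot D L y) := by
  funext a
  simp only [shift_apply, Phi, zpow_add_one, Equiv.Perm.mul_apply]

/-- the periodic measures -/
noncomputable def mus (L : ℕ) : ProbabilityMeasure (X D) :=
  ⟨(unif D L).map (Phi D L), Measure.isProbabilityMeasure_map (measurable_of_countable _).aemeasurable⟩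

theorem mus_apply (L : ℕ) {E : Set (X D)} (hE : MeasurableSet E) :
    (mus D L : Measure (X D)) E = unif D L (Phi D L ⁻¹' E) :=
  Measure.map_apply (measurable_of_countable _) hE

theorem map_mus (L : ℕ) :
    (mus D L).map (continuous_shift D).measurable.aemeasurable = mus D L := by
  apply Subtype.ext
  show ((unif D L).map (Phi D L)).map (shift D) = (unif D L).map (Phi D L)
  rw [Measure.map_map (shift D).measurable (measurable_of_countable _)]
  have : shift D ∘ Phi D L = Phi D L ∘ rot D L := funext (shift_Phi D L)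
  rw [this, ← Measure.map_map (measurable_of_countable _) (measurable_of_countable _), map_rot]

/-- the limit measure -/
noncomputable def mu : ProbabilityMeasure (X D) := ((hyperfilter ℕ).map (mus D)).lim

theorem tendsto_mus : Tendsto (mus D) (hyperfilter ℕ) (𝓝 (mu D)) :=
  Ultrafilter.le_nhds_lim ((hyperfilter ℕ).map (mus D))

theorem mu_clopen {E : Set (X D)} (hE : IsClopen E) (c : ℝ≥0∞) (L₀ : ℕ)
    (h : ∀ L, L₀ ≤ L → unif D L (Phi D L ⁻¹' E) = c) : (mu D : Measure (X D)) E = c := by
  have h1 := ProbabilityMeasure.tendsto_measure_of_null_frontier_of_tendsto' (tendsto_mus D)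
    (E := E) (by simp [hE.frontier_eq])
  refine tendsto_nhds_unique h1 (tendsto_const_nhds.congr' ?_)
  have : ∀ᶠ L in (hyperfilter ℕ : Filter ℕ), L₀ ≤ L :=
    Nat.hyperfilter_le_atTop (eventually_ge_atTop L₀)
  filter_upwards [this] with L hL
  rw [mus_apply D L hE.isOpen.measurableSet, h L hL]

theorem mu_shift : MeasurePreserving (shift D) (mu D : Measure (X D)) (mu D) := by
  refine ⟨(shift D).measurable, ?_⟩
  have h1 := ProbabilityMeasure.tendsto_map_of_tendsto_of_continuous _ _ (tendsto_mus D)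
    (continuous_shift D)
  simp only [map_mus] at h1
  have h2 := tendsto_nhds_unique h1 (tendsto_mus D)
  exact congrArg Subtype.val h2

theorem isClopen_two (a b : ℤ × ℕ) (P : St D a.2 → St D b.2 → Prop) :
    IsClopen {x : X D | P (x a) (x b)} := by
  have hc : Continuous (fun x : X D => (x a, x b)) :=
    (continuous_apply a).prodMk (continuous_apply b)
  exact (isClopen_discrete {z : St D a.2 × St D b.2 | P z.1 z.2}).preimage hc

theorem ae_two (a b : ℤ × ℕ) (P : St D a.2 → St D b.2 → Prop) (L₀ : ℕ)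
    (h : ∀ L, L₀ ≤ L → ∀ y, P (Phi D L y a) (Phi D L y b)) :
    ∀ᵐ x ∂(mu D : Measure (X D)), P (x a) (x b) := by
  rw [ae_iff]
  refine mu_clopen D (isClopen_two D a b (fun u v => ¬ P u v)) 0 L₀ fun L hL => ?_
  have : Phi D L ⁻¹' {x : X D | ¬ P (x a) (x b)} = ∅ := by
    ext y; simpa using h L hL y
  rw [this, measure_empty]

theorem ae_step (i : ℤ) (l : ℕ) :
    ∀ᵐ x ∂(mu D : Measure (X D)), Step D l (x (i, l)) (x (i + 1, l)) := by
  refine ae_two D (i, l) (i + 1, l) (Step D l) l fun L hL y => ?_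
  simp only [Phi]
  rw [add_comm i 1, zpow_one_add, Equiv.Perm.mul_apply]
  exact (step_rot D L _).proj D l hL

theorem ae_proj (i : ℤ) (l : ℕ) :
    ∀ᵐ x ∂(mu D : Measure (X D)), x (i, l) = pi1 D l (x (i, l + 1)) :=
  ae_two D (i, l) (i, l + 1) (fun u v => u = pi1 D l v) (l + 1) fun L hL _ =>
    proj_pi1 D L _ l hL

theorem mu_law (l : ℕ) (v : St D l) :
    (mu D : Measure (X D)) {x | x (0, l) = v} = ((D.Q l * D.n l : ℕ) : ℝ≥0∞)⁻¹ := by
  refine mu_clopen D (isClopen_two D (0, l) (0, l) (fun u _ => u = v)) _ l fun L hL => ?_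
  have : Phi D L ⁻¹' {x : X D | x (0, l) = v} = (fun y => proj D L y l) ⁻¹' {v} := by
    ext y; simp [Phi]
  rw [this, ← Measure.map_apply (measurable_of_countable _) (measurableSet_singleton v),
    map_proj D L l hL, unif_singleton]

/-- the tower structure -/
noncomputable def tower : Tower D (mu D : Measure (X D)) (shift D) where
  s l x := (x (0, l)).1
  p l x := (x (0, l)).2.val
  ms l := measurable_fst.comp (measurable_pi_apply (X := fun a : ℤ × ℕ => St D a.2) (0, l))
  mp l := (measurable_of_countable (fun v : St D l => v.2.val)).comp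
    (measurable_pi_apply (X := fun a : ℤ × ℕ => St D a.2) (0, l))
  plt l x := (x (0, l)).2.2
  law l a t ht := by
    rw [← mu_law D l (a, ⟨t, ht⟩)]
    congr 1
    ext x
    simp [Prod.ext_iff, Fin.ext_iff]
  step l := ae_step D 0 l
  proj l := by
    filter_upwards [ae_proj D 0 l] with x hx
    rw [hx]
    exact ⟨rfl, rfl⟩

theorem step_iter {l : ℕ} (f : ℤ → St D l) (hf : ∀ i, Step D l (f i) (f (i + 1))) (i : ℤ)
    (h0 : 0 ≤ ((f 0).2.val : ℤ) + i) (h1 : ((f 0).2.val : ℤ) + i < D.n l) :
    (f i).1 = (f 0).1 ∧ ((f i).2.val : ℤ) = (f 0).2.val + i := by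
  induction i using Int.induction_on with
  | zero => simp
  | succ i ih =>
    obtain ⟨a1, a2⟩ := ih (by omega) (by omega)
    obtain ⟨b1, b2⟩ := hf i
    have h2 : (f i).2.val + 1 < D.n l := by omega
    rw [Nat.mod_eq_of_lt h2] at b1
    exact ⟨(b2 h2).trans a1, by omega⟩
  | pred i ih =>
    have hlt := (f 0).2.2
    obtain ⟨a1, a2⟩ := ih (by omega) (by omega)
    obtain ⟨b1, b2⟩ := hf (-(i : ℤ) - 1)
    rw [sub_add_cancel] at b1 b2
    have h3 := (f (-(i : ℤ) - 1)).2.2
    have h2 : (f (-(i : ℤ) - 1)).2.val + 1 < D.n l := by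
      by_contra h4
      have h5 : (f (-(i : ℤ) - 1)).2.val + 1 = D.n l := by omega
      rw [h5, Nat.mod_self] at b1
      omega
    rw [Nat.mod_eq_of_lt h2] at b1
    exact ⟨(b2 h2).symm.trans a1, by omega⟩

theorem tendsto_n : Tendsto D.n atTop atTop := by
  refine tendsto_atTop_mono (f := id) (fun l => ?_) tendsto_id
  induction l with
  | zero => simp
  | succ l ih =>
    have h1 := D.n_succ l
    have h2 := D.M_ge l
    have h3 := D.n_pos l
    have : 2 * D.n l ≤ D.M l * D.n l := Nat.mul_le_mul_right _ h2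
    simp only [id] at ih ⊢
    omega

/-- the approximation property -/
def Appr (A : Set (X D)) : Prop :=
  ∀ ε : ℝ≥0∞, 0 < ε → ∃ l₀, ∀ l ≥ l₀, ∃ B : Set (Fin (D.Q l) × ℕ),
    (mu D : Measure (X D)) (symmDiff A {x | ((tower D).s l x, (tower D).p l x) ∈ B}) ≤ ε

theorem appr_coord (i : ℤ) (k : ℕ) (t : Set (St D k)) : Appr D {x | x (i, k) ∈ t} := by
  classical
  intro ε hε
  have ht : Tendsto (fun l => ((2 * i.natAbs : ℕ) : ℝ≥0∞) * ((D.n l : ℕ) : ℝ≥0∞)⁻¹) atTop (𝓝 0) := by
    have := ENNReal.Tendsto.const_mul (a := ((2 * i.natAbs : ℕ) : ℝ≥0∞))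
      (ENNReal.tendsto_inv_nat_nhds_zero.comp (tendsto_n D)) (Or.inr (ENNReal.natCast_ne_top _))
    simpa using this
  obtain ⟨l₁, hl₁⟩ := eventually_atTop.1 (ht.eventually (ge_mem_nhds hε))
  refine ⟨max l₁ k, fun l hl => ⟨{z | ∃ h : ((z.2 : ℤ) + i).toNat < D.n l,
    proj D l (z.1, ⟨_, h⟩) k ∈ t}, ?_⟩⟩
  refine le_trans ?_ (hl₁ l (le_of_max_le_left hl))
  set F : Finset ℕ := (Finset.range (D.n l)).filter
    (fun u => (u : ℤ) + i < 0 ∨ (D.n l : ℤ) ≤ (u : ℤ) + i) with hF
  have hcard : F.card ≤ 2 * i.natAbs := by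
    have : F ⊆ Finset.range i.natAbs ∪ Finset.Ico (D.n l - i.natAbs) (D.n l) := by
      intro u hu
      simp only [hF, Finset.mem_filter, Finset.mem_range, Finset.mem_union, Finset.mem_Ico] at hu ⊢
      omega
    refine (Finset.card_le_card this).trans ((Finset.card_union_le _ _).trans ?_)
    rw [Finset.card_range, Nat.card_Ico]
    omega
  have hsub : ∀ᵐ x ∂(mu D : Measure (X D)),
      x ∈ symmDiff {x : X D | x (i, k) ∈ t} {x | ((tower D).s l x, (tower D).p l x) ∈
        {z : Fin (D.Q l) × ℕ | ∃ h : ((z.2 : ℤ) + i).toNat < D.n l,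
          proj D l (z.1, ⟨_, h⟩) k ∈ t}} → x ∈ ⋃ u ∈ F, {x | (tower D).p l x = u} := by
    filter_upwards [ae_all_iff.2 (fun j => ae_step D j l), ae_all_iff.2 (ae_proj D i)]
      with x h1 h2 hx
    by_contra hn
    have hp : ¬ ((tower D).p l x ∈ F) := fun h => hn (by
      simp only [Set.mem_iUnion, Set.mem_ofPred_eq]; exact ⟨_, h, rfl⟩)
    have hlt := (tower D).plt l x
    simp only [hF, Finset.mem_filter, Finset.mem_range, hlt, true_and, not_or, not_lt,
      not_le] at hp
    obtain ⟨c1, c2⟩ := step_iter D (fun j => x (j, l)) h1 i hp.1 hp.2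
    have h3 : x (i, k) = proj D l (x (i, l)) k :=
      eq_proj D (fun m => x (i, m)) h2 l k (le_of_max_le_right hl)
    have h4 : (((tower D).p l x : ℤ) + i).toNat < D.n l := by omega
    have h5 : x (i, l) = ((tower D).s l x, ⟨_, h4⟩) := by
      refine Prod.ext c1 (Fin.ext ?_)
      have : (tower D).p l x = (x (0, l)).2.val := rfl
      simp only at c2 ⊢
      omega
    rw [Set.mem_symmDiff] at hx
    simp only [Set.mem_ofPred_eq] at hx
    rw [h3, h5] at hx
    rcases hx with ⟨g1, g2⟩ | ⟨⟨_, g1⟩, g2⟩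
    · exact g2 ⟨h4, g1⟩
    · exact g2 g1
  refine (measure_mono_ae hsub).trans ((measure_biUnion_finset_le _ _).trans ?_)
  rw [Finset.sum_congr rfl (fun u hu => (tower D).measure_p l u
    (Finset.mem_range.1 (Finset.mem_filter.1 hu).1)), Finset.sum_const, nsmul_eq_mul]
  gcongr

theorem appr_empty : Appr D ∅ := fun _ _ => ⟨0, fun _ _ => ⟨∅, by simp⟩⟩

theorem Appr.compl {A : Set (X D)} (h : Appr D A) : Appr D Aᶜ := by
  intro ε hε
  obtain ⟨l₀, h⟩ := h ε hε
  refine ⟨l₀, fun l hl => ?_⟩
  obtain ⟨B, hB⟩ := h l hl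
  refine ⟨Bᶜ, ?_⟩
  have : {x | ((tower D).s l x, (tower D).p l x) ∈ Bᶜ} =
      {x | ((tower D).s l x, (tower D).p l x) ∈ B}ᶜ := rfl
  rwa [this, compl_symmDiff_compl]

theorem Appr.union {A A' : Set (X D)} (h : Appr D A) (h' : Appr D A') : Appr D (A ∪ A') := by
  intro ε hε
  obtain ⟨l₀, h⟩ := h (ε / 2) (ENNReal.half_pos hε.ne')
  obtain ⟨l₁, h'⟩ := h' (ε / 2) (ENNReal.half_pos hε.ne')
  refine ⟨max l₀ l₁, fun l hl => ?_⟩
  obtain ⟨B, hB⟩ := h l (le_of_max_le_left hl)
  obtain ⟨B', hB'⟩ := h' l (le_of_max_le_right hl)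
  refine ⟨B ∪ B', ?_⟩
  have : {x | ((tower D).s l x, (tower D).p l x) ∈ B ∪ B'} =
      {x | ((tower D).s l x, (tower D).p l x) ∈ B} ∪
        {x | ((tower D).s l x, (tower D).p l x) ∈ B'} := rfl
  rw [this, ← ENNReal.add_halves ε]
  exact (measure_mono Set.union_symmDiff_union_subset).trans
    ((measure_union_le _ _).trans (add_le_add hB hB'))

theorem appr_iUnion (A : ℕ → Set (X D)) (hm : ∀ n, MeasurableSet (A n)) (h : ∀ n, Appr D (A n)) :
    Appr D (⋃ n, A n) := by
  intro ε hε
  have hacc : ∀ N, Appr D (Set.accumulate A N) := by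
    intro N
    induction N with
    | zero => simpa using h 0
    | succ N ih => rw [Set.accumulate_succ]; exact ih.union D (h _)
  have hlim : Tendsto (fun N => (mu D : Measure (X D)) ((⋃ n, A n) \ Set.accumulate A N)) atTop
      (𝓝 0) := by
    have h1 := tendsto_measure_iInter_atTop (μ := (mu D : Measure (X D)))
      (s := fun N => (⋃ n, A n) \ Set.accumulate A N)
      (fun N => ((MeasurableSet.iUnion hm).diff
        (MeasurableSet.biUnion (Set.to_countable _) fun n _ => hm n)).nullMeasurableSet)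
      (fun a b hab => Set.sdiff_subset_sdiff_right (Set.monotone_accumulate hab))
      ⟨0, measure_ne_top _ _⟩
    have h2 : (⋂ N, (⋃ n, A n) \ Set.accumulate A N) = ∅ := by
      rw [← Set.sdiff_iUnion, Set.iUnion_accumulate, Set.sdiff_self]
    rwa [h2, measure_empty] at h1
  obtain ⟨N, hN⟩ := (hlim.eventually (ge_mem_nhds (ENNReal.half_pos hε.ne'))).exists
  obtain ⟨l₀, h⟩ := hacc N (ε / 2) (ENNReal.half_pos hε.ne')
  refine ⟨l₀, fun l hl => ?_⟩
  obtain ⟨B, hB⟩ := h l hl
  refine ⟨B, (measure_symmDiff_le _ (Set.accumulate A N) _).trans ?_⟩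
  rw [← ENNReal.add_halves ε]
  refine add_le_add (le_trans (le_of_eq ?_) hN) hB
  rw [symmDiff_of_ge (Set.accumulate_subset_iUnion N)]

theorem tower_gen : (tower D).Gen := by
  let m : MeasurableSpace (X D) :=
    { MeasurableSet' := fun A => MeasurableSet A ∧ Appr D A
      measurableSet_empty := ⟨MeasurableSet.empty, appr_empty D⟩
      measurableSet_compl := fun A h => ⟨h.1.compl, h.2.compl D⟩
      measurableSet_iUnion := fun A h =>
        ⟨MeasurableSet.iUnion fun n => (h n).1, appr_iUnion D A (fun n => (h n).1) fun n => (h n).2⟩ }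
  have hle : (MeasurableSpace.pi : MeasurableSpace (X D)) ≤ m := by
    refine iSup_le fun a => ?_
    rintro _ ⟨t, ht, rfl⟩
    exact ⟨measurable_pi_apply a ht, appr_coord D a.1 a.2 t⟩
  intro A hA
  exact (hle A hA).2

end SysC

theorem exists_system (D : Design) :
    ∃ (X : Type) (_ : MeasurableSpace X) (_ : StandardBorelSpace X) (μ : Measure X) (T : X ≃ᵐ X),
      IsProbabilityMeasure μ ∧ MeasurePreserving T μ μ ∧ ∃ tw : Tower D μ T, tw.Gen :=
  ⟨SysC.X D, inferInstance, inferInstance, SysC.mu D, SysC.shift D, inferInstance,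
    SysC.mu_shift D, SysC.tower D, SysC.tower_gen D⟩

end Crest.Agent.R133
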