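import Crest.Agent.R133.TowerBasic
import Crest.Agent.R130.Transport

/-!
# Row 133: ergodicity, zero entropy, standardness, transfer of towers

PLANS.
* `ergodic`: `A` invariant, approximate by `C = {(s l, p l) ∈ B}` with `l` an affine step
  (`D.stage`).  For a.e. `x` with `p (l+1) x = 0`, `∑_{t<n(l+1)} 1_C (T^t x)` is a constant
  (`ae_iter`, `ae_sub`/`proj`, equidistribution in `IsAff`), say `γ n(l+1)`.  So
  `∫ |1_A - γ| = n ∫_{base} |1_A - γ| ≤ μ (A ∆ C) ≤ ε` (`lintegral_tower`), whence
  `min (μ A) (1 - μ A) ≤ ε`.  (A purely set-theoretic variant: if `γ ≤ 1/2` then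
  `μ A ≤ 2 ε`, else `μ Aᶜ ≤ 2ε`.)
* `zeroEntropy`: approximate `P` by `P' = f (s l, p l)` with `μ {P ≠ P'} ≤ ε`.  The join of `P'`
  over `N` steps is a.e. a function of `Γ x = (p l x, b ↦ s l (T^[b * n l - p l x] x))`,
  `b < N / n l + 2`, taking `≤ n l * Q l ^ (N / n l + 2)` values.  Gibbs inequality with the
  sub-probability `q word = |β|⁻¹ ∑_γ ∏_j κ (word j | f_j γ)`, `κ (a | a') = (1-η) 1[a=a'] + η/m`
  gives `H ≤ log |β| + N (-log (1-η) + ε log (m/η))`; finally `D.rate`.
* `isStandard`: embed in `ℝ` (`embeddingReal`), compose with the cdf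
  (see `R130.measure_cdf_le`, `R130.exists_map_unit`); the cdf is injective off the (countably
  many, null) nontrivial level sets; `MeasurableSet.image_of_measurable_injOn` /
  `Measurable.measurableEmbedding` (Lusin–Souslin) give `Y₀` and the measurable inverse.
* `transfer`: pull back along `G`; `ν.map G = μ`, `G (S y) = T (G y)` on `M₀`.
-/

set_option autoImplicit false

namespace Crest.Agent.R133

open MeasureTheory Crest.AnalysisR

variable {D : Design} {X : Type*} [MeasurableSpace X] {μ : Measure X} {T : X → X}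

namespace SysProp

open Finset Filter Topology
open scoped ENNReal

lemma lt_n (D : Design) (l : ℕ) : l < D.n l := by
  induction l with
  | zero => exact D.n_pos 0
  | succ l ih =>
    rw [D.n_succ]
    have := Nat.mul_le_mul_right (D.n l) (D.M_ge l)
    omega

lemma measurableSet_state (tw : Tower D μ T) (l : ℕ) (B : Set (Fin (D.Q l) × ℕ)) :
    MeasurableSet {x | (tw.s l x, tw.p l x) ∈ B} :=
  ((tw.ms l).prodMk (tw.mp l)) (Set.to_countable B).measurableSet

open Classical in
/-- independence of an invariant set from a set with constant visit count -/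
lemma indep (tw : Tower D μ T) (hT : MeasurePreserving T μ μ) (l c : ℕ) (C : Set X)
    (hC : MeasurableSet C)
    (hc : ∀ᵐ x ∂μ, tw.p l x = 0 → ((range (D.n l)).filter (fun t => T^[t] x ∈ C)).card = c)
    (A : Set X) (hA : MeasurableSet A) (hinv : T ⁻¹' A = A) :
    μ (A ∩ C) = c * μ (A ∩ {x | tw.p l x = 0}) := by
  have hβ : MeasurableSet {x | tw.p l x = 0} := tw.mp l (measurableSet_singleton 0)
  have hit : ∀ t x, T^[t] x ∈ A ↔ x ∈ A := by
    intro t x
    have := Function.IsFixedPt.preimage_iterate hinv t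
    exact (Set.ext_iff.1 this x)
  have hm : Measurable ((A ∩ C).indicator (1 : X → ℝ≥0∞)) := measurable_one.indicator (hA.inter hC)
  have h1 := tw.lintegral_tower hT l _ hm
  rw [lintegral_indicator_one (hA.inter hC), ← lintegral_finsetSum _
    (f := fun t x => (A ∩ C).indicator (1 : X → ℝ≥0∞) (T^[t] x))
    (fun t _ => hm.comp (hT.iterate t).measurable)] at h1
  rw [h1, ← Measure.restrict_apply hA, ← lintegral_indicator_one hA, ← lintegral_const_mul _
    (measurable_one.indicator hA)]
  refine setLIntegral_congr_fun_ae hβ ?_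
  filter_upwards [hc] with x hx hx0
  by_cases hxA : x ∈ A
  · rw [← hx hx0, Set.indicator_of_mem hxA, Pi.one_apply, mul_one, card_filter, Nat.cast_sum]
    refine sum_congr rfl fun t _ => ?_
    by_cases h : T^[t] x ∈ C
    · simp [h, (hit t x).2 hxA]
    · simp [h]
  · rw [Set.indicator_of_notMem hxA, mul_zero]
    refine sum_eq_zero fun t _ => Set.indicator_of_notMem (fun h => hxA ((hit t x).1 h.1)) _

/-- state along the orbit -/
lemma ae_state (tw : Tower D μ T) (hT : MeasurePreserving T μ μ) :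
    ∀ᵐ x ∂μ, ∀ l j, tw.p l (T^[j] x) = (tw.p l x + j) % D.n l ∧
      tw.s l (T^[j] x) = tw.s l (T^[(tw.p l x + j) / D.n l * D.n l] x) := by
  have h1 : ∀ᵐ x ∂μ, ∀ u l t, tw.p l (T^[t] (T^[u] x)) = (tw.p l (T^[u] x) + t) % D.n l ∧
      (tw.p l (T^[u] x) + t < D.n l → tw.s l (T^[t] (T^[u] x)) = tw.s l (T^[u] x)) := by
    rw [ae_all_iff]; intro u
    exact (hT.iterate u).quasiMeasurePreserving.ae (tw.ae_iter hT)
  filter_upwards [h1, tw.ae_iter hT] with x hx hi l j
  refine ⟨(hi l j).1, ?_⟩
  have hn := D.n_pos l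
  have hp := tw.plt l x
  set n := D.n l
  set p := tw.p l x
  set b := (p + j) / n with hb
  have hdm : p + j = b * n + (p + j) % n := by
    rw [hb, mul_comm]; exact (Nat.div_add_mod _ _).symm
  have hr : (p + j) % n < n := Nat.mod_lt _ hn
  rcases le_total (b * n) j with h | h
  · have e : T^[j] x = T^[j - b * n] (T^[b * n] x) := by
      rw [← Function.iterate_add_apply, Nat.sub_add_cancel h]
    rw [e]
    refine (hx (b * n) l (j - b * n)).2 ?_
    rw [(hi l (b * n)).1, Nat.add_mul_mod_self_right, Nat.mod_eq_of_lt hp]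
    omega
  · have e : T^[b * n] x = T^[b * n - j] (T^[j] x) := by
      rw [← Function.iterate_add_apply, Nat.sub_add_cancel h]
    rw [e]
    refine ((hx j l (b * n - j)).2 ?_).symm
    rw [(hi l j).1]
    change (p + j) % n + (b * n - j) < n
    omega

open Classical in
lemma count_const (tw : Tower D μ T) (hT : MeasurePreserving T μ μ) (l : ℕ)
    (ha : D.toPreDesign.IsAff l) (B : Set (Fin (D.Q l) × ℕ)) : ∃ c : ℕ,
    ∀ᵐ x ∂μ, tw.p (l + 1) x = 0 → ((range (D.n (l + 1))).filter
      (fun t => T^[t] x ∈ {x | (tw.s l x, tw.p l x) ∈ B})).card = c := by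
  set g : Fin (D.Q l) → ℕ := fun a => ((range (D.n l)).filter (fun r => (a, r) ∈ B)).card with hg
  have hQ : 0 < D.Q l := by have := D.Q_ge l; omega
  have hn := D.n_pos l
  refine ⟨D.M l * (∑ a, g a) / D.Q l, ?_⟩
  filter_upwards [tw.ae_sub hT, ae_state tw hT] with x h1 h2 h0
  have hM : 0 < D.M l := by have := D.M_ge l; omega
  have hp0 : tw.p l x = 0 := by simpa using (h1 l h0 0 hM).1
  have e1 : ((range (D.n (l + 1))).filter
      (fun t => T^[t] x ∈ {x | (tw.s l x, tw.p l x) ∈ B})).card =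
      ∑ j ∈ range (D.M l), g (D.θ l (tw.s (l + 1) x) j) := by
    rw [card_eq_sum_card_fiberwise (f := fun t => t / D.n l) (t := range (D.M l))]
    · refine sum_congr rfl fun j hj => ?_
      refine card_bij' (fun t _ => t % D.n l) (fun r _ => j * D.n l + r) ?_ ?_ ?_ ?_
      · intro t ht
        simp only [mem_filter, mem_range, Set.mem_setOf_eq] at ht ⊢
        obtain ⟨⟨-, ht2⟩, ht3⟩ := ht
        rw [(h2 l t).1, (h2 l t).2, hp0, zero_add, ht3, (h1 l h0 j (mem_range.1 hj)).2] at ht2
        exact ⟨Nat.mod_lt _ hn, ht2⟩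
      · intro r hr
        simp only [mem_filter, mem_range, Set.mem_setOf_eq] at hr ⊢
        have hd : (j * D.n l + r) / D.n l = j := by
          rw [add_comm, Nat.add_mul_div_right _ _ hn, Nat.div_eq_of_lt hr.1, zero_add]
        have hmod : (j * D.n l + r) % D.n l = r := by
          rw [add_comm, Nat.add_mul_mod_self_right, Nat.mod_eq_of_lt hr.1]
        refine ⟨⟨?_, ?_⟩, hd⟩
        · rw [D.n_succ, ← Nat.div_lt_iff_lt_mul hn, hd]; exact mem_range.1 hj
        · rw [(h2 l _).1, (h2 l _).2, hp0, zero_add, hd, hmod, (h1 l h0 j (mem_range.1 hj)).2]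
          exact hr.2
      · intro t ht
        simp only [mem_filter] at ht
        rw [← ht.2]; exact Nat.div_add_mod' _ _
      · intro r hr
        simp only [mem_filter, mem_range] at hr
        rw [add_comm, Nat.add_mul_mod_self_right, Nat.mod_eq_of_lt hr.1]
    · intro t ht
      simp only [coe_filter, mem_range, Set.mem_setOf_eq, coe_range, Set.mem_Iio] at ht ⊢
      rw [Nat.div_lt_iff_lt_mul hn, ← D.n_succ]; exact ht.1
  have e2 : (∑ j ∈ range (D.M l), g (D.θ l (tw.s (l + 1) x) j)) * D.Q l = D.M l * ∑ a, g a := by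
    rw [← sum_fiberwise (s := range (D.M l)) (g := fun j => D.θ l (tw.s (l + 1) x) j), sum_mul,
      mul_sum]
    refine sum_congr rfl fun a _ => ?_
    rw [sum_congr rfl (g := fun _ => g a) (fun j hj => by rw [(mem_filter.1 hj).2]), sum_const,
      smul_eq_mul, mul_right_comm, ha.2.2.1]
  refine e1.trans ?_
  rw [← e2, Nat.mul_div_cancel _ hQ]

lemma small_or (tw : Tower D μ T) [IsProbabilityMeasure μ] (hg : tw.Gen)
    (hT : MeasurePreserving T μ μ) (A : Set X) (hA : MeasurableSet A) (hinv : T ⁻¹' A = A)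
    (ε : ℝ) (hε : 0 < ε) : μ.real A ≤ 2 * ε ∨ μ.real Aᶜ ≤ 2 * ε := by
  classical
  obtain ⟨l₀, hl₀⟩ := hg A hA (ENNReal.ofReal ε) (by simpa using hε)
  obtain ⟨l, hl, -, -, ha, -⟩ := D.stage l₀
  obtain ⟨B, hB⟩ := hl₀ l hl
  obtain ⟨c, hc⟩ := count_const tw hT l ha B
  set C := {x | (tw.s l x, tw.p l x) ∈ B} with hC
  have hCm : MeasurableSet C := measurableSet_state tw l B
  have hB' : μ.real (symmDiff A C) ≤ ε := ENNReal.toReal_le_of_le_ofReal hε.le hB
  have key : ∀ A : Set X, MeasurableSet A → T ⁻¹' A = A →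
      μ.real (A ∩ C) * D.n (l + 1) = c * μ.real A := by
    intro A hA hinv
    have h1 := indep tw hT (l + 1) c C hCm hc A hA hinv
    have h2 := indep tw hT (l + 1) (D.n (l + 1)) Set.univ MeasurableSet.univ
      (Eventually.of_forall fun x _ => by simp) A hA hinv
    rw [Set.inter_univ] at h2
    simp only [Measure.real, h1, ENNReal.toReal_mul, ENNReal.toReal_natCast]
    conv_rhs => rw [h2]
    simp only [ENNReal.toReal_mul, ENNReal.toReal_natCast]
    ring
  have hn : (0 : ℝ) < D.n (l + 1) := by exact_mod_cast D.n_pos _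
  have k1 := key A hA hinv
  have k2 := key Aᶜ hA.compl (by rw [Set.preimage_compl, hinv])
  have m1 : μ.real A ≤ μ.real (A ∩ C) + ε := by
    have : A ⊆ (A ∩ C) ∪ symmDiff A C := by
      intro x hx
      by_cases h : x ∈ C
      · exact Or.inl ⟨hx, h⟩
      · exact Or.inr (Or.inl ⟨hx, h⟩)
    exact (measureReal_mono this).trans ((measureReal_union_le _ _).trans (by linarith))
  have m2 : μ.real (Aᶜ ∩ C) ≤ ε :=
    (measureReal_mono (fun x hx => Or.inr ⟨hx.2, hx.1⟩)).trans hB'
  have p1 : 0 ≤ μ.real A := measureReal_nonneg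
  have p2 : 0 ≤ μ.real Aᶜ := measureReal_nonneg
  rcases le_total (2 * (c : ℝ)) (D.n (l + 1)) with h | h
  · left
    have : 2 * μ.real (A ∩ C) ≤ μ.real A := by
      refine le_of_mul_le_mul_right ?_ hn
      nlinarith
    linarith
  · right
    have : μ.real Aᶜ ≤ 2 * μ.real (Aᶜ ∩ C) := by
      refine le_of_mul_le_mul_right ?_ hn
      nlinarith
    linarith

section entropy
open Lib.FinEnt

variable {Ω α : Type*} [Fintype Ω] [MeasurableSpace Ω] [MeasurableSingletonClass Ω]

lemma isP_law [IsProbabilityMeasure μ] {Z : X → Ω} (hZ : Measurable Z) :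
    IsP (fun ω => μ.real (Z ⁻¹' {ω})) := by
  refine ⟨fun _ => measureReal_nonneg, ?_⟩
  rw [sum_measureReal_preimage_singleton _ (fun _ _ => hZ (measurableSet_singleton _))]
  simp

lemma sum_law [IsProbabilityMeasure μ] {Z : X → Ω} (hZ : Measurable Z) (P : Ω → Prop)
    [DecidablePred P] :
    ∑ ω, (if P ω then μ.real (Z ⁻¹' {ω}) else 0) = μ.real {x | P (Z x)} := by
  rw [← sum_filter, sum_measureReal_preimage_singleton _
    (fun _ _ => hZ (measurableSet_singleton _))]
  congr 1
  ext x; simp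

lemma labelEntropy_eq [IsProbabilityMeasure μ] [Fintype α] {Z : X → Ω} (hZ : Measurable Z)
    (f : Ω → α) :
    labelEntropy μ (fun x => f (Z x)) = H (fun ω => μ.real (Z ⁻¹' {ω})) f := by
  classical
  unfold H labelEntropy
  rw [sum_fiber _ f univ (fun _ => mem_univ _)
    (fun v => -Real.log (pr (fun ω => μ.real (Z ⁻¹' {ω})) f v))]
  refine sum_congr rfl fun v _ => ?_
  have : pr (fun ω => μ.real (Z ⁻¹' {ω})) f v = (μ ((fun x => f (Z x)) ⁻¹' {v})).toReal := by
    unfold pr
    exact (sum_law (μ := μ) hZ (fun ω => f ω = v)).trans rfl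
  rw [this, Real.negMulLog]
  ring

omit [MeasurableSpace Ω] [MeasurableSingletonClass Ω] in
/-- Fano type bound -/
lemma fano {β : Type*} {w : Ω → ℝ} (hw : IsP w) {m : ℕ} (hm : 0 < m) (U : Ω → Fin m) (Y : Ω → β)
    (F : β → Fin m) {η ε : ℝ} (h0 : 0 < η) (h1 : η < 1)
    (herr : ∑ ω, (if U ω ≠ F (Y ω) then w ω else 0) ≤ ε) :
    Hc w U Y ≤ -Real.log (1 - η) + ε * Real.log (m / η) := by
  have hm' : (1 : ℝ) ≤ m := by exact_mod_cast hm
  have hl1 : 0 ≤ -Real.log (1 - η) := neg_nonneg.2 (Real.log_nonpos (by linarith) (by linarith))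
  have hl2 : 0 ≤ Real.log (m / η) := Real.log_nonneg (by rw [le_div_iff₀ h0]; linarith)
  have := gibbs hw U Y (fun y a => (if a = F y then 1 - η else 0) + η / m)
    (fun y a => by split_ifs <;> [(have : 0 ≤ η / m := by positivity); skip] <;>
      first | linarith | positivity)
    (fun y s => by
      refine (sum_le_sum_of_subset_of_nonneg (subset_univ s) fun a _ _ => ?_).trans ?_
      · have : 0 ≤ η / m := by positivity
        split_ifs <;> linarith
      · rw [sum_add_distrib, sum_ite_eq', sum_const, card_univ, Fintype.card_fin, nsmul_eq_mul]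
        simp only [mem_univ, if_true]
        rw [mul_div_cancel₀ _ (by positivity)]
        linarith)
    (fun ω _ => by
      have : 0 < η / m := by positivity
      split_ifs <;> linarith)
  refine this.trans ?_
  calc _ ≤ ∑ ω, (w ω * -Real.log (1 - η) +
        (if U ω ≠ F (Y ω) then w ω else 0) * Real.log (m / η)) := by
        refine sum_le_sum fun ω _ => ?_
        have hw0 := hw.nn ω
        by_cases h : U ω = F (Y ω)
        · simp only [h, if_true, ne_eq, not_true_eq_false, if_false, zero_mul, add_zero]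
          refine mul_le_mul_of_nonneg_left (neg_le_neg (Real.log_le_log (by linarith) ?_)) hw0
          have : 0 ≤ η / m := by positivity
          linarith
        · simp only [h, if_false, ne_eq, not_false_eq_true, if_true, zero_add]
          rw [← Real.log_inv, inv_div]
          nlinarith [mul_nonneg hw0 hl1]
    _ ≤ _ := by
        rw [sum_add_distrib, ← sum_mul, ← sum_mul, hw.one, one_mul]
        gcongr

lemma entropy_le [IsProbabilityMeasure μ] (tw : Tower D μ T) (hT : MeasurePreserving T μ μ)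
    {m : ℕ} (hm : 0 < m) (P : X → Fin m) (hP : Measurable P) (l : ℕ)
    (f : Fin (D.Q l) × ℕ → Fin m) {η ε : ℝ} (h0 : 0 < η) (h1 : η < 1)
    (herr : μ.real {x | P x ≠ f (tw.s l x, tw.p l x)} ≤ ε) (N : ℕ) :
    labelEntropy μ (fun x : X => fun j : Fin N => P (T^[(j : ℕ)] x)) ≤
      Real.log (D.n l) + (N / D.n l + 2) * Real.log (D.Q l) +
        N * (-Real.log (1 - η) + ε * Real.log (m / η)) := by
  classical
  have hn := D.n_pos l
  set K := N / D.n l + 2 with hK
  let Z : X → (Fin N → Fin m) × (Fin (D.n l) × (Fin K → Fin (D.Q l))) := fun x =>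
    (fun j => P (T^[(j : ℕ)] x), ⟨tw.p l x, tw.plt l x⟩, fun b => tw.s l (T^[b * D.n l] x))
  have hZ : Measurable Z := by
    refine Measurable.prodMk (measurable_pi_lambda _ fun j => hP.comp (hT.iterate j).measurable)
      (Measurable.prodMk ?_ (measurable_pi_lambda _ fun b =>
        (tw.ms l).comp (hT.iterate _).measurable))
    refine measurable_to_countable' fun a => ?_
    have : (fun x => (⟨tw.p l x, tw.plt l x⟩ : Fin (D.n l))) ⁻¹' {a} = tw.p l ⁻¹' {(a : ℕ)} := by
      ext x; simp [Fin.ext_iff]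
    rw [this]
    exact tw.mp l (measurableSet_singleton _)
  have hw := isP_law (μ := μ) hZ
  have e := labelEntropy_eq (μ := μ) hZ Prod.fst
  change labelEntropy μ (fun x : X => fun j : Fin N => P (T^[(j : ℕ)] x)) = _ at e
  rw [e]
  set w := fun ω => μ.real (Z ⁻¹' {ω}) with hwdef
  have a1 := H_sub_le_Hc hw Prod.fst Prod.snd
  have a2 := H_le_log_card hw Prod.snd univ (fun _ => mem_univ _)
  have a3 := Hc_le_sum hw univ (fun (j : Fin N) ω => ω.1 j) Prod.snd Prod.fst
    (fun ω ω' h => funext fun j => h j (mem_univ _))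
  have hidx : ∀ (p : Fin (D.n l)) (j : Fin N), ((p : ℕ) + j) / D.n l < K := by
    intro p j
    have h2 : (p : ℕ) + j ≤ N + D.n l := by have := p.2; have := j.2; omega
    have h3 := Nat.div_le_div_right (c := D.n l) h2
    rw [Nat.add_div_right _ hn] at h3
    omega
  have a4 : ∀ j : Fin N, Hc w (fun ω => ω.1 j) Prod.snd ≤
      -Real.log (1 - η) + ε * Real.log (m / η) := by
    intro j
    refine fano hw hm _ _ (fun γ => f (γ.2 ⟨_, hidx γ.1 j⟩, ((γ.1 : ℕ) + j) % D.n l)) h0 h1 ?_
    rw [sum_law hZ]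
    refine le_trans (le_of_eq ?_) herr
    have hms : MeasurableSet {x | P x ≠ f (tw.s l x, tw.p l x)} :=
      (measurableSet_eq_fun hP ((measurable_of_countable f).comp
        ((tw.ms l).prodMk (tw.mp l)))).compl
    rw [← (hT.iterate j).measureReal_preimage hms.nullMeasurableSet]
    refine measureReal_congr ?_
    filter_upwards [ae_state tw hT] with x hx
    change (P (T^[j] x) ≠ f (tw.s l (T^[(tw.p l x + j) / D.n l * D.n l] x),
      (tw.p l x + j) % D.n l)) = (P (T^[j] x) ≠ f (tw.s l (T^[j] x), tw.p l (T^[j] x)))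
    rw [(hx l j).1, ← (hx l j).2]
  have a5 := sum_le_sum (s := univ) fun j _ => a4 j
  rw [sum_const, card_univ, Fintype.card_fin, nsmul_eq_mul] at a5
  have hQ : (1 : ℝ) ≤ D.Q l := by have := D.Q_ge l; exact_mod_cast (by omega)
  have a6 : Real.log ((univ : Finset (Fin (D.n l) × (Fin K → Fin (D.Q l)))).card : ℝ) ≤
      Real.log (D.n l) + (N / D.n l + 2) * Real.log (D.Q l) := by
    rw [card_univ, Fintype.card_prod, Fintype.card_fun, Fintype.card_fin, Fintype.card_fin,
      Fintype.card_fin, Nat.cast_mul, Nat.cast_pow, Real.log_mul (by positivity) (by positivity),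
      Real.log_pow]
    have : (K : ℝ) ≤ N / D.n l + 2 := by
      rw [hK]; push_cast
      have := Nat.cast_div_le (α := ℝ) (m := N) (n := D.n l)
      linarith
    have := Real.log_nonneg hQ
    gcongr
  linarith

end entropy

lemma approx_label [IsProbabilityMeasure μ] (tw : Tower D μ T) (hg : tw.Gen) {m : ℕ} (hm : 0 < m)
    (P : X → Fin m) (hP : Measurable P) {ε : ℝ} (hε : 0 < ε) : ∃ l₀, ∀ l ≥ l₀,
    ∃ f : Fin (D.Q l) × ℕ → Fin m, μ.real {x | P x ≠ f (tw.s l x, tw.p l x)} ≤ ε := by
  classical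
  have hm' : (0 : ℝ) < m := by exact_mod_cast hm
  choose l₀ hl₀ using fun a : Fin m => hg (P ⁻¹' {a}) (hP (measurableSet_singleton a))
    (ENNReal.ofReal (ε / m)) (by simpa using div_pos hε hm')
  refine ⟨univ.sup l₀, fun l hl => ?_⟩
  choose B hB using fun a : Fin m => hl₀ a l ((le_sup (f := l₀) (mem_univ a)).trans hl)
  refine ⟨fun σ => if h : ∃ a, σ ∈ B a then h.choose else ⟨0, hm⟩, ?_⟩
  have hsub : {x | P x ≠ (fun σ => if h : ∃ a, σ ∈ B a then h.choose else ⟨0, hm⟩)
      (tw.s l x, tw.p l x)} ⊆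
      ⋃ a, symmDiff (P ⁻¹' {a}) {x | (tw.s l x, tw.p l x) ∈ B a} := by
    intro x hx
    by_contra hcon
    simp only [Set.mem_iUnion, not_exists, Set.mem_symmDiff, Set.mem_preimage,
      Set.mem_singleton_iff, Set.mem_setOf_eq, not_or, not_and, not_not] at hcon
    have h1 : ∃ a, (tw.s l x, tw.p l x) ∈ B a := ⟨P x, (hcon (P x)).1 rfl⟩
    apply hx
    simp only [dif_pos h1]
    exact (hcon _).2 h1.choose_spec
  refine (measureReal_mono hsub).trans ((measureReal_iUnion_fintype_le _).trans ?_)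
  refine (sum_le_sum fun a _ => ENNReal.toReal_le_of_le_ofReal (div_pos hε hm').le (hB a)).trans ?_
  rw [sum_const, card_univ, Fintype.card_fin, nsmul_eq_mul, mul_div_cancel₀ _ hm'.ne']

end SysProp

open SysProp Filter Topology

theorem Tower.ergodic [IsProbabilityMeasure μ] (tw : Tower D μ T) (hg : tw.Gen)
    (hT : MeasurePreserving T μ μ) : Ergodic T μ := by
  refine ⟨hT, ⟨fun A hA hinv => ?_⟩⟩
  rw [eventuallyConst_set]
  by_contra hcon
  rw [not_or] at hcon
  have h1 : 0 < μ.real Aᶜ := ENNReal.toReal_pos hcon.1 (measure_ne_top _ _)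
  have h2 : 0 < μ.real A := ENNReal.toReal_pos (fun h => hcon.2 (measure_eq_zero_iff_ae_notMem.1 h))
    (measure_ne_top _ _)
  have := small_or tw hg hT A hA hinv (min (μ.real A) (μ.real Aᶜ) / 4) (by positivity)
  have h3 := min_le_left (μ.real A) (μ.real Aᶜ)
  have h4 := min_le_right (μ.real A) (μ.real Aᶜ)
  rcases this with h | h <;> linarith

theorem Tower.zeroEntropy [IsProbabilityMeasure μ] (tw : Tower D μ T) (hg : tw.Gen)
    (hT : MeasurePreserving T μ μ) : HasZeroEntropy μ T := by
  intro m P hP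
  have hm : 0 < m := (P (nonempty_of_isProbabilityMeasure μ).some).pos
  have hm' : (1 : ℝ) ≤ m := by exact_mod_cast hm
  rw [Metric.tendsto_atTop]
  intro δ hδ
  -- choice of `η`
  set η : ℝ := 1 - Real.exp (-(δ / 5)) with hη
  have hη0 : 0 < η := by
    have := Real.exp_lt_one_iff.2 (show -(δ / 5) < 0 by linarith)
    linarith
  have hη1 : η < 1 := by have := Real.exp_pos (-(δ / 5)); linarith
  have hη2 : -Real.log (1 - η) = δ / 5 := by rw [hη, sub_sub_cancel, Real.log_exp, neg_neg]
  have hL : 0 < Real.log (m / η) := Real.log_pos (by rw [lt_div_iff₀ hη0]; linarith)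
  obtain ⟨l₀, hl₀⟩ := approx_label tw hg hm P hP (ε := δ / 5 / Real.log (m / η)) (by positivity)
  obtain ⟨l, hl1, hl2⟩ := ((D.rate.eventually (gt_mem_nhds (show (0 : ℝ) < δ / 5 by positivity))).and
    (eventually_ge_atTop l₀)).exists
  obtain ⟨f, hf⟩ := hl₀ l hl2
  have hlim : Tendsto (fun N : ℕ => (Real.log (D.n l) + 2 * Real.log (D.Q l)) / (N : ℝ)) atTop
      (𝓝 0) := tendsto_const_div_atTop_nhds_zero_nat _
  obtain ⟨N₀, hN₀⟩ := eventually_atTop.1
    ((hlim.eventually (gt_mem_nhds (show (0 : ℝ) < δ / 5 by positivity))).and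
      (eventually_gt_atTop 0))
  refine ⟨N₀, fun N hN => ?_⟩
  obtain ⟨h1, h2⟩ := hN₀ N hN
  have hN' : (0 : ℝ) < N := by exact_mod_cast h2
  have h3 := entropy_le tw hT hm P hP l f hη0 hη1 hf N
  rw [hη2, div_mul_cancel₀ _ hL.ne'] at h3
  have h4 : 0 ≤ labelEntropy μ (fun x : X => fun j : Fin N => P (T^[(j : ℕ)] x)) :=
    Finset.sum_nonneg fun a _ => Real.negMulLog_nonneg ENNReal.toReal_nonneg measureReal_le_one
  rw [Real.dist_eq, sub_zero, abs_of_nonneg (div_nonneg h4 hN'.le), div_lt_iff₀ hN']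
  rw [div_lt_iff₀ hN'] at h1
  have h5 : (N : ℝ) / D.n l * Real.log (D.Q l) ≤ N * (δ / 5) := by
    rw [div_mul_eq_mul_div, mul_div_assoc]
    exact mul_le_mul_of_nonneg_left hl1.le hN'.le
  nlinarith

theorem Tower.measure_singleton (tw : Tower D μ T) (x : X) : μ {x} = 0 := by
  by_contra h
  obtain ⟨l, hl⟩ := ENNReal.exists_inv_nat_lt h
  have h1 : μ {x} ≤ μ {y | tw.p l y = tw.p l x} := measure_mono (by simp)
  rw [tw.measure_p l _ (tw.plt l x)] at h1
  refine absurd (h1.trans (ENNReal.inv_le_inv.2 ?_)) (not_le.2 hl)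
  exact_mod_cast (lt_n D l).le

theorem isStandard [StandardBorelSpace X] [IsProbabilityMeasure μ] (h : ∀ x, μ {x} = 0) :
    IsStandardProbability μ := by
  have : NullSingletonClass μ := ⟨h⟩
  have he := measurableEmbedding_embeddingReal X
  set m' := μ.map (embeddingReal X) with hm'
  have : IsProbabilityMeasure m' := Measure.isProbabilityMeasure_map he.measurable.aemeasurable
  have : NullSingletonClass m' := by
    constructor
    intro x
    rw [hm', he.map_apply]
    exact (Set.subsingleton_singleton.preimage he.injective).measure_zero _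
  let V : X → unitInterval := fun x => ⟨ProbabilityTheory.cdf m' (embeddingReal X x),
    ProbabilityTheory.cdf_nonneg m' _, ProbabilityTheory.cdf_le_one m' _⟩
  have hV : Measurable V :=
    Measurable.subtype_mk ((ProbabilityTheory.monotone_cdf m').measurable.comp he.measurable)
  have hmap : μ.map V = volume := by
    have := Measure.isProbabilityMeasure_map (μ := μ) hV.aemeasurable
    refine Measure.ext_of_Iic _ _ fun t => ?_
    rw [Measure.map_apply hV measurableSet_Iic, unitInterval.volume_Iic,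
      ← R130.measure_cdf_le m' t t.2.1 t.2.2, hm', he.map_apply]
    rfl
  set Bad : Set unitInterval := Subtype.val ⁻¹' {c : ℝ | ∃ x y, x < y ∧
    ProbabilityTheory.cdf m' x = c ∧ ProbabilityTheory.cdf m' y = c} with hBad
  have hc : Bad.Countable :=
    ((ProbabilityTheory.monotone_cdf m').countable_setOfPred_two_preimages).preimage
      Subtype.val_injective
  have hX₀ : MeasurableSet (V ⁻¹' Badᶜ) := hV hc.measurableSet.compl
  have hμ₀ : μ (V ⁻¹' Badᶜ)ᶜ = 0 := by
    rw [← Set.preimage_compl, compl_compl, ← Measure.map_apply hV hc.measurableSet, hmap]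
    exact hc.measure_zero _
  have hinj : Set.InjOn V (V ⁻¹' Badᶜ) := by
    intro x hx y _ hxy
    have h1 : ProbabilityTheory.cdf m' (embeddingReal X x) =
      ProbabilityTheory.cdf m' (embeddingReal X y) := congrArg Subtype.val hxy
    apply he.injective
    by_contra hne
    apply hx
    rcases lt_or_gt_of_ne hne with h2 | h2
    · exact ⟨_, _, h2, rfl, h1.symm⟩
    · exact ⟨_, _, h2, h1.symm, rfl⟩
  have := hX₀.standardBorel
  have hemb : MeasurableEmbedding (fun x : (V ⁻¹' Badᶜ) => V x) :=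
    (hV.comp measurable_subtype_coe).measurableEmbedding
      (fun x y hxy => Subtype.ext (hinj x.2 y.2 hxy))
  obtain ⟨G, hG1, hG2⟩ := hemb.exists_measurable_extend (g := Subtype.val) measurable_subtype_coe
    (fun _ => nonempty_of_isProbabilityMeasure μ)
  have hY₀ : MeasurableSet (V '' (V ⁻¹' Badᶜ)) := by
    have := hemb.measurableSet_range
    rwa [Set.image_eq_range]
  refine ⟨V ⁻¹' Badᶜ, V '' (V ⁻¹' Badᶜ), V, G, hX₀, hY₀, hμ₀, ?_, hV, hG1, hinj.bijOn_image,
    fun x hx => congrFun hG2 ⟨x, hx⟩, hmap⟩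
  rw [← hmap, Measure.map_apply hV hY₀.compl]
  exact measure_mono_null (fun x hx hx' => hx ⟨x, hx', rfl⟩) hμ₀

theorem Tower.transfer (tw : Tower D μ T) {M : Type*} [MeasurableSpace M] {ν : Measure M}
    {S : M → M} (h : AreMeasConjugate μ T ν S) : Nonempty (Tower D ν S) := by
  obtain ⟨X₀, M₀, F, G, -, -, hX, hM, hT, -, hF, hG, hbij, hGF, hmap, hcomm⟩ := h
  have hGm : MeasurePreserving G ν μ := by
    refine ⟨hG, ?_⟩
    rw [← hmap, Measure.map_map hG hF]
    have : G ∘ F =ᵐ[μ] id := by
      filter_upwards [show X₀ ∈ ae μ from hX] with x hx using hGF x hx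
    rw [Measure.map_congr this, Measure.map_id]
  have hGS : ∀ᵐ y ∂ν, G (S y) = T (G y) := by
    filter_upwards [show M₀ ∈ ae ν from hM] with y hy
    obtain ⟨x, hx, rfl⟩ := hbij.surjOn hy
    rw [← hcomm x hx, hGF x hx, hGF _ (hT.mapsTo hx)]
  refine ⟨⟨fun l y => tw.s l (G y), fun l y => tw.p l (G y), fun l => (tw.ms l).comp hG,
    fun l => (tw.mp l).comp hG, fun l y => tw.plt l _, fun l a t ht => ?_, fun l => ?_,
    fun l => hGm.quasiMeasurePreserving.ae (tw.proj l)⟩⟩
  · rw [← tw.law l a t ht]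
    exact hGm.measure_preimage (s := {x | tw.s l x = a ∧ tw.p l x = t})
      ((tw.ms l (measurableSet_singleton a)).inter
        (tw.mp l (measurableSet_singleton t))).nullMeasurableSet
  · filter_upwards [hGS, hGm.quasiMeasurePreserving.ae (tw.step l)] with y h1 h2
    rw [h1]; exact h2

end Crest.Agent.R133
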