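import Crest.Agent.R133.Defs

/-! # Row 133: general lemmas for the tube lemma -/

set_option autoImplicit false

namespace Crest.Agent.R133.Tube

open MeasureTheory Metric Module
open scoped ENNReal NNReal

section vol
variable {V : Type*} [NormedAddCommGroup V] [NormedSpace ℝ V] [FiniteDimensional ℝ V]
  [MeasurableSpace V] [BorelSpace V] (μ : Measure V) [μ.IsAddHaarMeasure]

lemma vol_image_le {f : V → V} {B : Set V} {K : ℝ≥0} (hf : LipschitzOnWith K f B) :
    μ (f '' B) ≤ (K : ℝ≥0∞) ^ (finrank ℝ V) * μ B := by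
  have h := hf.hausdorffMeasure_image_le (d := (finrank ℝ V : ℝ)) (by positivity)
  have e := Measure.isAddLeftInvariant_eq_smul μ (μH[finrank ℝ V] : Measure V)
  rw [e]
  simp only [Measure.smul_apply, ENNReal.smul_def, smul_eq_mul]
  rw [ENNReal.rpow_natCast] at h
  rw [mul_left_comm]
  exact mul_le_mul_right h _

lemma pow_le_two {h : ℝ} {D : ℕ} (h0 : 0 ≤ h) (hs : 2 * (D + 1) * h ≤ 1) :
    (1 - h)⁻¹ ^ D ≤ 2 ∧ (1 + h) ^ D ≤ 2 := by
  have hD : (0 : ℝ) ≤ D := Nat.cast_nonneg D
  have h1 : h ≤ 1 / 2 := by nlinarith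
  have hb : 1 + (D : ℝ) * (-h) ≤ (1 + (-h)) ^ D := one_add_mul_le_pow (by linarith) D
  have h2 : (1 / 2 : ℝ) ≤ (1 - h) ^ D := by
    have : (1 + (-h)) = 1 - h := by ring
    rw [this] at hb
    nlinarith
  have hpos : 0 < 1 - h := by linarith
  have h3 : (1 - h)⁻¹ ^ D ≤ 2 := by
    rw [inv_pow, inv_le_comm₀ (by positivity) (by norm_num)]
    simpa using h2
  refine ⟨h3, le_trans (pow_le_pow_left₀ (by linarith) ?_ D) h3⟩
  rw [inv_eq_one_div, le_div_iff₀ hpos]
  nlinarith

/-- near-identity maps change the volume by a factor at most `2` -/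
lemma vol_near_id {f : V → V} {S : Set V} {h : ℝ} (h0 : 0 ≤ h)
    (hs : 2 * (finrank ℝ V + 1) * h ≤ 1)
    (hf : ∀ y ∈ S, ∀ y' ∈ S, ‖f y - f y' - (y - y')‖ ≤ h * ‖y - y'‖) {B : Set V} (hB : B ⊆ S) :
    μ (f '' B) ≤ 2 * μ B ∧ μ B ≤ 2 * μ (f '' B) := by
  obtain ⟨h1, h2⟩ := pow_le_two h0 hs
  have hD : (0 : ℝ) ≤ finrank ℝ V := Nat.cast_nonneg _
  have hh : h ≤ 1 / 2 := by nlinarith
  have hpos : 0 < 1 - h := by linarith
  have conv : ∀ (K : ℝ) (hK : 0 ≤ K), K ^ finrank ℝ V ≤ 2 →
      ((K.toNNReal : ℝ≥0) : ℝ≥0∞) ^ finrank ℝ V ≤ 2 := by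
    intro K hK h
    rw [← ENNReal.coe_pow]
    have : K.toNNReal ^ finrank ℝ V ≤ 2 := by
      rw [← NNReal.coe_le_coe, NNReal.coe_pow, Real.coe_toNNReal _ hK]; simpa using h
    exact_mod_cast this
  constructor
  · have hl : LipschitzOnWith (1 + h).toNNReal f B := by
      apply LipschitzOnWith.of_dist_le_mul
      intro y hy y' hy'
      have := hf y (hB hy) y' (hB hy')
      rw [dist_eq_norm, dist_eq_norm]
      have e : f y - f y' = (f y - f y' - (y - y')) + (y - y') := by abel
      have t := norm_add_le (f y - f y' - (y - y')) (y - y')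
      rw [← e] at t
      rw [Real.coe_toNNReal _ (by linarith)]
      linarith
    exact (vol_image_le μ hl).trans (mul_le_mul_left (conv _ (by linarith) h2) _)
  · have low : ∀ y ∈ B, ∀ y' ∈ B, ‖y - y'‖ ≤ (1 - h)⁻¹ * ‖f y - f y'‖ := by
      intro y hy y' hy'
      have := hf y (hB hy) y' (hB hy')
      have e : y - y' = (f y - f y') - (f y - f y' - (y - y')) := by abel
      have t := norm_sub_le (f y - f y') (f y - f y' - (y - y'))
      rw [← e] at t
      rw [inv_mul_eq_div, le_div_iff₀ hpos]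
      linarith
    classical
    let g : V → V := fun z => if hz : z ∈ f '' B then hz.choose else 0
    have hg : ∀ z ∈ f '' B, g z ∈ B ∧ f (g z) = z := by
      intro z hz
      simp only [g, dif_pos hz]
      exact hz.choose_spec
    have hl : LipschitzOnWith (1 - h)⁻¹.toNNReal g (f '' B) := by
      apply LipschitzOnWith.of_dist_le_mul
      intro z hz z' hz'
      have := low _ (hg z hz).1 _ (hg z' hz').1
      rw [(hg z hz).2, (hg z' hz').2] at this
      rw [dist_eq_norm, dist_eq_norm, Real.coe_toNNReal _ (by positivity)]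
      exact this
    have hsub : B ⊆ g '' (f '' B) := by
      intro y hy
      refine ⟨f y, ⟨y, hy, rfl⟩, ?_⟩
      have h1 := hg (f y) ⟨y, hy, rfl⟩
      have := low _ h1.1 _ hy
      rw [h1.2, sub_self, norm_zero, mul_zero] at this
      exact sub_eq_zero.1 (norm_le_zero_iff.1 this)
    exact (measure_mono hsub).trans
      ((vol_image_le μ hl).trans (mul_le_mul_left (conv _ (by positivity) h1) _))

end vol

lemma surj_near_id {V : Type*} [NormedAddCommGroup V] [NormedSpace ℝ V] [CompleteSpace V]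
    {f : V → V} {S : Set V} {h : ℝ} (h0 : 0 ≤ h) (hh : h ≤ 1 / 2)
    (hf : ∀ y ∈ S, ∀ y' ∈ S, ‖f y - f y' - (y - y')‖ ≤ h * ‖y - y'‖) {y z : V} {ε : ℝ}
    (hε : 0 ≤ ε) (hS : closedBall y (2 * ε) ⊆ S) (hz : ‖z - f y‖ ≤ ε) :
    ∃ y', ‖y' - y‖ ≤ 2 * ε ∧ f y' = z := by
  have ha : ApproximatesLinearOn f (ContinuousLinearMap.id ℝ V) S h.toNNReal := by
    intro y hy y' hy'
    rw [Real.coe_toNNReal _ h0]
    simpa using hf y hy y' hy'
  let I : (ContinuousLinearMap.id ℝ V).NonlinearRightInverse :=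
    { toFun := id, nnnorm := 1, bound' := by simp, right_inv' := by simp }
  have := ha.surjOn_closedBall_of_nonlinearRightInverse I (by positivity) hS
    (show z ∈ _ by
      rw [mem_closedBall, dist_eq_norm]
      simp only [I, NNReal.coe_one, inv_one, Real.coe_toNNReal _ h0]
      nlinarith)
  obtain ⟨y', h1, h2⟩ := this
  exact ⟨y', by rwa [mem_closedBall, dist_eq_norm] at h1, h2⟩

lemma det_id_add {V W : Type*} [AddCommGroup V] [Module ℝ V] [AddCommGroup W] [Module ℝ W]
    [FiniteDimensional ℝ V] [FiniteDimensional ℝ W] (R : W →ₗ[ℝ] V) (B : V →ₗ[ℝ] W)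
    (hBR : B ∘ₗ R = LinearMap.id) (c : ℝ) :
    LinearMap.det (LinearMap.id + c • (R ∘ₗ B)) = (1 + c) ^ finrank ℝ W := by
  classical
  let bV := Module.finBasis ℝ V
  let bW := Module.finBasis ℝ W
  rw [← LinearMap.det_toMatrix bV]
  have e1 : LinearMap.toMatrix bV bV (LinearMap.id + c • (R ∘ₗ B)) =
      1 + LinearMap.toMatrix bW bV (c • R) * LinearMap.toMatrix bV bW B := by
    rw [map_add, LinearMap.toMatrix_id, ← LinearMap.toMatrix_comp, LinearMap.smul_comp]
  rw [e1, Matrix.det_one_add_mul_comm, ← LinearMap.toMatrix_comp, LinearMap.comp_smul, hBR,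
    map_smul, LinearMap.toMatrix_id]
  have : (1 : Matrix (Fin (finrank ℝ W)) (Fin (finrank ℝ W)) ℝ) + c • 1 = (1 + c) • 1 := by
    rw [add_smul, one_smul]
  rw [this, Matrix.det_smul, Matrix.det_one, mul_one, Fintype.card_fin]

section shear
variable {X : Type*} [NormedAddCommGroup X] [NormedSpace ℝ X] [FiniteDimensional ℝ X]
  [MeasurableSpace X] [BorelSpace X] (μ : Measure X) [μ.IsAddHaarMeasure]

lemma mp_update {n : ℕ} (i i' : Fin n) (hi : i ≠ i') (G : X → X) (hG : Measurable G) :
    MeasurePreserving (fun y : Fin n → X => Function.update y i (y i - G (y i')))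
      (Measure.pi fun _ => μ) (Measure.pi fun _ => μ) := by
  obtain ⟨m, rfl⟩ : ∃ m, n = m + 1 := ⟨n - 1, by have := i.2; omega⟩
  obtain ⟨k, rfl⟩ := Fin.exists_succAbove_eq hi.symm
  have h1 := measurePreserving_piFinSuccAbove (α := fun _ : Fin (m + 1) => X) (fun _ => μ) i
  have h2 : MeasurePreserving (fun p : (Fin m → X) × X => (p.1, p.2 - G (p.1 k)))
      ((Measure.pi fun _ => μ).prod μ) ((Measure.pi fun _ => μ).prod μ) := by
    refine MeasurePreserving.skew_product (f := id) (g := fun (a : Fin m → X) (b : X) => b - G (a k))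
      (MeasurePreserving.id _) ?_ ?_
    · exact measurable_snd.sub (hG.comp ((measurable_pi_apply k).comp measurable_fst))
    · refine Filter.Eventually.of_forall fun a => ?_
      exact (measurePreserving_sub_right μ (G (a k))).map_eq
  have h3 := (h1.symm _).comp ((Measure.measurePreserving_swap).comp
    (h2.comp ((Measure.measurePreserving_swap).comp h1)))
  convert h3 using 1
  funext y
  simp only [Function.comp, MeasurableEquiv.piFinSuccAbove_apply, Prod.swap,
    MeasurableEquiv.piFinSuccAbove_symm_apply]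
  simp [Fin.insertNthEquiv, Fin.removeNth]

/-- extension of a finite path by zero -/
def ext {n : ℕ} (y : Fin n → X) (t : ℕ) : X := if h : t < n then y ⟨t, h⟩ else 0

/-- partial shear -/
def shear {n : ℕ} (G : ℕ → X → X) (k : ℕ) (y : Fin n → X) : Fin n → X :=
  fun j => if k < j then y j - G (j - 1) (ext y (j - 1)) else y j

lemma mp_shear {n : ℕ} (G : ℕ → X → X) (hG : ∀ t, Measurable (G t)) (k : ℕ) :
    MeasurePreserving (shear (n := n) G k) (Measure.pi fun _ => μ) (Measure.pi fun _ => μ) := by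
  by_cases hk : n ≤ k
  · have : shear (n := n) G k = id := by
      funext y j
      have := j.2
      simp only [shear, id]
      rw [if_neg (by omega)]
    rw [this]; exact MeasurePreserving.id _
  · push Not at hk
    induction' hr : n - k with r ih generalizing k
    · omega
    by_cases hk1 : k + 1 < n
    · have ih' := ih (k + 1) hk1 (by omega)
      have hu := mp_update μ (⟨k + 1, hk1⟩ : Fin n) ⟨k, hk⟩ (by simp) (G k) (hG k)
      convert hu.comp ih' using 1
      funext y j
      simp only [Function.comp, shear]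
      by_cases hj : j = ⟨k + 1, hk1⟩
      · subst hj
        simp [ext, hk]
      · rw [Function.update_of_ne hj]
        have : (j : ℕ) ≠ k + 1 := fun h => hj (Fin.ext h)
        simp only [shear]
        by_cases h1 : k < j
        · rw [if_pos h1, if_pos (by omega)]
        · rw [if_neg h1, if_neg (by omega)]
    · have : shear (n := n) G k = id := by
        funext y j
        have := j.2
        simp only [shear, id]
        rw [if_neg (by omega)]
      rw [this]; exact MeasurePreserving.id _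

end shear

/-- shadowing of pseudo-orbits -/
lemma shadow {X : Type*} [NormedAddCommGroup X] (F : ℕ → X → X) (x p q : ℕ → X) (m n : ℕ)
    (hmn : m ≤ n) (K τ ρ : ℝ) (hK : 1 ≤ K) (hτ : 0 ≤ τ)
    (hF : ∀ t < m, ∀ y ∈ ball (x t) ρ, ∀ y' ∈ ball (x t) ρ, ‖F t y - F t y'‖ ≤ K * ‖y - y'‖)
    (h0 : p 0 = q 0) (hp : ∀ t < m, ‖p t - x t‖ ≤ ρ / 2)
    (hpq : ∀ t < m, ‖p (t + 1) - F t (p t)‖ + ‖q (t + 1) - F t (q t)‖ ≤ τ)
    (hs : τ * n * K ^ n < ρ / 2) : ∀ t ≤ m, ‖p t - q t‖ ≤ τ * n * K ^ n := by
  have mono : ∀ t ≤ m, τ * t * K ^ t ≤ τ * n * K ^ n := by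
    intro t ht
    have h1 : (t : ℝ) ≤ n := by exact_mod_cast ht.trans hmn
    have h2 : K ^ t ≤ K ^ n := pow_le_pow_right₀ hK (ht.trans hmn)
    gcongr
  have main : ∀ t ≤ m, ‖p t - q t‖ ≤ τ * t * K ^ t := by
    intro t
    induction t with
    | zero => intro _; simp [h0]
    | succ t ih =>
      intro ht
      have ih' := ih (by omega)
      have hm := mono t (by omega)
      have hρ : 0 < ρ := by
        have : 0 ≤ τ * n * K ^ n := by positivity
        linarith
      have hpb : p t ∈ ball (x t) ρ := by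
        rw [mem_ball, dist_eq_norm]; linarith [hp t (by omega)]
      have hqb : q t ∈ ball (x t) ρ := by
        rw [mem_ball, dist_eq_norm]
        have e : q t - x t = (p t - x t) - (p t - q t) := by abel
        have := norm_sub_le (p t - x t) (p t - q t)
        rw [← e] at this
        linarith [hp t (by omega)]
      have h1 := hF t (by omega) _ hpb _ hqb
      have h2 := hpq t (by omega)
      have e : p (t + 1) - q (t + 1) = ((p (t + 1) - F t (p t)) - (q (t + 1) - F t (q t))) +
          (F t (p t) - F t (q t)) := by abel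
      have h3 := norm_add_le ((p (t + 1) - F t (p t)) - (q (t + 1) - F t (q t)))
        (F t (p t) - F t (q t))
      rw [← e] at h3
      have h4 := norm_sub_le (p (t + 1) - F t (p t)) (q (t + 1) - F t (q t))
      have h5 : K * ‖p t - q t‖ ≤ K * (τ * t * K ^ t) := by gcongr
      have h6 : 1 ≤ K ^ (t + 1) := one_le_pow₀ hK
      have h7 : τ ≤ τ * K ^ (t + 1) := by nlinarith
      push_cast
      calc _ ≤ τ + K * (τ * t * K ^ t) := by linarith
        _ ≤ τ * K ^ (t + 1) + K * (τ * t * K ^ t) := by linarith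
        _ = _ := by ring
  intro t ht
  exact (main t ht).trans (mono t ht)

end Crest.Agent.R133.Tube
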