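import Crest.Agent.R133.Tube_A

/-! # Row 133: path-space maps for the tube lemma -/

set_option autoImplicit false

namespace Crest.Agent.R133.Tube

open MeasureTheory Metric Module
open scoped ENNReal NNReal

variable {d n : ℕ}

/-- `act` as a linear map -/
noncomputable def actL (A : Matrix (Fin d) (Fin d) ℝ) : E d →ₗ[ℝ] E d where
  toFun := act A
  map_add' v w := by simp [act, Matrix.mulVec_add]
  map_smul' c v := by simp [act, Matrix.mulVec_smul]

lemma actL_apply (A : Matrix (Fin d) (Fin d) ℝ) (v : E d) : actL A v = act A v := rfl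

lemma actL_comb (A B C : Matrix (Fin d) (Fin d) ℝ) (v : E d) :
    actL A v - actL B (actL C v) = actL (A - B * C) v := by
  simp [actL_apply, act, Matrix.sub_mulVec, Matrix.mulVec_mulVec]

lemma actL_one (v : E d) : actL 1 v = v := by simp [actL_apply, act]

lemma actL_zero (v : E d) : actL 0 v = 0 := by simp [actL_apply, act]

/-- `ext` as a linear map -/
noncomputable def extL (n t : ℕ) : (Fin n → E d) →ₗ[ℝ] E d where
  toFun y := ext y t
  map_add' y z := by by_cases h : t < n <;> simp [ext, h]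
  map_smul' c y := by by_cases h : t < n <;> simp [ext, h]

lemma extL_apply (t : ℕ) (y : Fin n → E d) : extL n t y = ext y t := rfl

lemma ext_lt {t : ℕ} (h : t < n) (y : Fin n → E d) : ext y t = y ⟨t, h⟩ := by simp [ext, h]

lemma norm_ext_sub (y z : Fin n → E d) (t : ℕ) : ‖ext y t - ext z t‖ ≤ ‖y - z‖ := by
  by_cases h : t < n
  · rw [ext_lt h, ext_lt h]; exact norm_le_pi_norm (y - z) _
  · simp [ext, h]

/-- linearised jump at time `j` -/
noncomputable def BL (n : ℕ) (a : ℕ → Matrix (Fin d) (Fin d) ℝ) (j : ℕ) :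
    (Fin n → E d) →ₗ[ℝ] E d :=
  extL n (j + 1) - actL (a j) ∘ₗ extL n j

/-- column of the right inverse -/
noncomputable def RL (n : ℕ) (e : ℕ → Matrix (Fin d) (Fin d) ℝ) : E d →ₗ[ℝ] (Fin n → E d) :=
  LinearMap.pi fun t => actL (e t)

lemma BL_RL (a e : ℕ → Matrix (Fin d) (Fin d) ℝ) (s j : ℕ) (hj : j + 1 < n)
    (he : ∀ t, e (t + 1) - a t * e t = if t + 1 = s then 1 else 0) (w : E d) :
    BL n a j (RL n e w) = if j + 1 = s then w else 0 := by
  simp only [BL, RL, LinearMap.sub_apply, LinearMap.comp_apply, extL_apply]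
  rw [ext_lt hj, ext_lt (by omega : j < n)]
  simp only [LinearMap.pi_apply]
  rw [actL_comb, he]
  split_ifs
  · exact actL_one w
  · exact actL_zero w

lemma norm_RL (e : ℕ → Matrix (Fin d) (Fin d) ℝ) {Λ : ℝ} (hΛ : 0 ≤ Λ)
    (he : ∀ t < n, ∀ w, ‖act (e t) w‖ ≤ Λ * ‖w‖) (w : E d) : ‖RL n e w‖ ≤ Λ * ‖w‖ := by
  rw [pi_norm_le_iff_of_nonneg (by positivity)]
  intro t
  exact he t t.2 w

/-- nonlinear jump at time `j` -/
noncomputable def Psi (F : ℕ → E d → E d) (y : Fin n → E d) (j : ℕ) : E d :=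
  ext y (j + 1) - F j (ext y j)

/-- the straightening map -/
noncomputable def Xi (F : ℕ → E d → E d) (a : ℕ → Matrix (Fin d) (Fin d) ℝ)
    (e : ℕ → ℕ → Matrix (Fin d) (Fin d) ℝ) (y : Fin n → E d) : Fin n → E d :=
  y + ∑ j ∈ Finset.range (n - 1), RL n (e (j + 1)) (actL (a j) (ext y j) - F j (ext y j))

lemma BL_Xi (F : ℕ → E d → E d) (a : ℕ → Matrix (Fin d) (Fin d) ℝ)
    (e : ℕ → ℕ → Matrix (Fin d) (Fin d) ℝ)
    (he : ∀ s, 0 < s → s < n → ∀ t, e s (t + 1) - a t * e s t = if t + 1 = s then 1 else 0)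
    (y : Fin n → E d) (j : ℕ) (hj : j + 1 < n) : BL n a j (Xi F a e y) = Psi F y j := by
  rw [Xi, map_add, map_sum, Finset.sum_eq_single j]
  · rw [BL_RL a (e (j + 1)) (j + 1) j hj (he _ (by omega) hj), if_pos rfl]
    simp only [BL, Psi, LinearMap.sub_apply, LinearMap.comp_apply, extL_apply]
    abel
  · intro i hi hij
    rw [Finset.mem_range] at hi
    rw [BL_RL a (e (i + 1)) (i + 1) j hj (he _ (by omega) (by omega)), if_neg (by omega)]
  · intro h
    exact absurd (Finset.mem_range.2 (by omega)) h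

lemma Xi_near (F : ℕ → E d → E d) (a : ℕ → Matrix (Fin d) (Fin d) ℝ)
    (e : ℕ → ℕ → Matrix (Fin d) (Fin d) ℝ) (x : ℕ → E d) {Λ h ρ : ℝ} (hΛ : 0 ≤ Λ) (hh : 0 ≤ h)
    (hρ : 0 < ρ)
    (he : ∀ s, 0 < s → s < n → ∀ t < n, ∀ w, ‖act (e s t) w‖ ≤ Λ * ‖w‖)
    (happ : ∀ t, t + 1 < n → ∀ y ∈ ball (x t) ρ, ∀ y' ∈ ball (x t) ρ,
      ‖F t y - F t y' - act (a t) (y - y')‖ ≤ h * ‖y - y'‖) :
    ∀ y ∈ closedBall (fun t : Fin n => x t) (ρ / 2),
      ∀ y' ∈ closedBall (fun t : Fin n => x t) (ρ / 2),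
      ‖Xi F a e y - Xi F a e y' - (y - y')‖ ≤ n * Λ * h * ‖y - y'‖ := by
  have hb : ∀ y ∈ closedBall (fun t : Fin n => x t) (ρ / 2), ∀ j < n, ext y j ∈ ball (x j) ρ := by
    intro y hy j hj
    rw [mem_closedBall, dist_eq_norm] at hy
    have := norm_le_pi_norm (y - fun t : Fin n => x t) ⟨j, hj⟩
    rw [ext_lt hj, mem_ball, dist_eq_norm]
    simp only [Pi.sub_apply] at this
    linarith
  intro y hy y' hy'
  have e1 : Xi F a e y - Xi F a e y' - (y - y') = ∑ j ∈ Finset.range (n - 1),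
      RL n (e (j + 1)) (-(F j (ext y j) - F j (ext y' j) - act (a j) (ext y j - ext y' j))) := by
    simp only [Xi]
    rw [show ∀ A B : Fin n → E d, y + A - (y' + B) - (y - y') = A - B from
      fun A B => by abel, ← Finset.sum_sub_distrib]
    refine Finset.sum_congr rfl fun j _ => ?_
    rw [← map_sub, ← actL_apply, map_sub (actL (a j))]
    congr 1
    abel
  rw [e1]
  refine (norm_sum_le _ _).trans ?_
  have : ∀ j ∈ Finset.range (n - 1), ‖RL n (e (j + 1))
      (-(F j (ext y j) - F j (ext y' j) - act (a j) (ext y j - ext y' j)))‖ ≤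
      Λ * h * ‖y - y'‖ := by
    intro j hj
    rw [Finset.mem_range] at hj
    refine (norm_RL _ hΛ (he _ (by omega) (by omega)) _).trans ?_
    rw [norm_neg, mul_assoc]
    refine mul_le_mul_of_nonneg_left ?_ hΛ
    refine (happ j (by omega) _ (hb y hy j (by omega)) _ (hb y' hy' j (by omega))).trans ?_
    exact mul_le_mul_of_nonneg_left (norm_ext_sub _ _ _) hh
  refine (Finset.sum_le_card_nsmul _ _ _ this).trans ?_
  rw [Finset.card_range, nsmul_eq_mul]
  have h1 : ((n - 1 : ℕ) : ℝ) ≤ n := by exact_mod_cast Nat.sub_le n 1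
  have h2 : 0 ≤ Λ * h * ‖y - y'‖ := by positivity
  nlinarith

lemma prod_one_slot (hn : 0 < n) (A b : ℝ≥0∞) :
    ∏ j : Fin n, (if (j : ℕ) = 0 then A else b) = A * b ^ (n - 1) := by
  obtain ⟨m, rfl⟩ : ∃ m, n = m + 1 := ⟨n - 1, by omega⟩
  rw [Fin.prod_univ_succ]
  simp

lemma prod_two_slot {s : ℕ} (hs0 : 0 < s) (hs : s < n) (A B b : ℝ≥0∞) :
    ∏ j : Fin n, (if (j : ℕ) = 0 then A else if (j : ℕ) = s then B else b) =
      A * B * b ^ (n - 2) := by
  obtain ⟨m, rfl⟩ : ∃ m, n = m + 2 := ⟨n - 2, by omega⟩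
  obtain ⟨r, rfl⟩ : ∃ r, s = r + 1 := ⟨s - 1, by omega⟩
  rw [Fin.prod_univ_succ, Fin.prod_univ_succAbove _ (⟨r, by omega⟩ : Fin (m + 1))]
  have : ∀ i : Fin m, ((Fin.succAbove (⟨r, by omega⟩ : Fin (m + 1)) i : Fin (m + 1)) : ℕ) ≠ r := by
    intro i h
    exact Fin.succAbove_ne (⟨r, by omega⟩ : Fin (m + 1)) i (Fin.ext h)
  simp [this, mul_assoc]

end Crest.Agent.R133.Tube
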